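import Mathlib

/-!
# P207, line N3, row EL': `C^k` bounds on open sets, calculus without Faa di Bruno

`Bd U k f C`: `f` is `C^k` on the open set `U` and all its (iterated) derivatives of order `≤ k` are
bounded by `C` on `U`.  Everything is proved by induction on `k`, for all target spaces at once.
-/

open Set Filter Topology MeasureTheory

namespace P207N3H639

/-- `f` is `C^k` on the open set `U`, with all iterated derivatives of order `≤ k` bounded by `C`. -/
def Bd {E : Type} [NormedAddCommGroup E] [NormedSpace ℝ E] (U : Set E) :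
    (k : ℕ) → {F : Type} → [NormedAddCommGroup F] → [NormedSpace ℝ F] → (E → F) → ℝ → Prop
  | 0, _, _, _, f, C => ContinuousOn f U ∧ ∀ x ∈ U, ‖f x‖ ≤ C
  | k + 1, _, _, _, f, C => (∀ x ∈ U, DifferentiableAt ℝ f x) ∧ (∀ x ∈ U, ‖f x‖ ≤ C) ∧
      Bd U k (fderiv ℝ f) C

variable {E : Type} [NormedAddCommGroup E] [NormedSpace ℝ E]
variable {E' : Type} [NormedAddCommGroup E'] [NormedSpace ℝ E']
variable {F : Type} [NormedAddCommGroup F] [NormedSpace ℝ F]
variable {G : Type} [NormedAddCommGroup G] [NormedSpace ℝ G]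
variable {H : Type} [NormedAddCommGroup H] [NormedSpace ℝ H]
variable {U : Set E}

theorem Bd.norm_le {k : ℕ} {f : E → F} {C : ℝ} (h : Bd U k f C) {x : E} (hx : x ∈ U) :
    ‖f x‖ ≤ C := by
  cases k with
  | zero => exact h.2 x hx
  | succ k => exact h.2.1 x hx

theorem Bd.continuousOn {k : ℕ} {f : E → F} {C : ℝ} (h : Bd U k f C) : ContinuousOn f U := by
  cases k with
  | zero => exact h.1
  | succ k => exact fun x hx => (h.1 x hx).continuousAt.continuousWithinAt

theorem Bd.of_succ {k : ℕ} : ∀ {F : Type} [NormedAddCommGroup F] [NormedSpace ℝ F] {f : E → F}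
    {C : ℝ}, Bd U (k + 1) f C → Bd U k f C := by
  induction k with
  | zero => intro F _ _ f C h; exact ⟨h.continuousOn, fun x hx => h.norm_le hx⟩
  | succ k ih => intro F _ _ f C h; exact ⟨h.1, h.2.1, ih h.2.2⟩

theorem Bd.of_le {k l : ℕ} (hkl : k ≤ l) {f : E → F} {C : ℝ} (h : Bd U l f C) : Bd U k f C := by
  induction l, hkl using Nat.le_induction with
  | base => exact h
  | succ l _ ih => exact ih h.of_succ

theorem Bd.mono {k : ℕ} : ∀ {F : Type} [NormedAddCommGroup F] [NormedSpace ℝ F] {f : E → F}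
    {C C' : ℝ}, C ≤ C' → Bd U k f C → Bd U k f C' := by
  induction k with
  | zero => intro F _ _ f C C' hC h; exact ⟨h.1, fun x hx => (h.2 x hx).trans hC⟩
  | succ k ih => intro F _ _ f C C' hC h; exact ⟨h.1, fun x hx => (h.2.1 x hx).trans hC, ih hC h.2.2⟩

theorem Bd.mono_set {V : Set E} (hVU : V ⊆ U) {k : ℕ} : ∀ {F : Type} [NormedAddCommGroup F]
    [NormedSpace ℝ F] {f : E → F} {C : ℝ}, Bd U k f C → Bd V k f C := by
  induction k with
  | zero => intro F _ _ f C h; exact ⟨h.1.mono hVU, fun x hx => h.2 x (hVU hx)⟩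
  | succ k ih =>
    intro F _ _ f C h
    exact ⟨fun x hx => h.1 x (hVU hx), fun x hx => h.2.1 x (hVU hx), ih h.2.2⟩

theorem Bd.fd {k : ℕ} {f : E → F} {C : ℝ} (h : Bd U (k + 1) f C) :
    Bd U k (fderiv ℝ f) C := h.2.2

theorem Bd.nonneg {k : ℕ} {f : E → F} {C : ℝ} (h : Bd U k f C) (hU : U.Nonempty) : 0 ≤ C :=
  let ⟨_, hx⟩ := hU
  (norm_nonneg _).trans (h.norm_le hx)

theorem Bd.congr (hU : IsOpen U) {k : ℕ} : ∀ {F : Type} [NormedAddCommGroup F] [NormedSpace ℝ F]
    {f g : E → F} {C : ℝ}, EqOn f g U → Bd U k f C → Bd U k g C := by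
  induction k with
  | zero =>
    intro F _ _ f g C hfg h
    exact ⟨h.1.congr fun x hx => (hfg hx).symm, fun x hx => hfg hx ▸ h.2 x hx⟩
  | succ k ih =>
    intro F _ _ f g C hfg h
    have hev : ∀ x ∈ U, f =ᶠ[𝓝 x] g := fun x hx =>
      Filter.eventuallyEq_iff_exists_mem.2 ⟨U, hU.mem_nhds hx, hfg⟩
    refine ⟨fun x hx => (h.1 x hx).congr_of_eventuallyEq (hev x hx).symm,
      fun x hx => hfg hx ▸ h.2.1 x hx, ih (fun x hx => (hev x hx).fderiv_eq) h.2.2⟩

theorem Bd.const {k : ℕ} : ∀ {F : Type} [NormedAddCommGroup F] [NormedSpace ℝ F] (c : F),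
    Bd U k (fun _ => c) ‖c‖ := by
  induction k with
  | zero => intro F _ _ c; exact ⟨continuousOn_const, fun _ _ => le_rfl⟩
  | succ k ih =>
    intro F _ _ c
    refine ⟨fun _ _ => differentiableAt_const c, fun _ _ => le_rfl, ?_⟩
    have : fderiv ℝ (fun _ : E => c) = fun _ => 0 := by
      funext x; simp
    rw [this]
    have h0 := ih (0 : E →L[ℝ] F)
    exact h0.mono (by simp)

theorem Bd.zero {k : ℕ} {C : ℝ} (hC : 0 ≤ C) : Bd U k (fun _ => (0 : F)) C :=
  (Bd.const (0 : F)).mono (by simpa using hC)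

theorem Bd.add (hU : IsOpen U) {k : ℕ} : ∀ {F : Type} [NormedAddCommGroup F] [NormedSpace ℝ F]
    {f g : E → F} {C D : ℝ}, Bd U k f C → Bd U k g D → Bd U k (fun x => f x + g x) (C + D) := by
  induction k with
  | zero =>
    intro F _ _ f g C D hf hg
    exact ⟨hf.1.add hg.1, fun x hx => (norm_add_le _ _).trans (add_le_add (hf.2 x hx) (hg.2 x hx))⟩
  | succ k ih =>
    intro F _ _ f g C D hf hg
    refine ⟨fun x hx => (hf.1 x hx).add (hg.1 x hx),
      fun x hx => (norm_add_le _ _).trans (add_le_add (hf.2.1 x hx) (hg.2.1 x hx)), ?_⟩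
    refine Bd.congr hU (f := fun x => fderiv ℝ f x + fderiv ℝ g x) ?_
      (ih hf.2.2 hg.2.2)
    intro x hx
    exact ((hf.1 x hx).hasFDerivAt.add (hg.1 x hx).hasFDerivAt).fderiv.symm

/-- Post-composition with a continuous linear map. -/
theorem Bd.clm (hU : IsOpen U) {k : ℕ} : ∀ {F G : Type} [NormedAddCommGroup F] [NormedSpace ℝ F]
    [NormedAddCommGroup G] [NormedSpace ℝ G] (L : F →L[ℝ] G) {f : E → F} {C : ℝ},
    Bd U k f C → Bd U k (fun x => L (f x)) (‖L‖ * C) := by
  induction k with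
  | zero =>
    intro F G _ _ _ _ L f C hf
    exact ⟨L.continuous.comp_continuousOn hf.1, fun x hx =>
      (L.le_opNorm _).trans (mul_le_mul_of_nonneg_left (hf.2 x hx) (norm_nonneg _))⟩
  | succ k ih =>
    intro F G _ _ _ _ L f C hf
    refine ⟨fun x hx => L.differentiableAt.comp x (hf.1 x hx), fun x hx =>
      (L.le_opNorm _).trans (mul_le_mul_of_nonneg_left (hf.2.1 x hx) (norm_nonneg _)), ?_⟩
    have h1 := ih (ContinuousLinearMap.compL ℝ E F G L) hf.2.2
    have h2 : Bd U k (fun x => L.comp (fderiv ℝ f x)) (‖L‖ * C) := by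
      by_cases hne : U.Nonempty
      · refine Bd.mono (mul_le_mul_of_nonneg_right ?_ (hf.nonneg hne)) h1
        refine (ContinuousLinearMap.le_opNorm _ _).trans ?_
        exact (mul_le_mul_of_nonneg_right (ContinuousLinearMap.norm_compL_le ℝ E F G)
          (norm_nonneg _)).trans_eq (one_mul _)
      · rw [Set.not_nonempty_iff_eq_empty] at hne
        subst hne
        exact Bd.congr hU (f := fun x => (ContinuousLinearMap.compL ℝ E F G L)
          (fderiv ℝ f x)) (fun x hx => hx.elim) (by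
            have : ∀ {F' : Type} [NormedAddCommGroup F'] [NormedSpace ℝ F'] (j : ℕ) (g : E → F')
              (C : ℝ), Bd (∅ : Set E) j g C := by
              intro F' _ _ j
              induction j generalizing F' with
              | zero => intro g C; exact ⟨continuousOn_empty _, fun x hx => hx.elim⟩
              | succ j ihj =>
                intro g C
                exact ⟨fun x hx => hx.elim, fun x hx => hx.elim, ihj _ _⟩
            exact this _ _ _)
    refine Bd.congr hU ?_ h2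
    intro x hx
    exact ((L.hasFDerivAt).comp x (hf.1 x hx).hasFDerivAt).fderiv.symm

theorem Bd.neg (hU : IsOpen U) {k : ℕ} {f : E → F} {C : ℝ} (hf : Bd U k f C) :
    Bd U k (fun x => -f x) C := by
  induction k generalizing F with
  | zero => exact ⟨hf.1.neg, fun x hx => by rw [norm_neg]; exact hf.2 x hx⟩
  | succ k ih =>
    refine ⟨fun x hx => (hf.1 x hx).neg, fun x hx => by rw [norm_neg]; exact hf.2.1 x hx, ?_⟩
    refine Bd.congr hU ?_ (ih hf.2.2)
    intro x hx
    exact ((hf.1 x hx).hasFDerivAt.neg).fderiv.symm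

theorem Bd.sub (hU : IsOpen U) {k : ℕ} {f g : E → F} {C D : ℝ} (hf : Bd U k f C)
    (hg : Bd U k g D) : Bd U k (fun x => f x - g x) (C + D) :=
  (hf.add hU (hg.neg hU)).congr hU fun x _ => by simp [sub_eq_add_neg]

theorem Bd.const_smul (hU : IsOpen U) {k : ℕ} {f : E → F} {C : ℝ} (hf : Bd U k f C) (c : ℝ) :
    Bd U k (fun x => c • f x) (|c| * C) := by
  induction k generalizing F with
  | zero =>
    exact ⟨hf.1.const_smul c, fun x hx => by
      rw [norm_smul, Real.norm_eq_abs]
      exact mul_le_mul_of_nonneg_left (hf.2 x hx) (abs_nonneg _)⟩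
  | succ k ih =>
    refine ⟨fun x hx => (hf.1 x hx).const_smul c, fun x hx => by
      rw [norm_smul, Real.norm_eq_abs]
      exact mul_le_mul_of_nonneg_left (hf.2.1 x hx) (abs_nonneg _), ?_⟩
    refine Bd.congr hU ?_ (ih hf.2.2)
    intro x hx
    exact ((hf.1 x hx).hasFDerivAt.const_smul c).fderiv.symm

theorem bil_le (B : F →L[ℝ] G →L[ℝ] H) {a : F} {b : G} {C D : ℝ} (hC : 0 ≤ C)
    (ha : ‖a‖ ≤ C) (hb : ‖b‖ ≤ D) : ‖B a b‖ ≤ ‖B‖ * C * D := by
  have h0 := B.opNorm_nonneg
  refine (B.le_opNorm₂ a b).trans ?_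
  have h1 : ‖B‖ * ‖a‖ ≤ ‖B‖ * C := mul_le_mul_of_nonneg_left ha h0
  exact mul_le_mul h1 hb (norm_nonneg _) (mul_nonneg h0 hC)

/-- Continuous bilinear maps. -/
theorem Bd.bilin (hU : IsOpen U) {k : ℕ} : ∀ {F G H : Type} [NormedAddCommGroup F]
    [NormedSpace ℝ F] [NormedAddCommGroup G] [NormedSpace ℝ G] [NormedAddCommGroup H]
    [NormedSpace ℝ H] (B : F →L[ℝ] G →L[ℝ] H) {f : E → F} {g : E → G} {C D : ℝ}, 0 ≤ C → 0 ≤ D →
    Bd U k f C → Bd U k g D → Bd U k (fun x => B (f x) (g x)) (2 ^ k * ‖B‖ * C * D) := by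
  induction k with
  | zero =>
    intro F G H _ _ _ _ _ _ B f g C D hC hD hf hg
    refine ⟨(B.isBoundedBilinearMap.continuous.comp_continuousOn (hf.1.prodMk hg.1)), ?_⟩
    intro x hx
    rw [pow_zero, one_mul]
    exact bil_le B hC (hf.2 x hx) (hg.2 x hx)
  | succ k ih =>
    intro F G H _ _ _ _ _ _ B f g C D hC hD hf hg
    refine ⟨?_, ?_, ?_⟩
    · intro x hx
      exact (B.hasFDerivAt_of_bilinear (hf.1 x hx).hasFDerivAt
        (hg.1 x hx).hasFDerivAt).differentiableAt
    · intro x hx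
      have h1 : ‖B (f x) (g x)‖ ≤ ‖B‖ * C * D :=
        bil_le B hC (hf.2.1 x hx) (hg.2.1 x hx)
      have h2 : (1 : ℝ) ≤ 2 ^ (k + 1) := one_le_pow₀ (by norm_num)
      have h3 : 0 ≤ ‖B‖ * C * D := by positivity
      calc ‖B (f x) (g x)‖ ≤ 1 * (‖B‖ * C * D) := by rw [one_mul]; exact h1
        _ ≤ 2 ^ (k + 1) * (‖B‖ * C * D) := mul_le_mul_of_nonneg_right h2 h3
        _ = _ := by ring
    · have h1 := ih (B.precompR E) hC hD hf.of_succ hg.2.2
      have h2 := ih (B.precompL E) hC hD hf.2.2 hg.of_succ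
      have h3 := h1.add hU h2
      refine (h3.congr hU ?_).mono ?_
      · intro x hx
        exact (B.hasFDerivAt_of_bilinear (hf.1 x hx).hasFDerivAt
          (hg.1 x hx).hasFDerivAt).fderiv.symm
      · have e1 := B.norm_precompR_le E
        have e2 := B.norm_precompL_le E
        have e5 : ∀ a : ℝ, a ≤ ‖B‖ → 2 ^ k * a * C * D ≤ 2 ^ k * ‖B‖ * C * D := by
          intro a ha
          gcongr
        refine (add_le_add (e5 _ e1) (e5 _ e2)).trans_eq ?_
        ring

/-- The constant in the composition bound. -/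
def cc : ℕ → ℝ → ℝ
  | 0, _ => 1
  | k + 1, c => 1 + 2 ^ k * cc k c * c

theorem one_le_cc (k : ℕ) {c : ℝ} (hc : 0 ≤ c) : 1 ≤ cc k c := by
  induction k with
  | zero => exact le_rfl
  | succ k ih =>
    simp only [cc]
    have : 0 ≤ 2 ^ k * cc k c * c := mul_nonneg (mul_nonneg (by positivity) (by linarith)) hc
    linarith

theorem cc_mono (k : ℕ) {c c' : ℝ} (hc : 0 ≤ c) (h : c ≤ c') : cc k c ≤ cc k c' := by
  induction k with
  | zero => exact le_rfl
  | succ k ih =>
    simp only [cc]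
    have h1 : 0 ≤ cc k c' := by linarith [one_le_cc k (hc.trans h)]
    have h2 : 2 ^ k * cc k c * c ≤ 2 ^ k * cc k c' * c' :=
      mul_le_mul (mul_le_mul_of_nonneg_left ih (by positivity)) h hc
        (mul_nonneg (by positivity) h1)
    linarith

/-- Composition. -/
theorem Bd.comp (hU : IsOpen U) {V : Set G} (hne : U.Nonempty) {k : ℕ} :
    ∀ {F : Type} [NormedAddCommGroup F]
    [NormedSpace ℝ F] {g : G → F} {f : E → G} {C D : ℝ}, MapsTo f U V → Bd V k g C →
    Bd U k f D → Bd U k (fun x => g (f x)) (cc k D * C) := by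
  induction k with
  | zero =>
    intro F _ _ g f C D hm hg hf
    exact ⟨hg.1.comp hf.1 hm, fun x hx => by simpa [cc] using hg.2 _ (hm hx)⟩
  | succ k ih =>
    intro F _ _ g f C D hm hg hf
    have hD : 0 ≤ D := hf.nonneg hne
    have hC : 0 ≤ C := by
      obtain ⟨x, hx⟩ := hne
      exact (norm_nonneg _).trans (hg.norm_le (hm hx))
    refine ⟨fun x hx => (hg.1 _ (hm hx)).comp x (hf.1 x hx), fun x hx => ?_, ?_⟩
    · refine (hg.2.1 _ (hm hx)).trans ?_
      have := one_le_cc (k + 1) hD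
      nlinarith
    · have h1 := ih hm hg.2.2 hf.of_succ
      have h2 := Bd.bilin hU (ContinuousLinearMap.compL ℝ E G F) (by
        have := one_le_cc k hD
        exact mul_nonneg (by linarith) hC) hD h1 hf.2.2
      refine (h2.congr hU ?_).mono ?_
      · intro x hx
        exact ((hg.1 _ (hm hx)).hasFDerivAt.comp x (hf.1 x hx).hasFDerivAt).fderiv.symm
      · have e1 := ContinuousLinearMap.norm_compL_le ℝ E G F
        have h0 := one_le_cc k hD
        have e2 : 0 ≤ cc k D * C := mul_nonneg (by linarith) hC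
        have e3 : ∀ a : ℝ, a ≤ 1 → 2 ^ k * a * (cc k D * C) * D
            ≤ 2 ^ k * 1 * (cc k D * C) * D := by
          intro a ha
          gcongr
        refine (e3 _ e1).trans ?_
        simp only [cc]
        nlinarith

/-- Pre-composition with the identity etc.: bounded sets. -/
theorem Bd.id {R : ℝ} (hR : ∀ x ∈ U, ‖x‖ ≤ R) (k : ℕ) :
    Bd U k (fun x : E => x) (max R 1) := by
  cases k with
  | zero => exact ⟨continuousOn_id, fun x hx => (hR x hx).trans (le_max_left _ _)⟩
  | succ k =>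
    refine ⟨fun x _ => differentiableAt_id, fun x hx => (hR x hx).trans (le_max_left _ _), ?_⟩
    have : fderiv ℝ (fun x : E => x) = fun _ => ContinuousLinearMap.id ℝ E := by
      funext x; exact fderiv_id
    rw [this]
    refine (Bd.const (U := U) (k := k) (ContinuousLinearMap.id ℝ E)).mono ?_
    exact ContinuousLinearMap.norm_id_le.trans (le_max_right _ _)

theorem Bd.empty {k : ℕ} {f : E → F} {C : ℝ} : Bd (∅ : Set E) k f C := by
  induction k generalizing F with
  | zero => exact ⟨continuousOn_empty _, fun x hx => hx.elim⟩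
  | succ j ihj => exact ⟨fun x hx => hx.elim, fun x hx => hx.elim, ihj⟩

theorem Bd.prodMk (hU : IsOpen U) {k : ℕ} {f : E → F} {g : E → G} {C D : ℝ} (hf : Bd U k f C)
    (hg : Bd U k g D) : Bd U k (fun x => (f x, g x)) (C + D) := by
  rcases U.eq_empty_or_nonempty with rfl | hne
  · exact Bd.empty
  have hC := hf.nonneg hne
  have hD := hg.nonneg hne
  have h1 := hf.clm hU (ContinuousLinearMap.inl ℝ F G)
  have h2 := hg.clm hU (ContinuousLinearMap.inr ℝ F G)
  refine ((h1.add hU h2).congr hU fun x _ => by simp).mono ?_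
  have e1 : ‖ContinuousLinearMap.inl ℝ F G‖ ≤ 1 := ContinuousLinearMap.norm_inl_le_one ℝ F G
  have e2 : ‖ContinuousLinearMap.inr ℝ F G‖ ≤ 1 := ContinuousLinearMap.norm_inr_le_one ℝ F G
  nlinarith

/-- Applying a field of linear maps. -/
theorem Bd.apply (hU : IsOpen U) {k : ℕ} {A : E → F →L[ℝ] G} {f : E → F} {C D : ℝ} (hC : 0 ≤ C)
    (hD : 0 ≤ D) (hA : Bd U k A C) (hf : Bd U k f D) :
    Bd U k (fun x => A x (f x)) (2 ^ k * C * D) := by
  have h1 := Bd.bilin hU (ContinuousLinearMap.id ℝ (F →L[ℝ] G)) hC hD hA hf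
  refine (h1.congr hU fun x _ => rfl).mono ?_
  have e : ‖ContinuousLinearMap.id ℝ (F →L[ℝ] G)‖ ≤ 1 := ContinuousLinearMap.norm_id_le
  have : 2 ^ k * ‖ContinuousLinearMap.id ℝ (F →L[ℝ] G)‖ * C * D ≤ 2 ^ k * 1 * C * D := by gcongr
  simpa using this

end P207N3H639
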