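import Mathlib
import Vale.Agent.P207.N3.H639.Bd

/-!
# P207, line N3, row EL': Hadamard's lemma with `C^k` bounds
-/

open Set Filter Topology MeasureTheory

namespace P207N3H639

variable {E : Type} [NormedAddCommGroup E] [NormedSpace ℝ E]
variable {E' : Type} [NormedAddCommGroup E'] [NormedSpace ℝ E']
variable {F : Type} [NormedAddCommGroup F] [NormedSpace ℝ F]
variable {G : Type} [NormedAddCommGroup G] [NormedSpace ℝ G]
variable {U : Set E} {V : Set E'}

/-- `∫_0^1 w(s) g(A x + s B x) ds`. -/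
noncomputable def Iw (A B : E →L[ℝ] E') (w : ℝ → ℝ) (g : E' → F) (x : E) : F :=
  ∫ s in (0 : ℝ)..1, w s • g (A x + s • B x)

theorem path_cont (A B : E →L[ℝ] E') {w : ℝ → ℝ} (hw : Continuous w) {g : E' → F}
    (hg : ContinuousOn g V) {x : E} (hx : ∀ s ∈ Icc (0 : ℝ) 1, A x + s • B x ∈ V) :
    ContinuousOn (fun s : ℝ => w s • g (A x + s • B x)) (uIcc 0 1) := by
  rw [uIcc_of_le zero_le_one]
  refine hw.continuousOn.smul (hg.comp ?_ hx)
  fun_prop

theorem path_meas (A B : E →L[ℝ] E') {w : ℝ → ℝ} (hw : Continuous w) {g : E' → F}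
    (hg : ContinuousOn g V) {x : E} (hx : ∀ s ∈ Icc (0 : ℝ) 1, A x + s • B x ∈ V) :
    AEStronglyMeasurable (fun s : ℝ => w s • g (A x + s • B x))
      (volume.restrict (Set.uIoc (0 : ℝ) 1)) :=
  ((path_cont A B hw hg hx).aestronglyMeasurable measurableSet_uIcc).mono_measure
    (Measure.restrict_mono uIoc_subset_uIcc le_rfl)

theorem Bd.integral (hU : IsOpen U) (hV : IsOpen V) (A B : E →L[ℝ] E')
    (hAB : ∀ x ∈ U, ∀ s ∈ Icc (0 : ℝ) 1, A x + s • B x ∈ V) {M : ℝ} (hM1 : 1 ≤ M)
    (hM : ‖A‖ + ‖B‖ ≤ M) {k : ℕ} :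
    ∀ {F : Type} [NormedAddCommGroup F] [NormedSpace ℝ F] [CompleteSpace F] {w : ℝ → ℝ}
      {g : E' → F} {C : ℝ}, Continuous w → (∀ s ∈ Icc (0 : ℝ) 1, |w s| ≤ 1) → 0 ≤ C →
      Bd V k g C → Bd U k (Iw A B w g) (M ^ k * C) := by
  have hsub : ∀ s ∈ Set.uIoc (0 : ℝ) 1, s ∈ Icc (0 : ℝ) 1 := fun s hs => by
    rw [uIoc_of_le zero_le_one] at hs
    exact ⟨hs.1.le, hs.2⟩
  have hbound : ∀ {F : Type} [NormedAddCommGroup F] [NormedSpace ℝ F] {w : ℝ → ℝ}
      {g : E' → F} {C : ℝ} {x : E}, (∀ s ∈ Icc (0 : ℝ) 1, |w s| ≤ 1) → 0 ≤ C →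
      (∀ z ∈ V, ‖g z‖ ≤ C) → x ∈ U → ∀ s ∈ Set.uIoc (0 : ℝ) 1,
      ‖w s • g (A x + s • B x)‖ ≤ C := by
    intro F _ _ w g C x hw1 hC hg hx s hs
    rw [norm_smul, Real.norm_eq_abs]
    have h1 := hw1 s (hsub s hs)
    have h2 := hg _ (hAB x hx s (hsub s hs))
    calc |w s| * ‖g (A x + s • B x)‖ ≤ 1 * C :=
        mul_le_mul h1 h2 (norm_nonneg _) zero_le_one
      _ = C := one_mul C
  induction k with
  | zero =>
    intro F _ _ _ w g C hw hw1 hC hg
    refine ⟨?_, ?_⟩
    · intro x hx
      refine ContinuousAt.continuousWithinAt ?_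
      refine intervalIntegral.continuousAt_of_dominated_interval (bound := fun _ => C) ?_ ?_
        (by simp) ?_
      · filter_upwards [hU.mem_nhds hx] with y hy
        exact path_meas A B hw hg.1 (hAB y hy)
      · filter_upwards [hU.mem_nhds hx] with y hy
        exact ae_of_all _ fun s hs => hbound hw1 hC hg.2 hy s hs
      · refine ae_of_all _ fun s hs => ?_
        have hc : ContinuousOn (fun y : E => g (A y + s • B y)) U :=
          hg.1.comp (by fun_prop) (fun y hy => hAB y hy s (hsub s hs))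
        exact ((hc.continuousAt (hU.mem_nhds hx))).const_smul (w s)
    · intro x hx
      have := intervalIntegral.norm_integral_le_of_norm_le_const (a := 0) (b := 1)
        (hbound hw1 hC hg.2 hx)
      simpa [Iw] using this
  | succ k ih =>
    intro F _ _ _ w g C hw hw1 hC hg
    have hgc : ContinuousOn g V := hg.continuousOn
    have hgd : ContinuousOn (fderiv ℝ g) V := hg.2.2.continuousOn
    have hder : ∀ x ∈ U, HasFDerivAt (Iw A B w g)
        (∫ s in (0 : ℝ)..1, w s • (fderiv ℝ g (A x + s • B x)).comp (A + s • B)) x := by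
      intro x hx
      have hbi : IntervalIntegrable (fun _ : ℝ => C * M) volume 0 1 :=
        continuous_const.intervalIntegrable _ _
      refine intervalIntegral.hasFDerivAt_integral_of_dominated_of_fderiv_le (μ := volume)
        (bound := fun _ => C * M) (F := fun x s => w s • g (A x + s • B x))
        (F' := fun x s => w s • (fderiv ℝ g (A x + s • B x)).comp (A + s • B))
        (hU.mem_nhds hx) ?_ ?_ ?_ ?_ hbi ?_
      · filter_upwards [hU.mem_nhds hx] with y hy
        exact path_meas A B hw hgc (hAB y hy)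
      · exact (path_cont A B hw hgc (hAB x hx)).intervalIntegrable
      · have hc : ContinuousOn (fun s : ℝ => w s • (fderiv ℝ g (A x + s • B x)).comp (A + s • B))
            (uIcc 0 1) := by
          have h1 : ContinuousOn (fun s : ℝ => fderiv ℝ g (A x + s • B x)) (uIcc 0 1) := by
            have := path_cont A B (w := fun _ => 1) continuous_const hgd (hAB x hx)
            simpa using this
          refine hw.continuousOn.smul (h1.clm_comp ?_)
          fun_prop
        exact (hc.aestronglyMeasurable measurableSet_uIcc).mono_measure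
          (Measure.restrict_mono uIoc_subset_uIcc le_rfl)
      · refine ae_of_all _ fun s hs y hy => ?_
        have hs' := hsub s hs
        rw [norm_smul, Real.norm_eq_abs]
        have h1 := hw1 s hs'
        have h2 := hg.2.2.norm_le (hAB y hy s hs')
        have h3 : ‖A + s • B‖ ≤ M := by
          refine (norm_add_le _ _).trans (le_trans ?_ hM)
          rw [norm_smul, Real.norm_eq_abs, abs_of_nonneg hs'.1]
          nlinarith [norm_nonneg B, hs'.2]
        have h4 : ‖(fderiv ℝ g (A y + s • B y)).comp (A + s • B)‖ ≤ C * M :=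
          (ContinuousLinearMap.opNorm_comp_le _ _).trans
            (mul_le_mul h2 h3 (norm_nonneg _) hC)
        calc |w s| * ‖(fderiv ℝ g (A y + s • B y)).comp (A + s • B)‖ ≤ 1 * (C * M) :=
            mul_le_mul h1 h4 (norm_nonneg _) zero_le_one
          _ = C * M := one_mul _
      · refine ae_of_all _ fun s hs y hy => ?_
        have hs' := hsub s hs
        have h1 : HasFDerivAt (fun y : E => A y + s • B y) (A + s • B) y :=
          (A.hasFDerivAt).add ((B.hasFDerivAt).const_smul s)
        exact ((hg.1 _ (hAB y hy s hs')).hasFDerivAt.comp y h1).const_smul (w s)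
    have hC1 : (1 : ℝ) ≤ M ^ (k + 1) := one_le_pow₀ hM1
    refine ⟨fun x hx => (hder x hx).differentiableAt, fun x hx => ?_, ?_⟩
    · have := intervalIntegral.norm_integral_le_of_norm_le_const (a := 0) (b := 1)
        (hbound hw1 hC (fun z hz => hg.norm_le hz) hx)
      have h2 : ‖Iw A B w g x‖ ≤ C := by simpa [Iw] using this
      nlinarith
    · -- derivative
      have nL : ∀ L : E →L[ℝ] E', ‖(ContinuousLinearMap.compL ℝ E E' F).flip L‖ ≤ ‖L‖ := by
        intro L
        refine (ContinuousLinearMap.le_opNorm _ _).trans ?_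
        rw [ContinuousLinearMap.opNorm_flip]
        exact (mul_le_mul_of_nonneg_right (ContinuousLinearMap.norm_compL_le ℝ E E' F)
          (norm_nonneg L)).trans_eq (one_mul _)
      have hVopen_or : ∀ L : E →L[ℝ] E', Bd V k (fun z => (fderiv ℝ g z).comp L) (‖L‖ * C) := by
        intro L
        refine ((hg.2.2.clm hV ((ContinuousLinearMap.compL ℝ E E' F).flip L)).congr hV
          fun z _ => rfl).mono ?_
        exact mul_le_mul_of_nonneg_right (nL L) hC
      have hA := ih (w := w) (g := fun z => (fderiv ℝ g z).comp A) (C := ‖A‖ * C) hw hw1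
        (by positivity) (hVopen_or A)
      have hB := ih (w := fun s => w s * s) (g := fun z => (fderiv ℝ g z).comp B) (C := ‖B‖ * C)
        (hw.mul continuous_id) (by
          intro s hs
          rw [abs_mul, abs_of_nonneg hs.1]
          have := hw1 s hs
          nlinarith [abs_nonneg (w s), hs.1, hs.2]) (by positivity) (hVopen_or B)
      refine ((hA.add hU hB).congr hU ?_).mono ?_
      · intro x hx
        rw [(hder x hx).fderiv]
        simp only [Iw]
        have hgA : ContinuousOn (fun z => (fderiv ℝ g z).comp A) V := (hVopen_or A).continuousOn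
        have hgB : ContinuousOn (fun z => (fderiv ℝ g z).comp B) V := (hVopen_or B).continuousOn
        have hcB : Continuous (fun s : ℝ => w s * s) := hw.mul continuous_id
        have i1 := (path_cont A B hw hgA (hAB x hx)).intervalIntegrable (μ := volume)
        have i2 := (path_cont A B hcB hgB (hAB x hx)).intervalIntegrable (μ := volume)
        rw [← intervalIntegral.integral_add i1 i2]
        refine intervalIntegral.integral_congr fun s _ => ?_
        ext v
        simp [mul_smul, smul_add]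
      · have : M ^ k * (‖A‖ * C) + M ^ k * (‖B‖ * C) = M ^ k * C * (‖A‖ + ‖B‖) := by ring
        rw [this, pow_succ]
        have h0 : 0 ≤ M ^ k * C := by positivity
        nlinarith

/-- Hadamard's lemma in the second variable, with bounds: `h(q,p) - h(q,0) = h₁(q,p) p`. -/
noncomputable def had2 (h : E × E' → F) : E × E' → E' →L[ℝ] F :=
  Iw ((ContinuousLinearMap.inl ℝ E E').comp (ContinuousLinearMap.fst ℝ E E'))
    ((ContinuousLinearMap.inr ℝ E E').comp (ContinuousLinearMap.snd ℝ E E')) (fun _ => 1)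
    (fun z => (fderiv ℝ h z).comp (ContinuousLinearMap.inr ℝ E E'))

theorem had2_bd [CompleteSpace F] {W : Set (E × E')} (hW : IsOpen W)
    (hst : ∀ z ∈ W, ∀ s ∈ Icc (0 : ℝ) 1, (z.1, s • z.2) ∈ W) {k : ℕ} {h : E × E' → F} {C : ℝ}
    (hC : 0 ≤ C) (hh : Bd W (k + 1) h C) : Bd W k (had2 h) (2 ^ k * C) := by
  unfold had2
  refine Bd.integral hW hW _ _ ?_ (by norm_num) ?_ continuous_const (by simp) hC ?_
  · intro z hz s hs
    have := hst z hz s hs
    simpa using this
  · have h1 : ‖(ContinuousLinearMap.inl ℝ E E').comp (ContinuousLinearMap.fst ℝ E E')‖ ≤ 1 :=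
      (ContinuousLinearMap.opNorm_comp_le _ _).trans
        (mul_le_one₀ (ContinuousLinearMap.norm_inl_le_one ℝ E E') (norm_nonneg _)
          (ContinuousLinearMap.norm_fst_le ℝ E E'))
    have h2 : ‖(ContinuousLinearMap.inr ℝ E E').comp (ContinuousLinearMap.snd ℝ E E')‖ ≤ 1 :=
      (ContinuousLinearMap.opNorm_comp_le _ _).trans
        (mul_le_one₀ (ContinuousLinearMap.norm_inr_le_one ℝ E E') (norm_nonneg _)
          (ContinuousLinearMap.norm_snd_le ℝ E E'))
    linarith
  · have nL : ‖(ContinuousLinearMap.compL ℝ E' (E × E') F).flip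
        (ContinuousLinearMap.inr ℝ E E')‖ ≤ 1 := by
      refine (ContinuousLinearMap.le_opNorm _ _).trans ?_
      rw [ContinuousLinearMap.opNorm_flip]
      exact mul_le_one₀ (ContinuousLinearMap.norm_compL_le ℝ E' (E × E') F) (norm_nonneg _)
        (ContinuousLinearMap.norm_inr_le_one ℝ E E')
    refine ((hh.2.2.clm hW ((ContinuousLinearMap.compL ℝ E' (E × E') F).flip
      (ContinuousLinearMap.inr ℝ E E'))).congr hW fun z _ => rfl).mono ?_
    exact (mul_le_mul_of_nonneg_right nL hC).trans_eq (one_mul _)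

theorem had2_eq [CompleteSpace F] {W : Set (E × E')}
    (hst : ∀ z ∈ W, ∀ s ∈ Icc (0 : ℝ) 1, (z.1, s • z.2) ∈ W) {k : ℕ} {h : E × E' → F} {C : ℝ}
    (hh : Bd W (k + 1) h C) {z : E × E'} (hz : z ∈ W) :
    h z - h (z.1, 0) = had2 h z z.2 := by
  have hgd : ContinuousOn (fderiv ℝ h) W := hh.2.2.continuousOn
  have hpath : ContinuousOn (fun s : ℝ => (z.1, s • z.2)) (uIcc (0 : ℝ) 1) := by fun_prop
  have hmaps : MapsTo (fun s : ℝ => (z.1, s • z.2)) (uIcc (0 : ℝ) 1) W := by
    intro s hs
    rw [uIcc_of_le zero_le_one] at hs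
    exact hst z hz s hs
  have hc1 : ContinuousOn (fun s : ℝ => (fderiv ℝ h (z.1, s • z.2)).comp
      (ContinuousLinearMap.inr ℝ E E')) (uIcc 0 1) :=
    (hgd.comp hpath hmaps).clm_comp continuousOn_const
  have hder : ∀ s ∈ uIcc (0 : ℝ) 1, HasDerivAt (fun s : ℝ => h (z.1, s • z.2))
      (((fderiv ℝ h (z.1, s • z.2)).comp (ContinuousLinearMap.inr ℝ E E')) z.2) s := by
    intro s hs
    have h1 : HasDerivAt (fun s : ℝ => (z.1, s • z.2)) (0, z.2) s := by
      refine (hasDerivAt_const s z.1).prodMk ?_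
      simpa using (hasDerivAt_id s).smul_const z.2
    have h2 := (hh.1 _ (hmaps hs)).hasFDerivAt.comp_hasDerivAt s h1
    refine h2.congr_deriv ?_
    simp
  have hint : IntervalIntegrable (fun s : ℝ => (fderiv ℝ h (z.1, s • z.2)).comp
      (ContinuousLinearMap.inr ℝ E E')) volume 0 1 := hc1.intervalIntegrable
  have key := intervalIntegral.integral_eq_sub_of_hasDerivAt hder
    ((hc1.clm_apply continuousOn_const).intervalIntegrable)
  have e1 : had2 h z = ∫ s in (0 : ℝ)..1, (fderiv ℝ h (z.1, s • z.2)).comp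
      (ContinuousLinearMap.inr ℝ E E') := by
    simp [had2, Iw]
  rw [e1, ContinuousLinearMap.intervalIntegral_apply hint, key]
  simp

/-- Hadamard's lemma at the origin. -/
noncomputable def had1 (g : E → F) : E → E →L[ℝ] F :=
  Iw 0 (ContinuousLinearMap.id ℝ E) (fun _ => 1) (fderiv ℝ g)

theorem had1_bd [CompleteSpace F] (hU : IsOpen U)
    (hst : ∀ x ∈ U, ∀ s ∈ Icc (0 : ℝ) 1, s • x ∈ U) {k : ℕ} {g : E → F} {C : ℝ}
    (hC : 0 ≤ C) (hg : Bd U (k + 1) g C) : Bd U k (had1 g) C := by
  unfold had1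
  refine (Bd.integral hU hU (M := 1) _ _ ?_ le_rfl ?_ continuous_const (by simp) hC hg.2.2).mono
    (by simp)
  · intro z hz s hs
    simpa using hst z hz s hs
  · simpa using ContinuousLinearMap.norm_id_le (E := E) (𝕜 := ℝ)

theorem had1_eq [CompleteSpace F] (hst : ∀ x ∈ U, ∀ s ∈ Icc (0 : ℝ) 1, s • x ∈ U) {k : ℕ}
    {g : E → F} {C : ℝ} (hg : Bd U (k + 1) g C) {x : E} (hx : x ∈ U) :
    g x - g 0 = had1 g x x := by
  have hgd : ContinuousOn (fderiv ℝ g) U := hg.2.2.continuousOn
  have hmaps : MapsTo (fun s : ℝ => s • x) (uIcc (0 : ℝ) 1) U := by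
    intro s hs
    rw [uIcc_of_le zero_le_one] at hs
    exact hst x hx s hs
  have hc1 : ContinuousOn (fun s : ℝ => fderiv ℝ g (s • x)) (uIcc 0 1) :=
    hgd.comp (by fun_prop) hmaps
  have hder : ∀ s ∈ uIcc (0 : ℝ) 1, HasDerivAt (fun s : ℝ => g (s • x))
      (fderiv ℝ g (s • x) x) s := by
    intro s hs
    have h1 : HasDerivAt (fun s : ℝ => s • x) x s := by
      simpa using (hasDerivAt_id s).smul_const x
    exact (hg.1 _ (hmaps hs)).hasFDerivAt.comp_hasDerivAt s h1
  have key := intervalIntegral.integral_eq_sub_of_hasDerivAt hder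
    ((hc1.clm_apply continuousOn_const).intervalIntegrable)
  have e1 : had1 g x = ∫ s in (0 : ℝ)..1, fderiv ℝ g (s • x) := by
    simp [had1, Iw]
  rw [e1, ContinuousLinearMap.intervalIntegral_apply hc1.intervalIntegrable, key]
  simp

end P207N3H639
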