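import Mathlib
import Vale.Agent.P207.N3.H639.Bd
import Vale.Agent.P207.N3.H639.Had

/-!
# P207, line N3, row EL': classes of sequences of functions

`Y` is the set of parameters `y`; a sequence is `f : Y → ℕ → E → F`.
* `Sm U ψ`: all derivatives of `ψ` are bounded on `U`;
* `oR U ρ f`: for every `ρ' > ρ`, `f y n = O(ρ' ^ n)` in every `C^k(U)` (constants depend on `y`);
* `bS U f`: bounded in every `C^k(U)`;
* `Str U I ρ f`: `f` is a finite sum of terms `c(y) l^n P(n) ψ(q)`, `c ∈ I l`, modulo `oR U ρ`.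
-/

open Set Filter Topology MeasureTheory

namespace P207N3H639

variable {Y : Type*}
variable {E : Type} [NormedAddCommGroup E] [NormedSpace ℝ E]
variable {F : Type} [NormedAddCommGroup F] [NormedSpace ℝ F]
variable {G : Type} [NormedAddCommGroup G] [NormedSpace ℝ G]
variable {H : Type} [NormedAddCommGroup H] [NormedSpace ℝ H]
variable {U : Set E} {V : Set G}

/-- All derivatives are bounded. -/
def Sm (U : Set E) (ψ : E → F) : Prop := ∀ k : ℕ, ∃ C : ℝ, 0 ≤ C ∧ Bd U k ψ C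

/-- `O(ρ' ^ n)` in every `C^k(U)`, for all `ρ' > ρ`. -/
def oR (U : Set E) (ρ : ℝ) (f : Y → ℕ → E → F) : Prop :=
  ∀ y : Y, ∀ ρ' : ℝ, ρ < ρ' → ∀ k : ℕ, ∃ C : ℝ, 0 ≤ C ∧ ∀ n : ℕ, Bd U k (f y n) (C * ρ' ^ n)

/-- Bounded in every `C^k(U)`. -/
def bS (U : Set E) (f : Y → ℕ → E → F) : Prop :=
  ∀ y : Y, ∀ k : ℕ, ∃ C : ℝ, 0 ≤ C ∧ ∀ n : ℕ, Bd U k (f y n) C

/-! ### `Sm` -/

theorem Sm.const (c : F) : Sm U (fun _ => c) := fun _ => ⟨‖c‖, norm_nonneg _, Bd.const c⟩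

theorem Sm.zero : Sm U (fun _ => (0 : F)) := Sm.const 0

theorem Sm.id {R : ℝ} (hR : ∀ x ∈ U, ‖x‖ ≤ R) : Sm U (fun x : E => x) :=
  fun k => ⟨max R 1, le_max_of_le_right zero_le_one, Bd.id hR k⟩

theorem Sm.add (hU : IsOpen U) {f g : E → F} (hf : Sm U f) (hg : Sm U g) :
    Sm U (fun x => f x + g x) := fun k =>
  let ⟨C, hC, h1⟩ := hf k
  let ⟨D, hD, h2⟩ := hg k
  ⟨C + D, add_nonneg hC hD, h1.add hU h2⟩

theorem Sm.sub (hU : IsOpen U) {f g : E → F} (hf : Sm U f) (hg : Sm U g) :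
    Sm U (fun x => f x - g x) := fun k =>
  let ⟨C, hC, h1⟩ := hf k
  let ⟨D, hD, h2⟩ := hg k
  ⟨C + D, add_nonneg hC hD, h1.sub hU h2⟩

theorem Sm.const_smul (hU : IsOpen U) {f : E → F} (hf : Sm U f) (c : ℝ) :
    Sm U (fun x => c • f x) := fun k =>
  let ⟨C, hC, h1⟩ := hf k
  ⟨|c| * C, mul_nonneg (abs_nonneg _) hC, h1.const_smul hU c⟩

theorem Sm.clm (hU : IsOpen U) (L : F →L[ℝ] G) {f : E → F} (hf : Sm U f) :
    Sm U (fun x => L (f x)) := fun k =>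
  let ⟨C, hC, h1⟩ := hf k
  ⟨‖L‖ * C, mul_nonneg (norm_nonneg _) hC, h1.clm hU L⟩

theorem Sm.bilin (hU : IsOpen U) (B : F →L[ℝ] G →L[ℝ] H) {f : E → F} {g : E → G} (hf : Sm U f)
    (hg : Sm U g) : Sm U (fun x => B (f x) (g x)) := fun k =>
  let ⟨C, hC, h1⟩ := hf k
  let ⟨D, hD, h2⟩ := hg k
  ⟨2 ^ k * ‖B‖ * C * D, mul_nonneg (mul_nonneg (mul_nonneg (by positivity) B.opNorm_nonneg) hC) hD,
    Bd.bilin hU B hC hD h1 h2⟩

theorem Sm.prodMk (hU : IsOpen U) {f : E → F} {g : E → G} (hf : Sm U f) (hg : Sm U g) :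
    Sm U (fun x => (f x, g x)) := fun k =>
  let ⟨C, hC, h1⟩ := hf k
  let ⟨D, hD, h2⟩ := hg k
  ⟨C + D, add_nonneg hC hD, h1.prodMk hU h2⟩

theorem Sm.comp (hU : IsOpen U) {g : G → F} {f : E → G} (hm : MapsTo f U V) (hg : Sm V g)
    (hf : Sm U f) : Sm U (fun x => g (f x)) := by
  rcases U.eq_empty_or_nonempty with rfl | hne
  · exact fun k => ⟨0, le_rfl, Bd.empty⟩
  intro k
  obtain ⟨C, hC, h1⟩ := hg k
  obtain ⟨D, hD, h2⟩ := hf k
  exact ⟨cc k D * C, mul_nonneg (by linarith [one_le_cc k hD]) hC, Bd.comp hU hne hm h1 h2⟩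

theorem Sm.fderiv {f : E → F} (hf : Sm U f) : Sm U (fderiv ℝ f) := fun k =>
  let ⟨C, hC, h1⟩ := hf (k + 1)
  ⟨C, hC, h1.2.2⟩

theorem Sm.congr (hU : IsOpen U) {f g : E → F} (h : EqOn f g U) (hf : Sm U f) : Sm U g := fun k =>
  let ⟨C, hC, h1⟩ := hf k
  ⟨C, hC, h1.congr hU h⟩

theorem Sm.mono {U' : Set E} (h : U' ⊆ U) {f : E → F} (hf : Sm U f) : Sm U' f := fun k =>
  let ⟨C, hC, h1⟩ := hf k
  ⟨C, hC, h1.mono_set h⟩

theorem Sm.diff {f : E → F} (hf : Sm U f) {x : E} (hx : x ∈ U) : DifferentiableAt ℝ f x :=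
  let ⟨_, _, h1⟩ := hf 1
  h1.1 x hx

theorem Sm.had2 [CompleteSpace F] {W : Set (E × G)} (hW : IsOpen W)
    (hst : ∀ z ∈ W, ∀ s ∈ Icc (0 : ℝ) 1, (z.1, s • z.2) ∈ W) {h : E × G → F} (hh : Sm W h) :
    Sm W (P207N3H639.had2 h) := fun k =>
  let ⟨C, hC, h1⟩ := hh (k + 1)
  ⟨2 ^ k * C, by positivity, had2_bd hW hst hC h1⟩

theorem Sm.had1 [CompleteSpace F] (hU : IsOpen U)
    (hst : ∀ x ∈ U, ∀ s ∈ Icc (0 : ℝ) 1, s • x ∈ U) {g : E → F} (hg : Sm U g) :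
    Sm U (P207N3H639.had1 g) := fun k =>
  let ⟨C, hC, h1⟩ := hg (k + 1)
  ⟨C, hC, had1_bd hU hst hC h1⟩

/-! ### `oR` and `bS` -/

theorem oR.mono {ρ ρ₁ : ℝ} (h : ρ ≤ ρ₁) {f : Y → ℕ → E → F} (hf : oR U ρ f) : oR U ρ₁ f :=
  fun y ρ' hρ' k => hf y ρ' (h.trans_lt hρ') k

theorem oR.zero {ρ : ℝ} (hρ : 0 ≤ ρ) : oR U ρ (fun (_ : Y) _ _ => (0 : F)) :=
  fun _ ρ' hρ' _ => ⟨0, le_rfl, fun n => Bd.zero (by have := hρ.trans hρ'.le; positivity)⟩

theorem oR.congr (hU : IsOpen U) {ρ : ℝ} {f g : Y → ℕ → E → F}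
    (h : ∀ y n, EqOn (f y n) (g y n) U) (hf : oR U ρ f) : oR U ρ g := fun y ρ' hρ' k =>
  let ⟨C, hC, h1⟩ := hf y ρ' hρ' k
  ⟨C, hC, fun n => (h1 n).congr hU (h y n)⟩

theorem oR.add (hU : IsOpen U) {ρ : ℝ} {f g : Y → ℕ → E → F} (hf : oR U ρ f) (hg : oR U ρ g) :
    oR U ρ (fun y n x => f y n x + g y n x) := fun y ρ' hρ' k =>
  let ⟨C, hC, h1⟩ := hf y ρ' hρ' k
  let ⟨D, hD, h2⟩ := hg y ρ' hρ' k
  ⟨C + D, add_nonneg hC hD, fun n => ((h1 n).add hU (h2 n)).mono (by ring_nf; exact le_rfl)⟩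

theorem oR.neg (hU : IsOpen U) {ρ : ℝ} {f : Y → ℕ → E → F} (hf : oR U ρ f) :
    oR U ρ (fun y n x => -f y n x) := fun y ρ' hρ' k =>
  let ⟨C, hC, h1⟩ := hf y ρ' hρ' k
  ⟨C, hC, fun n => (h1 n).neg hU⟩

theorem oR.sub (hU : IsOpen U) {ρ : ℝ} {f g : Y → ℕ → E → F} (hf : oR U ρ f) (hg : oR U ρ g) :
    oR U ρ (fun y n x => f y n x - g y n x) :=
  (hf.add hU (hg.neg hU)).congr hU fun y n x _ => by simp [sub_eq_add_neg]

theorem oR.const_smul (hU : IsOpen U) {ρ : ℝ} {f : Y → ℕ → E → F} (hf : oR U ρ f) (c : ℝ) :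
    oR U ρ (fun y n x => c • f y n x) := fun y ρ' hρ' k =>
  let ⟨C, hC, h1⟩ := hf y ρ' hρ' k
  ⟨|c| * C, by positivity, fun n => ((h1 n).const_smul hU c).mono (by rw [mul_assoc])⟩

theorem oR.clm (hU : IsOpen U) {ρ : ℝ} (L : F →L[ℝ] G) {f : Y → ℕ → E → F} (hf : oR U ρ f) :
    oR U ρ (fun y n x => L (f y n x)) := fun y ρ' hρ' k =>
  let ⟨C, hC, h1⟩ := hf y ρ' hρ' k
  ⟨‖L‖ * C, by positivity, fun n => ((h1 n).clm hU L).mono (by rw [mul_assoc])⟩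

/-- If `ρ ρ₁ < τ` there are larger `ρ', ρ₁'` with `ρ' ρ₁' ≤ τ`. -/
theorem exists_rates {ρ ρ₁ τ : ℝ} (h : ρ * ρ₁ < τ) :
    ∃ ρ' ρ₁' : ℝ, ρ < ρ' ∧ ρ₁ < ρ₁' ∧ ρ' * ρ₁' ≤ τ := by
  have hc : Tendsto (fun t : ℝ => (ρ + t) * (ρ₁ + t)) (𝓝[>] 0) (𝓝 ((ρ + 0) * (ρ₁ + 0))) :=
    ((by fun_prop : Continuous fun t : ℝ => (ρ + t) * (ρ₁ + t)).tendsto 0).mono_left
      nhdsWithin_le_nhds
  rw [add_zero, add_zero] at hc
  obtain ⟨t, ht, ht0⟩ := ((hc.eventually (gt_mem_nhds h)).and self_mem_nhdsWithin).exists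
  exact ⟨ρ + t, ρ₁ + t, lt_add_of_pos_right _ ht0, lt_add_of_pos_right _ ht0, ht.le⟩

theorem oR.bilin (hU : IsOpen U) {ρ ρ₁ : ℝ} (h0 : 0 ≤ ρ) (h1 : 0 ≤ ρ₁) (B : F →L[ℝ] G →L[ℝ] H)
    {f : Y → ℕ → E → F} {g : Y → ℕ → E → G} (hf : oR U ρ f) (hg : oR U ρ₁ g) :
    oR U (ρ * ρ₁) (fun y n x => B (f y n x) (g y n x)) := by
  intro y τ hτ k
  obtain ⟨ρ', ρ₁', hρ', hρ₁', hle⟩ := exists_rates hτ
  obtain ⟨C, hC, h2⟩ := hf y ρ' hρ' k
  obtain ⟨D, hD, h3⟩ := hg y ρ₁' hρ₁' k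
  have hB := B.opNorm_nonneg
  have p1 : 0 ≤ ρ' := h0.trans hρ'.le
  have p2 : 0 ≤ ρ₁' := h1.trans hρ₁'.le
  refine ⟨2 ^ k * ‖B‖ * C * D, by positivity, fun n => ?_⟩
  refine (Bd.bilin hU B (mul_nonneg hC (pow_nonneg p1 n)) (mul_nonneg hD (pow_nonneg p2 n))
    (h2 n) (h3 n)).mono ?_
  have h4 : (ρ' * ρ₁') ^ n ≤ τ ^ n := pow_le_pow_left₀ (mul_nonneg p1 p2) hle n
  calc 2 ^ k * ‖B‖ * (C * ρ' ^ n) * (D * ρ₁' ^ n)
      = 2 ^ k * ‖B‖ * C * D * (ρ' * ρ₁') ^ n := by rw [mul_pow]; ring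
    _ ≤ 2 ^ k * ‖B‖ * C * D * τ ^ n := mul_le_mul_of_nonneg_left h4 (by positivity)

theorem oR.fderiv {ρ : ℝ} {f : Y → ℕ → E → F} (hf : oR U ρ f) :
    oR U ρ (fun y n => fderiv ℝ (f y n)) := fun y ρ' hρ' k =>
  let ⟨C, hC, h1⟩ := hf y ρ' hρ' (k + 1)
  ⟨C, hC, fun n => (h1 n).2.2⟩

theorem oR.shift {ρ : ℝ} (hρ : 0 ≤ ρ) {f : Y → ℕ → E → F} (hf : oR U ρ f) :
    oR U ρ (fun y n => f y (n + 1)) := fun y ρ' hρ' k =>
  let ⟨C, hC, h1⟩ := hf y ρ' hρ' k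
  ⟨C * ρ', mul_nonneg hC (hρ.trans hρ'.le), fun n => (h1 (n + 1)).mono (by
    rw [pow_succ]; ring_nf; exact le_rfl)⟩

theorem oR.toBS {ρ : ℝ} (h1 : ρ < 1) {f : Y → ℕ → E → F} (hf : oR U ρ f) : bS U f := by
  intro y k
  obtain ⟨C, hC, h2⟩ := hf y 1 h1 k
  exact ⟨C, hC, fun n => by simpa using h2 n⟩

theorem bS.toOR {f : Y → ℕ → E → F} (hf : bS U f) : oR U 1 f := by
  intro y ρ' hρ' k
  obtain ⟨C, hC, h2⟩ := hf y k
  refine ⟨C, hC, fun n => (h2 n).mono ?_⟩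
  exact le_mul_of_one_le_right hC (one_le_pow₀ hρ'.le)

theorem Sm.toBS {f : E → F} (hf : Sm U f) : bS U (fun (_ : Y) (_ : ℕ) => f) := fun _ k =>
  let ⟨C, hC, h1⟩ := hf k
  ⟨C, hC, fun _ => h1⟩

theorem bS.add (hU : IsOpen U) {f g : Y → ℕ → E → F} (hf : bS U f) (hg : bS U g) :
    bS U (fun y n x => f y n x + g y n x) := fun y k =>
  let ⟨C, hC, h1⟩ := hf y k
  let ⟨D, hD, h2⟩ := hg y k
  ⟨C + D, add_nonneg hC hD, fun n => (h1 n).add hU (h2 n)⟩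

theorem bS.prodMk (hU : IsOpen U) {f : Y → ℕ → E → F} {g : Y → ℕ → E → G} (hf : bS U f)
    (hg : bS U g) : bS U (fun y n x => (f y n x, g y n x)) := fun y k =>
  let ⟨C, hC, h1⟩ := hf y k
  let ⟨D, hD, h2⟩ := hg y k
  ⟨C + D, add_nonneg hC hD, fun n => (h1 n).prodMk hU (h2 n)⟩

theorem bS.comp (hU : IsOpen U) {f : Y → ℕ → G → F} {g : Y → ℕ → E → G}
    (hm : ∀ y n, MapsTo (g y n) U V) (hf : bS V f) (hg : bS U g) :
    bS U (fun y n x => f y n (g y n x)) := by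
  rcases U.eq_empty_or_nonempty with rfl | hne
  · exact fun y k => ⟨0, le_rfl, fun n => Bd.empty⟩
  intro y k
  obtain ⟨C, hC, h1⟩ := hf y k
  obtain ⟨D, hD, h2⟩ := hg y k
  exact ⟨cc k D * C, mul_nonneg (by linarith [one_le_cc k hD]) hC,
    fun n => Bd.comp hU hne (hm y n) (h1 n) (h2 n)⟩

theorem oR.comp (hU : IsOpen U) {ρ : ℝ} {f : Y → ℕ → G → F} {g : Y → ℕ → E → G}
    (hm : ∀ y n, MapsTo (g y n) U V) (hf : oR V ρ f) (hg : bS U g) :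
    oR U ρ (fun y n x => f y n (g y n x)) := by
  rcases U.eq_empty_or_nonempty with rfl | hne
  · exact fun y ρ' _ k => ⟨0, le_rfl, fun n => Bd.empty⟩
  intro y ρ' hρ' k
  obtain ⟨C, hC, h1⟩ := hf y ρ' hρ' k
  obtain ⟨D, hD, h2⟩ := hg y k
  exact ⟨cc k D * C, mul_nonneg (by linarith [one_le_cc k hD]) hC,
    fun n => (Bd.comp hU hne (hm y n) (h1 n) (h2 n)).mono (by rw [mul_assoc])⟩

/-! ### structured sequences -/

/-- `l^n P(n) = O(ρ'^n)` if `|l| < ρ'`. -/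
theorem poly_exp_bound (P : Polynomial ℝ) {l ρ' : ℝ} (h : |l| < ρ') :
    ∃ C : ℝ, 0 ≤ C ∧ ∀ n : ℕ, |l ^ n * P.eval (n : ℝ)| ≤ C * ρ' ^ n := by
  have hρ : 0 < ρ' := (abs_nonneg l).trans_lt h
  have hr : |l / ρ'| < 1 := by
    rw [abs_div, abs_of_pos hρ, div_lt_one hρ]; exact h
  have hb : ∀ P : Polynomial ℝ, ∃ C : ℝ, 0 ≤ C ∧ ∀ n : ℕ, |P.eval (n : ℝ) * (l / ρ') ^ n| ≤ C := by
    intro P
    induction P using Polynomial.induction_on' with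
    | add p q hp hq =>
      obtain ⟨C, hC, h1⟩ := hp
      obtain ⟨D, hD, h2⟩ := hq
      refine ⟨C + D, add_nonneg hC hD, fun n => ?_⟩
      rw [Polynomial.eval_add, add_mul]
      exact (abs_add_le _ _).trans (add_le_add (h1 n) (h2 n))
    | monomial j a =>
      obtain ⟨C, hC⟩ := (tendsto_pow_const_mul_const_pow_of_abs_lt_one j hr).bddAbove_range.imp
        (fun C hC n => hC ⟨n, rfl⟩)
      obtain ⟨D, hD⟩ := (tendsto_pow_const_mul_const_pow_of_abs_lt_one j hr).bddBelow_range.imp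
        (fun C hC n => hC ⟨n, rfl⟩)
      refine ⟨|a| * max |C| |D|, by positivity, fun n => ?_⟩
      rw [Polynomial.eval_monomial, mul_assoc, abs_mul]
      refine mul_le_mul_of_nonneg_left ?_ (abs_nonneg a)
      have h1 : (n : ℝ) ^ j * (l / ρ') ^ n ≤ C := hC n
      have h2 : D ≤ (n : ℝ) ^ j * (l / ρ') ^ n := hD n
      rw [abs_le]
      constructor
      · have := neg_abs_le D
        have := le_max_right |C| |D|
        linarith
      · exact h1.trans ((le_abs_self C).trans (le_max_left _ _))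
  obtain ⟨C, hC, h1⟩ := hb P
  refine ⟨C, hC, fun n => ?_⟩
  have h2 := h1 n
  have h3 : l ^ n * P.eval (n : ℝ) = P.eval (n : ℝ) * (l / ρ') ^ n * ρ' ^ n := by
    rw [div_pow]; field_simp
  rw [h3, abs_mul, abs_of_pos (pow_pos hρ n)]
  exact mul_le_mul_of_nonneg_right h2 (pow_pos hρ n).le

/-- A single term. -/
def trm (c : Y → ℝ) (l : ℝ) (P : Polynomial ℝ) (ψ : E → F) : Y → ℕ → E → F :=
  fun y n x => (c y * (l ^ n * P.eval (n : ℝ))) • ψ x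

/-- Finite sums of terms. -/
def StrT (U : Set E) (I : ℝ → Set (Y → ℝ)) : Submodule ℝ (Y → ℕ → E → F) :=
  Submodule.span ℝ {f | ∃ (c : Y → ℝ) (l : ℝ) (P : Polynomial ℝ) (ψ : E → F),
    c ∈ I l ∧ Sm U ψ ∧ f = trm c l P ψ}

/-- Structured modulo `oR U ρ`. -/
def Str (U : Set E) (I : ℝ → Set (Y → ℝ)) (ρ : ℝ) (f : Y → ℕ → E → F) : Prop :=
  ∃ s ∈ StrT U I, oR U ρ (fun y n x => f y n x - s y n x)

theorem trm_mem {I : ℝ → Set (Y → ℝ)} {c : Y → ℝ} {l : ℝ} {P : Polynomial ℝ} {ψ : E → F}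
    (hc : c ∈ I l) (hψ : Sm U ψ) : trm c l P ψ ∈ StrT (F := F) U I :=
  Submodule.subset_span ⟨c, l, P, ψ, hc, hψ, rfl⟩

theorem trm_oR (hU : IsOpen U) {c : Y → ℝ} {l : ℝ} {P : Polynomial ℝ} {ψ : E → F} (hψ : Sm U ψ) :
    oR U |l| (trm c l P ψ) := by
  intro y ρ' hρ' k
  obtain ⟨C, hC, h1⟩ := hψ k
  obtain ⟨D, hD, h2⟩ := poly_exp_bound P hρ'
  refine ⟨|c y| * D * C, by positivity, fun n => ?_⟩
  refine (h1.const_smul hU (c y * (l ^ n * P.eval (n : ℝ)))).mono ?_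
  rw [abs_mul]
  have := mul_le_mul_of_nonneg_left (h2 n) (abs_nonneg (c y))
  have h3 := mul_le_mul_of_nonneg_right this hC
  calc _ ≤ |c y| * (D * ρ' ^ n) * C := h3
    _ = _ := by ring

theorem StrT.oR (hU : IsOpen U) {I : ℝ → Set (Y → ℝ)} {ρ : ℝ} (hρ : 0 ≤ ρ)
    (hI : ∀ l c, c ∈ I l → |l| ≤ ρ) {s : Y → ℕ → E → F} (hs : s ∈ StrT U I) : oR U ρ s := by
  induction hs using Submodule.span_induction with
  | mem s hs =>
    obtain ⟨c, l, P, ψ, hc, hψ, rfl⟩ := hs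
    exact (trm_oR hU hψ).mono (hI l c hc)
  | zero => exact oR.zero hρ
  | add s t _ _ hs ht => exact hs.add hU ht
  | smul a s _ hs => exact hs.const_smul hU a

theorem StrT.mono {I J : ℝ → Set (Y → ℝ)} (h : ∀ l, I l ⊆ J l) {s : Y → ℕ → E → F}
    (hs : s ∈ StrT U I) : s ∈ StrT U J := by
  refine Submodule.span_mono ?_ hs
  rintro _ ⟨c, l, P, ψ, hc, hψ, rfl⟩
  exact ⟨c, l, P, ψ, h l hc, hψ, rfl⟩

theorem StrT.bilin (hU : IsOpen U) {I J L : ℝ → Set (Y → ℝ)}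
    (hIJ : ∀ l m c d, c ∈ I l → d ∈ J m → (fun y => c y * d y) ∈ L (l * m))
    (B : F →L[ℝ] G →L[ℝ] H) {s : Y → ℕ → E → F} {t : Y → ℕ → E → G} (hs : s ∈ StrT U I)
    (ht : t ∈ StrT U J) : (fun y n x => B (s y n x) (t y n x)) ∈ StrT U L := by
  induction hs using Submodule.span_induction with
  | mem s hs =>
    obtain ⟨c, l, P, ψ, hc, hψ, rfl⟩ := hs
    induction ht using Submodule.span_induction with
    | mem t ht =>
      obtain ⟨d, m, Q, χ, hd, hχ, rfl⟩ := ht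
      have : (fun y n x => B (trm c l P ψ y n x) (trm d m Q χ y n x))
          = trm (fun y => c y * d y) (l * m) (P * Q) (fun x => B (ψ x) (χ x)) := by
        funext y n x
        simp only [trm, map_smul, _root_.smul_apply, smul_smul, mul_pow,
          Polynomial.eval_mul]
        congr 1
        ring
      rw [this]
      exact trm_mem (hIJ _ _ _ _ hc hd) (Sm.bilin hU B hψ hχ)
    | zero => convert (StrT (F := H) U L).zero_mem using 1; funext y n x; simp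
    | add t t' _ _ h1 h2 =>
      convert (StrT (F := H) U L).add_mem h1 h2 using 1; funext y n x; simp
    | smul a t _ h1 =>
      convert (StrT (F := H) U L).smul_mem a h1 using 1; funext y n x; simp
  | zero => convert (StrT (F := H) U L).zero_mem using 1; funext y n x; simp
  | add s s' _ _ h1 h2 =>
    convert (StrT (F := H) U L).add_mem h1 h2 using 1; funext y n x; simp
  | smul a s _ h1 =>
    convert (StrT (F := H) U L).smul_mem a h1 using 1; funext y n x; simp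

theorem StrT.shift {I : ℝ → Set (Y → ℝ)} {s : Y → ℕ → E → F} (hs : s ∈ StrT U I)
    (hU : IsOpen U) : (fun y n => s y (n + 1)) ∈ StrT U I := by
  induction hs using Submodule.span_induction with
  | mem s hs =>
    obtain ⟨c, l, P, ψ, hc, hψ, rfl⟩ := hs
    have : (fun y n => trm c l P ψ y (n + 1))
        = trm c l (P.comp (Polynomial.X + 1)) (fun x => l • ψ x) := by
      funext y n x
      simp only [trm, smul_smul, Polynomial.eval_comp, Polynomial.eval_add, Polynomial.eval_X,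
        Polynomial.eval_one, Nat.cast_add, Nat.cast_one, pow_succ]
      congr 1
      ring
    rw [this]
    exact trm_mem hc (hψ.const_smul hU l)
  | zero => exact (StrT (F := F) U I).zero_mem
  | add s s' _ _ h1 h2 => exact (StrT (F := F) U I).add_mem h1 h2
  | smul a s _ h1 => exact (StrT (F := F) U I).smul_mem a h1

theorem StrT.compFix (hU : IsOpen U) {I : ℝ → Set (Y → ℝ)} {s : Y → ℕ → G → F} {κ : E → G}
    (hκ : Sm U κ) (hm : MapsTo κ U V) (hs : s ∈ StrT V I) :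
    (fun y n x => s y n (κ x)) ∈ StrT U I := by
  induction hs using Submodule.span_induction with
  | mem s hs =>
    obtain ⟨c, l, P, ψ, hc, hψ, rfl⟩ := hs
    exact trm_mem hc (Sm.comp hU hm hψ hκ)
  | zero => exact (StrT (F := F) U I).zero_mem
  | add s s' _ _ h1 h2 => exact (StrT (F := F) U I).add_mem h1 h2
  | smul a s _ h1 => exact (StrT (F := F) U I).smul_mem a h1

theorem StrT.fderiv {I : ℝ → Set (Y → ℝ)} {s : Y → ℕ → E → F} (hs : s ∈ StrT U I) :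
    (∃ s' ∈ StrT U I, ∀ y n, EqOn (fderiv ℝ (s y n)) (s' y n) U) ∧
      ∀ y n, ∀ x ∈ U, DifferentiableAt ℝ (s y n) x := by
  induction hs using Submodule.span_induction with
  | mem s hs =>
    obtain ⟨c, l, P, ψ, hc, hψ, rfl⟩ := hs
    refine ⟨⟨trm c l P (_root_.fderiv ℝ ψ), trm_mem hc hψ.fderiv, ?_⟩, ?_⟩
    · intro y n x hx
      exact ((hψ.diff hx).hasFDerivAt.const_smul _).fderiv
    · intro y n x hx
      exact (hψ.diff hx).const_smul (c y * (l ^ n * P.eval (n : ℝ)))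
  | zero =>
    refine ⟨⟨0, (StrT U I).zero_mem, ?_⟩, ?_⟩
    · intro y n x _
      simp
    · intro y n x _
      exact differentiableAt_const 0
  | add s s' _ _ h1 h2 =>
    obtain ⟨⟨t, ht, h3⟩, h4⟩ := h1
    obtain ⟨⟨t', ht', h3'⟩, h4'⟩ := h2
    refine ⟨⟨t + t', (StrT U I).add_mem ht ht', ?_⟩, ?_⟩
    · intro y n x hx
      have := ((h4 y n x hx).hasFDerivAt.add (h4' y n x hx).hasFDerivAt).fderiv
      simp only [Pi.add_apply, ← h3 y n hx, ← h3' y n hx]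
      exact this
    · intro y n x hx
      exact (h4 y n x hx).add (h4' y n x hx)
  | smul a s _ h1 =>
    obtain ⟨⟨t, ht, h3⟩, h4⟩ := h1
    refine ⟨⟨a • t, (StrT U I).smul_mem a ht, ?_⟩, ?_⟩
    · intro y n x hx
      have := ((h4 y n x hx).hasFDerivAt.const_smul a).fderiv
      simp only [Pi.smul_apply, ← h3 y n hx]
      exact this
    · intro y n x hx
      exact (h4 y n x hx).const_smul a

end P207N3H639
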