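import Mathlib
import Vale.Agent.P207.N3.H639.Cls

/-!
# P207, line N3, row EL': Taylor remainders at the origin by iterated Hadamard
-/

open Set Filter Topology MeasureTheory

namespace P207N3H639

variable {E : Type} [NormedAddCommGroup E] [NormedSpace ℝ E]
variable {E' : Type} [NormedAddCommGroup E'] [NormedSpace ℝ E']
variable {U : Set E} {U' : Set E'}

/-- Taylor polynomial of degree `< J` at `0`, by iterated Hadamard. -/
noncomputable def tay {E : Type} [NormedAddCommGroup E] [NormedSpace ℝ E] :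
    (J : ℕ) → {F : Type} → [NormedAddCommGroup F] → [NormedSpace ℝ F] → (E → F) → E → F
  | 0, _, _, _, _ => fun _ => 0
  | J + 1, _, _, _, g => fun q => g 0 + tay J (had1 g) q q

/-- Taylor remainder of order `J` at `0`, by iterated Hadamard. -/
noncomputable def rem {E : Type} [NormedAddCommGroup E] [NormedSpace ℝ E] :
    (J : ℕ) → {F : Type} → [NormedAddCommGroup F] → [NormedSpace ℝ F] → (E → F) → E → F
  | 0, _, _, _, g => g
  | J + 1, _, _, _, g => fun q => rem J (had1 g) q q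

theorem tay_add_rem (hU : IsOpen U) (hst : ∀ x ∈ U, ∀ s ∈ Icc (0 : ℝ) 1, s • x ∈ U) (J : ℕ) :
    ∀ {F : Type} [NormedAddCommGroup F] [NormedSpace ℝ F] [CompleteSpace F] {g : E → F},
      Sm U g → ∀ q ∈ U, tay J g q + rem J g q = g q := by
  induction J with
  | zero => intro F _ _ _ g _ q _; simp [tay, rem]
  | succ J ih =>
    intro F _ _ _ g hg q hq
    have h1 := ih (hg.had1 hU hst) q hq
    obtain ⟨C, _, h2⟩ := hg 1
    have h3 := had1_eq (k := 0) hst h2 hq
    simp only [tay, rem]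
    rw [add_assoc, ← _root_.add_apply, h1, ← h3]
    abel

theorem rem_norm (hU : IsOpen U) (hst : ∀ x ∈ U, ∀ s ∈ Icc (0 : ℝ) 1, s • x ∈ U) (J : ℕ) :
    ∀ {F : Type} [NormedAddCommGroup F] [NormedSpace ℝ F] [CompleteSpace F] {g : E → F} {C : ℝ},
      0 ≤ C → Bd U J g C → ∀ q ∈ U, ‖rem J g q‖ ≤ C * ‖q‖ ^ J := by
  induction J with
  | zero => intro F _ _ _ g C _ hg q hq; simpa [rem] using hg.norm_le hq
  | succ J ih =>
    intro F _ _ _ g C hC hg q hq
    have h1 := ih hC (had1_bd hU hst hC hg) q hq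
    simp only [rem]
    refine (ContinuousLinearMap.le_opNorm _ _).trans ?_
    calc _ ≤ C * ‖q‖ ^ J * ‖q‖ := mul_le_mul_of_nonneg_right h1 (norm_nonneg _)
      _ = C * ‖q‖ ^ (J + 1) := by ring

/-- Composition of a Taylor remainder with a small map. -/
theorem rem_comp_bd (hU : IsOpen U) (hst : ∀ x ∈ U, ∀ s ∈ Icc (0 : ℝ) 1, s • x ∈ U)
    (hU' : IsOpen U') (hne : U'.Nonempty) {κ : E' → E} (hκ : MapsTo κ U' U) {k : ℕ} {D D₀ : ℝ}
    (hD : 0 ≤ D) (hD₀ : D ≤ D₀) (hκD : Bd U' k κ D) (J : ℕ) :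
    ∀ {F : Type} [NormedAddCommGroup F] [NormedSpace ℝ F] [CompleteSpace F] {g : E → F} {C : ℝ},
      0 ≤ C → Bd U (k + J) g C →
        Bd U' k (fun x => rem J g (κ x)) (cc k D₀ * (2 ^ k) ^ J * C * D ^ J) := by
  have hcc : 0 ≤ cc k D₀ := by linarith [one_le_cc k (hD.trans hD₀)]
  induction J with
  | zero =>
    intro F _ _ _ g C hC hg
    simp only [rem, pow_zero, mul_one]
    exact (Bd.comp hU' hne hκ hg hκD).mono (mul_le_mul_of_nonneg_right (cc_mono k hD hD₀) hC)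
  | succ J ih =>
    intro F _ _ _ g C hC hg
    have h1 := ih hC (had1_bd hU hst hC hg)
    simp only [rem]
    refine (Bd.apply hU' (by positivity) hD h1 hκD).mono (le_of_eq ?_)
    ring

theorem had1_congr (hU : IsOpen U) (hst : ∀ x ∈ U, ∀ s ∈ Icc (0 : ℝ) 1, s • x ∈ U)
    {F : Type} [NormedAddCommGroup F] [NormedSpace ℝ F] {g g' : E → F} (h : EqOn g g' U) :
    EqOn (had1 g) (had1 g') U := by
  intro q hq
  simp only [had1, Iw]
  refine intervalIntegral.integral_congr fun s hs => ?_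
  rw [uIcc_of_le zero_le_one] at hs
  have h1 : (0 : E →L[ℝ] E) q + s • (ContinuousLinearMap.id ℝ E) q ∈ U := by
    simpa using hst q hq s hs
  have h2 : g =ᶠ[𝓝 ((0 : E →L[ℝ] E) q + s • (ContinuousLinearMap.id ℝ E) q)] g' :=
    Filter.eventuallyEq_iff_exists_mem.2 ⟨U, hU.mem_nhds h1, h⟩
  simp only [h2.fderiv_eq]

theorem rem_congr (hU : IsOpen U) (hst : ∀ x ∈ U, ∀ s ∈ Icc (0 : ℝ) 1, s • x ∈ U) (J : ℕ) :
    ∀ {F : Type} [NormedAddCommGroup F] [NormedSpace ℝ F] {g g' : E → F}, EqOn g g' U →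
      EqOn (rem J g) (rem J g') U := by
  induction J with
  | zero => intro F _ _ g g' h; exact h
  | succ J ih =>
    intro F _ _ g g' h q hq
    simp only [rem]
    rw [ih (had1_congr hU hst h) hq]

theorem had1_add (hst : ∀ x ∈ U, ∀ s ∈ Icc (0 : ℝ) 1, s • x ∈ U)
    {F : Type} [NormedAddCommGroup F] [NormedSpace ℝ F] {g g' : E → F} (hg : Sm U g)
    (hg' : Sm U g') : EqOn (had1 (fun x => g x + g' x)) (fun x => had1 g x + had1 g' x) U := by
  intro q hq
  have hmaps : ∀ s ∈ uIcc (0 : ℝ) 1, s • q ∈ U := by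
    intro s hs
    rw [uIcc_of_le zero_le_one] at hs
    exact hst q hq s hs
  have hint : ∀ {f : E → F}, Sm U f → IntervalIntegrable (fun s : ℝ => fderiv ℝ f (s • q))
      volume 0 1 := fun {f} hf => by
    obtain ⟨C, _, h2⟩ := hf 1
    have hgd : ContinuousOn (fderiv ℝ f) U := h2.2.2.continuousOn
    exact (hgd.comp (by fun_prop) hmaps).intervalIntegrable
  have e : ∀ f : E → F, had1 f q = ∫ s in (0 : ℝ)..1, fderiv ℝ f (s • q) := fun f => by
    simp [had1, Iw]
  simp only [e]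
  rw [← intervalIntegral.integral_add (hint hg) (hint hg')]
  refine intervalIntegral.integral_congr fun s hs => ?_
  exact ((hg.diff (hmaps s hs)).hasFDerivAt.add (hg'.diff (hmaps s hs)).hasFDerivAt).fderiv

theorem had1_smul (hst : ∀ x ∈ U, ∀ s ∈ Icc (0 : ℝ) 1, s • x ∈ U)
    {F : Type} [NormedAddCommGroup F] [NormedSpace ℝ F] {g : E → F} (hg : Sm U g) (a : ℝ) :
    EqOn (had1 (fun x => a • g x)) (fun x => a • had1 g x) U := by
  intro q hq
  have hmaps : ∀ s ∈ uIcc (0 : ℝ) 1, s • q ∈ U := by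
    intro s hs
    rw [uIcc_of_le zero_le_one] at hs
    exact hst q hq s hs
  have e : ∀ f : E → F, had1 f q = ∫ s in (0 : ℝ)..1, fderiv ℝ f (s • q) := fun f => by
    simp [had1, Iw]
  simp only [e]
  rw [← intervalIntegral.integral_smul]
  refine intervalIntegral.integral_congr fun s hs => ?_
  exact ((hg.diff (hmaps s hs)).hasFDerivAt.const_smul a).fderiv

theorem rem_add (hU : IsOpen U) (hst : ∀ x ∈ U, ∀ s ∈ Icc (0 : ℝ) 1, s • x ∈ U) (J : ℕ) :
    ∀ {F : Type} [NormedAddCommGroup F] [NormedSpace ℝ F] [CompleteSpace F] {g g' : E → F},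
      Sm U g → Sm U g' → EqOn (rem J (fun x => g x + g' x)) (fun x => rem J g x + rem J g' x) U := by
  induction J with
  | zero => intro F _ _ _ g g' _ _ q _; rfl
  | succ J ih =>
    intro F _ _ _ g g' hg hg' q hq
    simp only [rem]
    rw [rem_congr hU hst J (had1_add hst hg hg') hq, ih (hg.had1 hU hst) (hg'.had1 hU hst) hq]
    rfl

theorem rem_smul (hU : IsOpen U) (hst : ∀ x ∈ U, ∀ s ∈ Icc (0 : ℝ) 1, s • x ∈ U) (J : ℕ) (a : ℝ) :
    ∀ {F : Type} [NormedAddCommGroup F] [NormedSpace ℝ F] [CompleteSpace F] {g : E → F},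
      Sm U g → EqOn (rem J (fun x => a • g x)) (fun x => a • rem J g x) U := by
  induction J with
  | zero => intro F _ _ _ g _ q _; rfl
  | succ J ih =>
    intro F _ _ _ g hg q hq
    simp only [rem]
    rw [rem_congr hU hst J (had1_smul hst hg a) hq, ih (hg.had1 hU hst) hq]
    rfl

theorem Sm.rem (hU : IsOpen U) (hst : ∀ x ∈ U, ∀ s ∈ Icc (0 : ℝ) 1, s • x ∈ U) {R : ℝ}
    (hR : ∀ x ∈ U, ‖x‖ ≤ R) (J : ℕ) :
    ∀ {F : Type} [NormedAddCommGroup F] [NormedSpace ℝ F] [CompleteSpace F] {g : E → F},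
      Sm U g → Sm U (rem J g) := by
  induction J with
  | zero => intro F _ _ _ g hg; exact hg
  | succ J ih =>
    intro F _ _ _ g hg
    exact Sm.bilin hU (ContinuousLinearMap.id ℝ (E →L[ℝ] F)) (ih (hg.had1 hU hst)) (Sm.id hR)

theorem Sm.tay (hU : IsOpen U) (hst : ∀ x ∈ U, ∀ s ∈ Icc (0 : ℝ) 1, s • x ∈ U) {R : ℝ}
    (hR : ∀ x ∈ U, ‖x‖ ≤ R) (J : ℕ) :
    ∀ {F : Type} [NormedAddCommGroup F] [NormedSpace ℝ F] [CompleteSpace F] {g : E → F},
      Sm U g → Sm U (tay J g) := by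
  induction J with
  | zero => intro F _ _ _ g _; exact Sm.zero
  | succ J ih =>
    intro F _ _ _ g hg
    exact (Sm.const (g 0)).add hU
      (Sm.bilin hU (ContinuousLinearMap.id ℝ (E →L[ℝ] F)) (ih (hg.had1 hU hst)) (Sm.id hR))

/-- Scaling argument: a Taylor polynomial of degree `< J` which is `O(s^J)` vanishes. -/
theorem tay_scal (hU : IsOpen U) (hst : ∀ x ∈ U, ∀ s ∈ Icc (0 : ℝ) 1, s • x ∈ U) {R : ℝ}
    (hR : ∀ x ∈ U, ‖x‖ ≤ R) {q : E} (hq : q ∈ U) (J : ℕ) :
    ∀ {F F' : Type} [NormedAddCommGroup F] [NormedSpace ℝ F] [CompleteSpace F]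
      [NormedAddCommGroup F'] [NormedSpace ℝ F'] {g : E → F} (L : F →L[ℝ] F') (C : ℝ),
      Sm U g → (∀ s ∈ Ioc (0 : ℝ) 1, ‖L (tay J g (s • q))‖ ≤ C * s ^ J) →
        ∀ s ∈ Ioc (0 : ℝ) 1, L (tay J g (s • q)) = 0 := by
  induction J with
  | zero => intro F F' _ _ _ _ _ g L C _ _ s _; simp [tay]
  | succ J ih =>
    intro F F' _ _ _ _ _ g L C hg h
    -- the linear functional on the next level
    let L' : (E →L[ℝ] F) →L[ℝ] F' := L.comp (ContinuousLinearMap.apply ℝ F q)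
    have hdec : ∀ s : ℝ, L (tay (J + 1) g (s • q)) = L (g 0) + s • L' (tay J (had1 g) (s • q)) := by
      intro s
      simp only [tay, map_add, map_smul, L', ContinuousLinearMap.comp_apply,
        ContinuousLinearMap.apply_apply]
    obtain ⟨M, hM0, hM⟩ := Sm.tay hU hst hR J (hg.had1 hU hst) 0
    have hbd : ∀ s ∈ Ioc (0 : ℝ) 1, ‖L' (tay J (had1 g) (s • q))‖ ≤ ‖L'‖ * M := fun s hs =>
      (L'.le_opNorm _).trans (mul_le_mul_of_nonneg_left
        (hM.norm_le (hst q hq s ⟨hs.1.le, hs.2⟩)) (norm_nonneg _))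
    have h0 : L (g 0) = 0 := by
      have h1 : ∀ s ∈ Ioc (0 : ℝ) 1, ‖L (g 0)‖ ≤ (|C| + ‖L'‖ * M) * s := by
        intro s hs
        have e : L (g 0) = L (tay (J + 1) g (s • q)) - s • L' (tay J (had1 g) (s • q)) := by
          rw [hdec]; abel
        rw [e]
        refine (norm_sub_le _ _).trans ?_
        rw [norm_smul, Real.norm_eq_abs, abs_of_pos hs.1]
        have h2 := h s hs
        have h3 := hbd s hs
        have h4 : s ^ (J + 1) ≤ s := by
          have := pow_le_pow_of_le_one hs.1.le hs.2 (Nat.succ_le_succ (Nat.zero_le J))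
          simpa using this
        have h5 : C * s ^ (J + 1) ≤ |C| * s :=
          (mul_le_mul_of_nonneg_right (le_abs_self C) (pow_pos hs.1 _).le).trans
            (mul_le_mul_of_nonneg_left h4 (abs_nonneg C))
        have h6 : s * ‖L' (tay J (had1 g) (s • q))‖ ≤ s * (‖L'‖ * M) :=
          mul_le_mul_of_nonneg_left h3 hs.1.le
        calc _ ≤ |C| * s + s * (‖L'‖ * M) := add_le_add (h2.trans h5) h6
          _ = _ := by ring
      have h2 : ‖L (g 0)‖ ≤ 0 := by
        refine le_of_tendsto_of_tendsto (f := fun _ : ℝ => ‖L (g 0)‖) tendsto_const_nhds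
          (g := fun s : ℝ => (|C| + ‖L'‖ * M) * s) (b := 𝓝[>] (0 : ℝ)) ?_ ?_
        · have : Tendsto (fun s : ℝ => (|C| + ‖L'‖ * M) * s) (𝓝 0) (𝓝 ((|C| + ‖L'‖ * M) * 0)) :=
            (continuous_const.mul continuous_id).tendsto 0
          rw [mul_zero] at this
          exact this.mono_left nhdsWithin_le_nhds
        · filter_upwards [Ioc_mem_nhdsGT (zero_lt_one' ℝ)] with s hs
          exact h1 s hs
      exact norm_le_zero_iff.1 h2
    have h1 : ∀ s ∈ Ioc (0 : ℝ) 1, ‖L' (tay J (had1 g) (s • q))‖ ≤ C * s ^ J := by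
      intro s hs
      have h2 := h s hs
      rw [hdec, h0, zero_add, norm_smul, Real.norm_eq_abs, abs_of_pos hs.1, pow_succ] at h2
      have h3 : s * ‖L' (tay J (had1 g) (s • q))‖ ≤ s * (C * s ^ J) := by
        refine h2.trans (le_of_eq (by ring))
      exact le_of_mul_le_mul_left h3 hs.1
    intro s hs
    rw [hdec, h0, ih L' C (hg.had1 hU hst) h1 s hs, smul_zero, add_zero]

/-- A smooth function which is `O(|q|^J)` is its own remainder of order `J`. -/
theorem rem_eq_of_flat (hU : IsOpen U) (hst : ∀ x ∈ U, ∀ s ∈ Icc (0 : ℝ) 1, s • x ∈ U) {R : ℝ}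
    (hR : ∀ x ∈ U, ‖x‖ ≤ R) {F : Type} [NormedAddCommGroup F] [NormedSpace ℝ F]
    [CompleteSpace F] {g : E → F} (hg : Sm U g) {J : ℕ} {C : ℝ}
    (hflat : ∀ q ∈ U, ‖g q‖ ≤ C * ‖q‖ ^ J) : EqOn (rem J g) g U := by
  intro q hq
  obtain ⟨D, hD, hgD⟩ := hg J
  have h1 : ∀ s ∈ Ioc (0 : ℝ) 1, ‖(ContinuousLinearMap.id ℝ F) (tay J g (s • q))‖
      ≤ ((|C| + D) * ‖q‖ ^ J) * s ^ J := by
    intro s hs
    have hsq : s • q ∈ U := hst q hq s ⟨hs.1.le, hs.2⟩
    have e : tay J g (s • q) = g (s • q) - rem J g (s • q) := by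
      rw [← tay_add_rem hU hst J hg _ hsq]; abel
    rw [ContinuousLinearMap.id_apply, e]
    refine (norm_sub_le _ _).trans ?_
    have h2 := hflat _ hsq
    have h3 := rem_norm hU hst J hD hgD _ hsq
    have h4 : ‖s • q‖ ^ J = ‖q‖ ^ J * s ^ J := by
      rw [norm_smul, Real.norm_eq_abs, abs_of_pos hs.1, mul_pow]; ring
    rw [h4] at h2 h3
    have h5 : C * (‖q‖ ^ J * s ^ J) ≤ |C| * (‖q‖ ^ J * s ^ J) :=
      mul_le_mul_of_nonneg_right (le_abs_self C)
        (mul_nonneg (by positivity) (pow_pos hs.1 _).le)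
    calc _ ≤ |C| * (‖q‖ ^ J * s ^ J) + D * (‖q‖ ^ J * s ^ J) := add_le_add (h2.trans h5) h3
      _ = _ := by ring
  have h2 := tay_scal hU hst hR hq J (ContinuousLinearMap.id ℝ F) _ hg h1 1 ⟨zero_lt_one, le_rfl⟩
  rw [one_smul, ContinuousLinearMap.id_apply] at h2
  have h3 := tay_add_rem hU hst J hg q hq
  rw [h2, zero_add] at h3
  exact h3

end P207N3H639
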