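import Mathlib
import Vale.Agent.P207.N3.H639.Cls

/-!
# P207, line N3, row EL': calculus of structured sequences
-/

open Set Filter Topology MeasureTheory

namespace P207N3H639

variable {Y : Type*}
variable {E : Type} [NormedAddCommGroup E] [NormedSpace ℝ E]
variable {F : Type} [NormedAddCommGroup F] [NormedSpace ℝ F]
variable {G : Type} [NormedAddCommGroup G] [NormedSpace ℝ G]
variable {H : Type} [NormedAddCommGroup H] [NormedSpace ℝ H]
variable {U : Set E} {V : Set G} {I J L : ℝ → Set (Y → ℝ)} {ρ ρ₁ : ℝ}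

theorem Str.of_mem (hρ : 0 ≤ ρ) {s : Y → ℕ → E → F} (hs : s ∈ StrT U I) : Str U I ρ s :=
  ⟨s, hs, by simpa using oR.zero (U := U) (F := F) (Y := Y) hρ⟩

theorem Str.of_oR {f : Y → ℕ → E → F} (hf : oR U ρ f) : Str U I ρ f :=
  ⟨0, (StrT U I).zero_mem, by simpa using hf⟩

theorem Str.mono_rate (h : ρ ≤ ρ₁) {f : Y → ℕ → E → F} (hf : Str U I ρ f) : Str U I ρ₁ f :=
  let ⟨s, hs, h1⟩ := hf
  ⟨s, hs, h1.mono h⟩

theorem Str.mono (h : ∀ l, I l ⊆ J l) {f : Y → ℕ → E → F} (hf : Str U I ρ f) : Str U J ρ f :=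
  let ⟨s, hs, h1⟩ := hf
  ⟨s, StrT.mono h hs, h1⟩

theorem Str.congr (hU : IsOpen U) {f g : Y → ℕ → E → F} (h : ∀ y n, EqOn (f y n) (g y n) U)
    (hf : Str U I ρ f) : Str U I ρ g :=
  let ⟨s, hs, h1⟩ := hf
  ⟨s, hs, h1.congr hU fun y n x hx => by
    show f y n x - s y n x = g y n x - s y n x
    rw [h y n hx]⟩

theorem Str.add (hU : IsOpen U) {f g : Y → ℕ → E → F} (hf : Str U I ρ f) (hg : Str U I ρ g) :
    Str U I ρ (fun y n x => f y n x + g y n x) :=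
  let ⟨s, hs, h1⟩ := hf
  let ⟨t, ht, h2⟩ := hg
  ⟨s + t, (StrT U I).add_mem hs ht, (h1.add hU h2).congr hU fun y n x _ => by
    simp only [Pi.add_apply]; abel⟩

theorem Str.neg (hU : IsOpen U) {f : Y → ℕ → E → F} (hf : Str U I ρ f) :
    Str U I ρ (fun y n x => -f y n x) :=
  let ⟨s, hs, h1⟩ := hf
  ⟨-s, neg_mem hs, (h1.neg hU).congr hU fun y n x _ => by
    simp only [Pi.neg_apply]; abel⟩

theorem Str.sub (hU : IsOpen U) {f g : Y → ℕ → E → F} (hf : Str U I ρ f) (hg : Str U I ρ g) :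
    Str U I ρ (fun y n x => f y n x - g y n x) :=
  (hf.add hU (hg.neg hU)).congr hU fun y n x _ => by simp [sub_eq_add_neg]

theorem Str.const_smul (hU : IsOpen U) {f : Y → ℕ → E → F} (hf : Str U I ρ f) (a : ℝ) :
    Str U I ρ (fun y n x => a • f y n x) :=
  let ⟨s, hs, h1⟩ := hf
  ⟨a • s, (StrT U I).smul_mem a hs, (h1.const_smul hU a).congr hU fun y n x _ => by
    simp only [Pi.smul_apply, smul_sub]⟩

theorem StrT.clm (hU : IsOpen U) (T : F →L[ℝ] G) {s : Y → ℕ → E → F} (hs : s ∈ StrT U I) :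
    (fun y n x => T (s y n x)) ∈ StrT U I := by
  induction hs using Submodule.span_induction with
  | mem s hs =>
    obtain ⟨c, l, P, ψ, hc, hψ, rfl⟩ := hs
    have : (fun y n x => T (trm c l P ψ y n x)) = trm c l P (fun x => T (ψ x)) := by
      funext y n x
      simp only [trm, map_smul]
    rw [this]
    exact trm_mem hc (hψ.clm hU T)
  | zero => convert (StrT (F := G) U I).zero_mem using 1; funext y n x; simp
  | add s s' _ _ h1 h2 =>
    convert (StrT (F := G) U I).add_mem h1 h2 using 1; funext y n x; simp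
  | smul a s _ h1 =>
    convert (StrT (F := G) U I).smul_mem a h1 using 1; funext y n x; simp

theorem Str.clm (hU : IsOpen U) (T : F →L[ℝ] G) {f : Y → ℕ → E → F} (hf : Str U I ρ f) :
    Str U I ρ (fun y n x => T (f y n x)) :=
  let ⟨s, hs, h1⟩ := hf
  ⟨_, StrT.clm hU T hs, (h1.clm hU T).congr hU fun y n x _ => by simp⟩

theorem Str.shift (hU : IsOpen U) (hρ : 0 ≤ ρ) {f : Y → ℕ → E → F} (hf : Str U I ρ f) :
    Str U I ρ (fun y n => f y (n + 1)) :=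
  let ⟨s, hs, h1⟩ := hf
  ⟨fun y n => s y (n + 1), StrT.shift hs hU, h1.shift hρ⟩

theorem Str.compFix (hU : IsOpen U) {f : Y → ℕ → G → F} {κ : E → G} (hκ : Sm U κ)
    (hm : MapsTo κ U V) (hf : Str V I ρ f) : Str U I ρ (fun y n x => f y n (κ x)) :=
  let ⟨s, hs, h1⟩ := hf
  ⟨fun y n x => s y n (κ x), StrT.compFix hU hκ hm hs,
    oR.comp hU (f := fun y n x => f y n x - s y n x) (g := fun _ _ => κ) (fun _ _ => hm) h1
      hκ.toBS⟩

theorem Str.bilin (hU : IsOpen U)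
    (hIJ : ∀ l m c d, c ∈ I l → d ∈ J m → (fun y => c y * d y) ∈ L (l * m))
    (B : F →L[ℝ] G →L[ℝ] H) {ρf ρg a a' : ℝ} (hρf : 0 ≤ ρf) (hρg : 0 ≤ ρg) (ha : ρf ≤ a)
    (ha' : 0 ≤ a') {f : Y → ℕ → E → F} {g : Y → ℕ → E → G}
    (hf : Str U I ρf f) (hfa : oR U a f) (hg : Str U J ρg g) (hga : oR U a' g) :
    Str U L (max (a * ρg) (ρf * a')) (fun y n x => B (f y n x) (g y n x)) := by
  obtain ⟨s, hs, h1⟩ := hf
  obtain ⟨t, ht, h2⟩ := hg
  have hsa : oR U a s := (hfa.sub hU (h1.mono ha)).congr hU fun y n x _ => by simp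
  have h3 := (oR.bilin hU (hρf.trans ha) hρg B hsa h2).mono (le_max_left (a * ρg) (ρf * a'))
  have h4 := (oR.bilin hU hρf ha' B h1 hga).mono (le_max_right (a * ρg) (ρf * a'))
  refine ⟨fun y n x => B (s y n x) (t y n x), StrT.bilin hU hIJ B hs ht,
    (h3.add hU h4).congr hU fun y n x _ => ?_⟩
  simp only [map_sub, _root_.sub_apply]
  abel

/-- Graded data: coefficients, positive coefficients, decomposable coefficients. -/
structure Gr (Y : Type*) where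
  /-- an upper bound for the multipliers of the positive elements -/
  b : ℝ
  b_pos : 0 < b
  b_lt : b < 1
  /-- all coefficients -/
  A : ℝ → Set (Y → ℝ)
  /-- positive weight -/
  P : ℝ → Set (Y → ℝ)
  /-- decomposable -/
  D : ℝ → Set (Y → ℝ)
  one : (fun _ => (1 : ℝ)) ∈ A 1
  P_le : ∀ l, P l ⊆ A l
  D_le : ∀ l, D l ⊆ P l
  A_one : ∀ l c, c ∈ A l → |l| ≤ 1
  P_b : ∀ l c, c ∈ P l → |l| ≤ b
  AA : ∀ l m c d, c ∈ A l → d ∈ A m → (fun y => c y * d y) ∈ A (l * m)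
  AP : ∀ l m c d, c ∈ A l → d ∈ P m → (fun y => c y * d y) ∈ P (l * m)
  PP : ∀ l m c d, c ∈ P l → d ∈ P m → (fun y => c y * d y) ∈ D (l * m)
  AD : ∀ l m c d, c ∈ A l → d ∈ D m → (fun y => c y * d y) ∈ D (l * m)

variable (𝒢 : Gr Y)

theorem Sm.strA (hρ : 0 ≤ ρ) {ψ : E → F} (hψ : Sm U ψ) :
    Str U 𝒢.A ρ (fun _ _ x => ψ x) := by
  have h : (trm (fun _ => (1 : ℝ)) 1 1 ψ : Y → ℕ → E → F) ∈ StrT U 𝒢.A := trm_mem 𝒢.one hψ
  have e : (trm (fun _ => (1 : ℝ)) 1 1 ψ : Y → ℕ → E → F) = fun _ _ x => ψ x := by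
    funext y n x
    simp [trm]
  rw [e] at h
  exact Str.of_mem hρ h

/-- Application of linear maps, first factor in `A`, second factor in `P`. -/
theorem Str.applyAP (hU : IsOpen U) {ρf ρg a a' : ℝ} (hρf : 0 ≤ ρf) (hρg : 0 ≤ ρg) (ha : ρf ≤ a)
    (ha' : 0 ≤ a') {f : Y → ℕ → E → F →L[ℝ] G} {g : Y → ℕ → E → F}
    (hf : Str U 𝒢.A ρf f) (hfa : oR U a f) (hg : Str U 𝒢.P ρg g) (hga : oR U a' g) :
    Str U 𝒢.P (max (a * ρg) (ρf * a')) (fun y n x => f y n x (g y n x)) :=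
  Str.bilin hU 𝒢.AP (ContinuousLinearMap.id ℝ (F →L[ℝ] G)) hρf hρg ha ha' hf hfa hg hga

theorem Str.applyPP (hU : IsOpen U) {ρf ρg a a' : ℝ} (hρf : 0 ≤ ρf) (hρg : 0 ≤ ρg) (ha : ρf ≤ a)
    (ha' : 0 ≤ a') {f : Y → ℕ → E → F →L[ℝ] G} {g : Y → ℕ → E → F}
    (hf : Str U 𝒢.P ρf f) (hfa : oR U a f) (hg : Str U 𝒢.P ρg g) (hga : oR U a' g) :
    Str U 𝒢.D (max (a * ρg) (ρf * a')) (fun y n x => f y n x (g y n x)) :=
  Str.bilin hU 𝒢.PP (ContinuousLinearMap.id ℝ (F →L[ℝ] G)) hρf hρg ha ha' hf hfa hg hga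

theorem Str.applyAD (hU : IsOpen U) {ρf ρg a a' : ℝ} (hρf : 0 ≤ ρf) (hρg : 0 ≤ ρg) (ha : ρf ≤ a)
    (ha' : 0 ≤ a') {f : Y → ℕ → E → F →L[ℝ] G} {g : Y → ℕ → E → F}
    (hf : Str U 𝒢.A ρf f) (hfa : oR U a f) (hg : Str U 𝒢.D ρg g) (hga : oR U a' g) :
    Str U 𝒢.D (max (a * ρg) (ρf * a')) (fun y n x => f y n x (g y n x)) :=
  Str.bilin hU 𝒢.AD (ContinuousLinearMap.id ℝ (F →L[ℝ] G)) hρf hρg ha ha' hf hfa hg hga

/-- **Smooth substitution**: `h(q, p_n(q))` is structured. -/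
theorem Str.subst (hU : IsOpen U) {R : ℝ} (hR : ∀ x ∈ U, ‖x‖ ≤ R) {W : Set (E × G)}
    (hW : IsOpen W) (hst : ∀ z ∈ W, ∀ s ∈ Icc (0 : ℝ) 1, (z.1, s • z.2) ∈ W)
    (hρ : 0 < ρ) {p : Y → ℕ → E → G}
    (hp : Str U 𝒢.P ρ p) (hpo : oR U 𝒢.b p) (hmem : ∀ y n, ∀ q ∈ U, (q, p y n q) ∈ W)
    {F : Type} [NormedAddCommGroup F] [NormedSpace ℝ F] [CompleteSpace F] {h : E × G → F}
    (hh : Sm W h) (hne : Nonempty Y) : Str U 𝒢.A ρ (fun y n q => h (q, p y n q)) := by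
  have hb0 := 𝒢.b_pos
  have hb1 := 𝒢.b_lt
  have hbS : bS U (fun y n q => (q, p y n q)) :=
    bS.prodMk hU (Sm.id hR).toBS (hpo.toBS hb1)
  have h0 : ∀ q ∈ U, (q, (0 : G)) ∈ W := fun q hq => by
    obtain ⟨y⟩ := hne
    have := hst _ (hmem y 0 q hq) 0 ⟨le_rfl, zero_le_one⟩
    simpa using this
  have hbd : ∀ {F : Type} [NormedAddCommGroup F] [NormedSpace ℝ F] {h : E × G → F}, Sm W h →
      oR U 1 (fun y n q => h (q, p y n q)) := fun {F} _ _ {h} hh =>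
    (bS.comp hU hmem (hh.toBS (Y := Y)) hbS).toOR
  have key : ∀ m : ℕ, ∀ {F : Type} [NormedAddCommGroup F] [NormedSpace ℝ F] [CompleteSpace F]
      {h : E × G → F}, Sm W h → Str U 𝒢.A (max (𝒢.b ^ m) ρ) (fun y n q => h (q, p y n q)) := by
    intro m
    induction m with
    | zero =>
      intro F _ _ _ h hh
      exact Str.of_oR ((hbd hh).mono (by simp))
    | succ m ih =>
      intro F _ _ _ h hh
      have h1 := ih (hh.had2 hW hst)
      have h2 := hbd (hh.had2 hW hst)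
      by_cases hle : max (𝒢.b ^ m) ρ ≤ 1
      · have h3 := Str.applyAP 𝒢 hU (by positivity) hρ.le hle hb0.le h1 h2 hp hpo
        have h4 : Sm U (fun q => h (q, (0 : G))) :=
          Sm.comp hU h0 hh (Sm.prodMk hU (Sm.id hR) Sm.zero)
        have h5 := Sm.strA 𝒢 (ρ := max (𝒢.b ^ (m + 1)) ρ) (by positivity) h4
        have h6 := (h3.mono 𝒢.P_le).mono_rate (ρ₁ := max (𝒢.b ^ (m + 1)) ρ) (by
          rw [one_mul]
          refine max_le (le_max_right _ _) ?_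
          rw [max_mul_of_nonneg _ _ hb0.le]
          refine max_le ?_ ?_
          · rw [← pow_succ]; exact le_max_left _ _
          · exact (mul_le_of_le_one_right hρ.le hb1.le).trans (le_max_right _ _))
        refine (h5.add hU h6).congr hU fun y n q hq => ?_
        obtain ⟨C, hC, h7⟩ := hh 1
        have := had2_eq (k := 0) hst h7 (hmem y n q hq)
        show h (q, 0) + P207N3H639.had2 h (q, p y n q) (p y n q) = h (q, p y n q)
        rw [← this]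
        abel
      · refine Str.of_oR ((hbd hh).mono ?_)
        have : 1 < ρ := by
          by_contra hc
          exact hle (max_le (pow_le_one₀ hb0.le hb1.le) (not_lt.1 hc))
        exact this.le.trans (le_max_right _ _)
  obtain ⟨m, hm⟩ := exists_pow_lt_of_lt_one hρ hb1
  have := key m hh
  rwa [max_eq_right hm.le] at this

/-- **Smooth substitution, difference form**. -/
theorem Str.subst_sub (hU : IsOpen U) {R : ℝ} (hR : ∀ x ∈ U, ‖x‖ ≤ R) {W : Set (E × G)}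
    (hW : IsOpen W) (hst : ∀ z ∈ W, ∀ s ∈ Icc (0 : ℝ) 1, (z.1, s • z.2) ∈ W)
    (hρ : 0 < ρ) (hρ1 : ρ ≤ 1) {p : Y → ℕ → E → G}
    (hp : Str U 𝒢.P ρ p) (hpo : oR U 𝒢.b p) (hmem : ∀ y n, ∀ q ∈ U, (q, p y n q) ∈ W)
    {F : Type} [NormedAddCommGroup F] [NormedSpace ℝ F] [CompleteSpace F] {h : E × G → F}
    (hh : Sm W h) (hne : Nonempty Y) :
    Str U 𝒢.P ρ (fun y n q => h (q, p y n q) - h (q, 0)) ∧
      oR U 𝒢.b (fun y n q => h (q, p y n q) - h (q, 0)) := by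
  have hb0 := 𝒢.b_pos
  have hb1 := 𝒢.b_lt
  have hbS : bS U (fun y n q => (q, p y n q)) :=
    bS.prodMk hU (Sm.id hR).toBS (hpo.toBS hb1)
  have h1 := Str.subst 𝒢 hU hR hW hst hρ hp hpo hmem (hh.had2 hW hst) hne
  have h2 : oR U 1 (fun y n q => P207N3H639.had2 h (q, p y n q)) :=
    (bS.comp hU hmem ((hh.had2 hW hst).toBS (Y := Y)) hbS).toOR
  have heq : ∀ y n, EqOn (fun q => P207N3H639.had2 h (q, p y n q) (p y n q))
      (fun q => h (q, p y n q) - h (q, 0)) U := by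
    intro y n q hq
    obtain ⟨C, hC, h7⟩ := hh 1
    exact (had2_eq (k := 0) hst h7 (hmem y n q hq)).symm
  constructor
  · have h3 := Str.applyAP 𝒢 hU hρ.le hρ.le hρ1 hb0.le h1 h2 hp hpo
    refine (h3.congr hU heq).mono_rate ?_
    rw [one_mul]
    exact max_le le_rfl (mul_le_of_le_one_right hρ.le hb1.le)
  · have h3 := oR.bilin hU zero_le_one hb0.le (ContinuousLinearMap.id ℝ (G →L[ℝ] F)) h2 hpo
    exact (h3.congr hU heq).mono (by rw [one_mul])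

end P207N3H639
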