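import Mathlib
import Vale.Agent.P207.N3.H639.Rem
import Vale.Agent.P207.N3.H639.Sub

/-!
# P207, line N3, row EL': the linear lemma
`D_{n+1} - A · (D_n ∘ K)` structured and `D_n = O(|q|^J)` imply `D` structured.
-/

open Set Filter Topology MeasureTheory Finset

namespace P207N3H639

variable {Y : Type*}
variable {E : Type} [NormedAddCommGroup E] [NormedSpace ℝ E]
variable {F : Type} [NormedAddCommGroup F] [NormedSpace ℝ F]
variable {U : Set E} {K : E → E} {A : E → F →L[ℝ] F} {σ : ℝ}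

/-- The coefficient of the `l`-th iterate of `g ↦ A · (g ∘ K)`. -/
noncomputable def Ait (K : E → E) (A : E → F →L[ℝ] F) : ℕ → E → F →L[ℝ] F
  | 0 => fun _ => ContinuousLinearMap.id ℝ F
  | l + 1 => fun q => (Ait K A l q).comp (A (K^[l] q))

/-- The `l`-th iterate of `g ↦ A · (g ∘ K)`. -/
noncomputable def Tit (K : E → E) (A : E → F →L[ℝ] F) (l : ℕ) (g : E → F) (q : E) : F :=
  Ait K A l q (g (K^[l] q))

omit [NormedAddCommGroup E] [NormedSpace ℝ E] in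
theorem Ait_succ' (K : E → E) (A : E → F →L[ℝ] F) (l : ℕ) (q : E) :
    (A q).comp (Ait K A l (K q)) = Ait K A (l + 1) q := by
  induction l with
  | zero => simp [Ait]
  | succ l ih =>
    have h1 : Ait K A (l + 1) (K q) = (Ait K A l (K q)).comp (A (K^[l] (K q))) := rfl
    have h2 : Ait K A (l + 1 + 1) q = (Ait K A (l + 1) q).comp (A (K^[l + 1] q)) := rfl
    rw [h1, h2, ← ContinuousLinearMap.comp_assoc, ih, Function.iterate_succ_apply]

omit [NormedAddCommGroup E] [NormedSpace ℝ E] in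
theorem Tit_succ (K : E → E) (A : E → F →L[ℝ] F) (l : ℕ) (g : E → F) (q : E) :
    A q (Tit K A l g (K q)) = Tit K A (l + 1) g q := by
  simp only [Tit]
  rw [Function.iterate_succ_apply, ← Ait_succ']
  rfl

omit [NormedAddCommGroup E] [NormedSpace ℝ E] in
theorem Tit_zero (K : E → E) (A : E → F →L[ℝ] F) (g : E → F) (q : E) :
    Tit K A 0 g q = g q := rfl

/-- A contraction `K` with coefficient `A`. -/
structure Ctr (U : Set E) (K : E → E) (A : E → F →L[ℝ] F) (σ : ℝ) : Prop where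
  σ_nonneg : 0 ≤ σ
  σ_lt : σ < 1
  maps : MapsTo K U U
  K0 : K 0 = 0
  K_sm : Sm U K
  A_sm : Sm U A
  K_it : ∀ k : ℕ, ∀ σ' : ℝ, σ < σ' → ∃ C : ℝ, 0 ≤ C ∧ ∀ l : ℕ, Bd U k (K^[l]) (C * σ' ^ l)
  A_it : ∀ k : ℕ, ∀ ρ' : ℝ, 1 < ρ' → ∃ C : ℝ, 0 ≤ C ∧ ∀ l : ℕ, Bd U k (Ait K A l) (C * ρ' ^ l)

/-- Open, bounded, star-shaped, preconnected. -/
structure Dom (U : Set E) (R : ℝ) : Prop where
  op : IsOpen U
  zero : (0 : E) ∈ U
  st : ∀ x ∈ U, ∀ s ∈ Icc (0 : ℝ) 1, s • x ∈ U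
  bd : ∀ x ∈ U, ‖x‖ ≤ R
  pre : IsPreconnected U

theorem Dom.ne {R : ℝ} (h : Dom U R) : U.Nonempty := ⟨0, h.zero⟩

theorem Dom.ball {r : ℝ} (hr : 0 < r) : Dom (Metric.ball (0 : E) r) r where
  op := Metric.isOpen_ball
  zero := Metric.mem_ball_self hr
  st := fun x hx s hs => by
    rw [mem_ball_zero_iff] at hx ⊢
    rw [norm_smul, Real.norm_eq_abs, abs_of_nonneg hs.1]
    exact (mul_le_of_le_one_left (norm_nonneg _) hs.2).trans_lt hx
  bd := fun x hx => (mem_ball_zero_iff.1 hx).le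
  pre := (convex_ball 0 r).isPreconnected

theorem exists_pow_rate {σ τ : ℝ} (hσ : 0 ≤ σ) (hσ1 : σ < 1) (J : ℕ) (h : σ ^ J < τ) :
    ∃ σ' ρ' : ℝ, σ < σ' ∧ σ' ≤ 1 ∧ 1 < ρ' ∧ ρ' * σ' ^ J ≤ τ := by
  obtain ⟨ρ', s, h1, h2, h3⟩ := exists_rates (ρ := 1) (ρ₁ := σ ^ J) (τ := τ) (by rwa [one_mul])
  have hc : Tendsto (fun t : ℝ => t ^ J) (𝓝[>] σ) (𝓝 (σ ^ J)) :=
    ((continuous_pow J).tendsto σ).mono_left nhdsWithin_le_nhds
  obtain ⟨t, ⟨ht1, ht2⟩, ht3⟩ := ((hc.eventually (gt_mem_nhds h2)).and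
    (Ioo_mem_nhdsGT hσ1)).and self_mem_nhdsWithin |>.exists
  have ht0 : 0 ≤ t := hσ.trans (le_of_lt ht3)
  exact ⟨t, ρ', ht3, ht2.2.le, h1, (mul_le_mul_of_nonneg_left ht1.le (by linarith)).trans h3⟩

variable [CompleteSpace F]

theorem Ctr.Tit_bd {R : ℝ} (hd : Dom U R) (h : Ctr U K A σ) (J : ℕ) {τ : ℝ} (hτ : σ ^ J < τ)
    (k : ℕ) : ∃ C : ℝ, 0 ≤ C ∧ ∀ l : ℕ, ∀ (g : E → F) (C' : ℝ), 0 ≤ C' → Bd U (k + J) g C' →
      Bd U k (Tit K A l (rem J g)) (C * C' * τ ^ l) := by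
  obtain ⟨σ', ρ', h1, h2, h3, h4⟩ := exists_pow_rate h.σ_nonneg h.σ_lt J hτ
  obtain ⟨CK, hCK, hK⟩ := h.K_it k σ' h1
  obtain ⟨CA, hCA, hA⟩ := h.A_it k ρ' h3
  have hσ' : 0 ≤ σ' := h.σ_nonneg.trans h1.le
  have hρ' : 0 ≤ ρ' := by linarith
  have hcc : 0 ≤ cc k CK := by linarith [one_le_cc k hCK]
  refine ⟨2 ^ k * CA * (cc k CK * (2 ^ k) ^ J * CK ^ J), by positivity, ?_⟩
  intro l g C' hC' hg
  have hmap : MapsTo (K^[l]) U U := h.maps.iterate l
  have h5 : CK * σ' ^ l ≤ CK := mul_le_of_le_one_right hCK (pow_le_one₀ hσ' h2)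
  have h6 := rem_comp_bd hd.op hd.st hd.op hd.ne hmap (mul_nonneg hCK (pow_nonneg hσ' l)) h5
    (hK l) J hC' hg
  refine (Bd.apply hd.op (by positivity) (by positivity) (hA l) h6).mono ?_
  have h7 : (ρ' * σ' ^ J) ^ l ≤ τ ^ l := pow_le_pow_left₀ (by positivity) h4 l
  calc 2 ^ k * (CA * ρ' ^ l) * (cc k CK * (2 ^ k) ^ J * C' * (CK * σ' ^ l) ^ J)
      = 2 ^ k * CA * (cc k CK * (2 ^ k) ^ J * CK ^ J) * C' * (ρ' * σ' ^ J) ^ l := by
        rw [mul_pow, mul_pow, ← pow_mul, ← pow_mul, mul_comm l J, pow_mul, pow_mul]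
        ring
    _ ≤ 2 ^ k * CA * (cc k CK * (2 ^ k) ^ J * CK ^ J) * C' * τ ^ l :=
        mul_le_mul_of_nonneg_left h7 (by positivity)

omit [CompleteSpace F] in
theorem Ctr.K_norm {R : ℝ} [CompleteSpace E] (hd : Dom U R) (h : Ctr U K A σ) {σ' : ℝ}
    (hσ' : σ < σ') :
    ∃ C : ℝ, 0 ≤ C ∧ ∀ l : ℕ, ∀ q ∈ U, ‖K^[l] q‖ ≤ C * σ' ^ l * ‖q‖ := by
  obtain ⟨C, hC, h1⟩ := h.K_it 1 σ' hσ'
  have h0 : 0 ≤ σ' := h.σ_nonneg.trans hσ'.le
  refine ⟨C, hC, fun l q hq => ?_⟩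
  have h2 := had1_eq (k := 0) hd.st (h1 l) hq
  have h3 : K^[l] 0 = 0 := Function.iterate_fixed h.K0 l
  rw [h3, sub_zero] at h2
  rw [h2]
  have h4 := (had1_bd hd.op hd.st (k := 0) (mul_nonneg hC (pow_nonneg h0 l)) (h1 l)).norm_le hq
  exact (ContinuousLinearMap.le_opNorm _ _).trans (mul_le_mul_of_nonneg_right h4 (norm_nonneg _))

omit [CompleteSpace F] in
theorem Ctr.Tit_flat {R : ℝ} [CompleteSpace E] (hd : Dom U R) (h : Ctr U K A σ) (J : ℕ) {τ : ℝ}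
    (hτ : σ ^ J < τ) : ∃ C : ℝ, 0 ≤ C ∧ ∀ l : ℕ, ∀ (g : E → F) (C' : ℝ), 0 ≤ C' →
      (∀ q ∈ U, ‖g q‖ ≤ C' * ‖q‖ ^ J) → ∀ q ∈ U, ‖Tit K A l g q‖ ≤ C * τ ^ l * C' * ‖q‖ ^ J := by
  obtain ⟨σ', ρ', h1, h2, h3, h4⟩ := exists_pow_rate h.σ_nonneg h.σ_lt J hτ
  obtain ⟨CK, hCK, hK⟩ := h.K_norm hd h1
  obtain ⟨CA, hCA, hA⟩ := h.A_it 0 ρ' h3
  have hσ' : 0 ≤ σ' := h.σ_nonneg.trans h1.le
  have hρ' : 0 ≤ ρ' := by linarith
  refine ⟨CA * CK ^ J, by positivity, ?_⟩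
  intro l g C' hC' hg q hq
  have hmap : MapsTo (K^[l]) U U := h.maps.iterate l
  have h5 : ‖g (K^[l] q)‖ ≤ C' * (CK * σ' ^ l * ‖q‖) ^ J :=
    (hg _ (hmap hq)).trans (mul_le_mul_of_nonneg_left
      (pow_le_pow_left₀ (norm_nonneg _) (hK l q hq) J) hC')
  have h7 : (ρ' * σ' ^ J) ^ l ≤ τ ^ l := pow_le_pow_left₀ (by positivity) h4 l
  calc ‖Tit K A l g q‖ ≤ ‖Ait K A l q‖ * ‖g (K^[l] q)‖ := ContinuousLinearMap.le_opNorm _ _
    _ ≤ (CA * ρ' ^ l) * (C' * (CK * σ' ^ l * ‖q‖) ^ J) :=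
        mul_le_mul ((hA l).norm_le hq) h5 (norm_nonneg _) (by positivity)
    _ = CA * CK ^ J * (ρ' * σ' ^ J) ^ l * C' * ‖q‖ ^ J := by
        rw [mul_pow, mul_pow, mul_pow, ← pow_mul, ← pow_mul, mul_comm l J]
        ring
    _ ≤ CA * CK ^ J * τ ^ l * C' * ‖q‖ ^ J := by
        have := mul_le_mul_of_nonneg_left h7 (by positivity : 0 ≤ CA * CK ^ J * C' * ‖q‖ ^ J)
        nlinarith

/-- Series. -/
theorem Bd.tsum (hU : IsOpen U) (hpre : IsPreconnected U) {k : ℕ} : ∀ {F : Type}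
    [NormedAddCommGroup F] [NormedSpace ℝ F] [CompleteSpace F] {f : ℕ → E → F} {u : ℕ → ℝ},
    Summable u → (∀ m, Bd U k (f m) (u m)) → Bd U k (fun x => ∑' m, f m x) (∑' m, u m) := by
  induction k with
  | zero =>
    intro F _ _ _ f u hu hf
    refine ⟨continuousOn_tsum (fun m => (hf m).1) hu fun m x hx => (hf m).2 x hx, fun x hx => ?_⟩
    exact tsum_of_norm_bounded hu.hasSum fun m => (hf m).2 x hx
  | succ k ih =>
    intro F _ _ _ f u hu hf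
    have hs : ∀ x ∈ U, Summable fun m => f m x := fun x hx =>
      Summable.of_norm_bounded hu fun m => (hf m).2.1 x hx
    have hder : ∀ x ∈ U, HasFDerivAt (fun x => ∑' m, f m x) (∑' m, fderiv ℝ (f m) x) x :=
      fun x hx => hasFDerivAt_tsum_of_isPreconnected hu hU hpre
        (fun m y hy => ((hf m).1 y hy).hasFDerivAt) (fun m y hy => (hf m).2.2.norm_le hy) hx
        (hs x hx) hx
    refine ⟨fun x hx => (hder x hx).differentiableAt, fun x hx => ?_, ?_⟩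
    · exact tsum_of_norm_bounded hu.hasSum fun m => (hf m).2.1 x hx
    · exact (ih hu fun m => (hf m).2.2).congr hU fun x hx => (hder x hx).fderiv.symm

/-- The scalar cohomological equation on flat functions. -/
theorem Ctr.solve {R : ℝ} [CompleteSpace E] (hd : Dom U R) (h : Ctr U K A σ) {J : ℕ} {l : ℝ}
    (hl : σ ^ J < |l|) {θ : E → F} (hθ : Sm U θ) {Cθ : ℝ} (hθC : 0 ≤ Cθ)
    (hθf : ∀ q ∈ U, ‖θ q‖ ≤ Cθ * ‖q‖ ^ J) :
    ∃ ψ : E → F, Sm U ψ ∧ (∃ C : ℝ, 0 ≤ C ∧ ∀ q ∈ U, ‖ψ q‖ ≤ C * ‖q‖ ^ J) ∧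
      ∀ q ∈ U, l • ψ q - A q (ψ (K q)) = θ q := by
  obtain ⟨τ, hτ1, hτ2⟩ := exists_between hl
  have hl0 : 0 < |l| := (pow_nonneg h.σ_nonneg J).trans_lt hl
  have hlne : l ≠ 0 := abs_pos.1 hl0
  have hτ0 : 0 ≤ τ := (pow_nonneg h.σ_nonneg J).trans hτ1.le
  have hr1 : τ / |l| < 1 := (div_lt_one hl0).2 hτ2
  have hr0 : 0 ≤ τ / |l| := div_nonneg hτ0 hl0.le
  have hgeo : ∀ C : ℝ, Summable fun m : ℕ => |l|⁻¹ * C * (τ / |l|) ^ m := fun C =>
    (summable_geometric_of_lt_one hr0 hr1).mul_left _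
  have hrem := rem_eq_of_flat hd.op hd.st hd.bd hθ hθf
  let f : ℕ → E → F := fun m q => (l⁻¹ * (l⁻¹) ^ m) • Tit K A m θ q
  have hcoef : ∀ m : ℕ, |l⁻¹ * (l⁻¹) ^ m| = |l|⁻¹ * (|l|⁻¹) ^ m := fun m => by
    rw [abs_mul, abs_pow, abs_inv]
  have hTit : ∀ m, EqOn (Tit K A m (rem J θ)) (Tit K A m θ) U := fun m q hq => by
    simp only [Tit]
    rw [hrem (h.maps.iterate m hq)]
  have hbd : ∀ k : ℕ, ∃ C : ℝ, 0 ≤ C ∧ ∀ m, Bd U k (f m) (|l|⁻¹ * C * (τ / |l|) ^ m) := by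
    intro k
    obtain ⟨C, hC, h1⟩ := h.Tit_bd hd J hτ1 k
    obtain ⟨C', hC', h2⟩ := hθ (k + J)
    refine ⟨C * C', by positivity, fun m => ?_⟩
    have h3 := ((h1 m θ C' hC' h2).congr hd.op (hTit m)).const_smul hd.op (l⁻¹ * (l⁻¹) ^ m)
    refine h3.mono (le_of_eq ?_)
    rw [hcoef, div_pow, div_eq_mul_inv, ← inv_pow]
    ring
  obtain ⟨CT, hCT, hTf⟩ := h.Tit_flat hd J hτ1
  have hfl : ∀ q ∈ U, ∀ m, ‖f m q‖ ≤ |l|⁻¹ * (CT * Cθ * ‖q‖ ^ J) * (τ / |l|) ^ m := by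
    intro q hq m
    have h1 := hTf m θ Cθ hθC hθf q hq
    show ‖(l⁻¹ * (l⁻¹) ^ m) • Tit K A m θ q‖ ≤ _
    rw [norm_smul, Real.norm_eq_abs, hcoef]
    refine (mul_le_mul_of_nonneg_left h1 (by positivity)).trans (le_of_eq ?_)
    rw [div_pow, div_eq_mul_inv, ← inv_pow]
    ring
  have hsum : ∀ q ∈ U, Summable fun m => f m q := fun q hq =>
    Summable.of_norm_bounded (hgeo _) (hfl q hq)
  refine ⟨fun q => ∑' m, f m q, ?_, ?_, ?_⟩
  · intro k
    obtain ⟨C, hC, h1⟩ := hbd k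
    exact ⟨_, tsum_nonneg fun m => by positivity, Bd.tsum hd.op hd.pre (hgeo C) h1⟩
  · refine ⟨∑' m : ℕ, |l|⁻¹ * (CT * Cθ) * (τ / |l|) ^ m, tsum_nonneg fun m => by positivity,
      fun q hq => ?_⟩
    refine (tsum_of_norm_bounded (hgeo _).hasSum (hfl q hq)).trans (le_of_eq ?_)
    rw [← tsum_mul_right]
    refine tsum_congr fun m => ?_
    ring
  · intro q hq
    have h1 : A q (∑' m, f m (K q)) = ∑' m, A q (f m (K q)) :=
      (A q).map_tsum (hsum _ (h.maps hq))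
    have h2 : ∀ m, A q (f m (K q)) = l • f (m + 1) q := by
      intro m
      show A q ((l⁻¹ * (l⁻¹) ^ m) • Tit K A m θ (K q))
        = l • ((l⁻¹ * (l⁻¹) ^ (m + 1)) • Tit K A (m + 1) θ q)
      rw [map_smul, Tit_succ, smul_smul]
      congr 1
      rw [pow_succ]
      field_simp
    show l • (∑' m, f m q) - A q (∑' m, f m (K q)) = θ q
    rw [h1, tsum_congr h2, tsum_const_smul'', (hsum q hq).tsum_eq_zero_add, smul_add,
      add_sub_cancel_right]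
    show l • ((l⁻¹ * (l⁻¹) ^ 0) • Tit K A 0 θ q) = θ q
    rw [pow_zero, mul_one, smul_smul, mul_inv_cancel₀ hlne, one_smul, Tit_zero]

variable {I : ℝ → Set (Y → ℝ)} {ρ : ℝ}

/-- Flat functions. -/
def Fl (U : Set E) (J : ℕ) (g : E → F) : Prop := ∃ C : ℝ, 0 ≤ C ∧ ∀ q ∈ U, ‖g q‖ ≤ C * ‖q‖ ^ J

omit [NormedSpace ℝ E] [NormedSpace ℝ F] [CompleteSpace F] in
theorem Fl.add {J : ℕ} {g g' : E → F} (h : Fl U J g) (h' : Fl U J g') :
    Fl U J (fun q => g q + g' q) :=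
  let ⟨C, hC, h1⟩ := h
  let ⟨D, hD, h2⟩ := h'
  ⟨C + D, add_nonneg hC hD, fun q hq => by
    rw [add_mul]; exact (norm_add_le _ _).trans (add_le_add (h1 q hq) (h2 q hq))⟩

omit [NormedSpace ℝ E] [CompleteSpace F] in
theorem Fl.smul {J : ℕ} {g : E → F} (h : Fl U J g) (a : ℝ) : Fl U J (fun q => a • g q) :=
  let ⟨C, hC, h1⟩ := h
  ⟨|a| * C, by positivity, fun q hq => by
    rw [norm_smul, Real.norm_eq_abs, mul_assoc]
    exact mul_le_mul_of_nonneg_left (h1 q hq) (abs_nonneg a)⟩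

omit [NormedSpace ℝ E] [CompleteSpace F] in
theorem Fl.sub {J : ℕ} {g g' : E → F} (h : Fl U J g) (h' : Fl U J g') :
    Fl U J (fun q => g q - g' q) := by
  have := h.add (h'.smul (-1))
  simpa [sub_eq_add_neg] using this

omit [CompleteSpace F] in
theorem Ctr.Fl_T {R : ℝ} [CompleteSpace E] (hd : Dom U R) (h : Ctr U K A σ) {J : ℕ} {g : E → F}
    (hg : Fl U J g) : Fl U J (fun q => A q (g (K q))) := by
  obtain ⟨C, hC, h1⟩ := hg
  obtain ⟨CK, hCK, hK⟩ := h.K_norm hd (σ' := 1) h.σ_lt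
  obtain ⟨CA, hCA, hA⟩ := h.A_sm 0
  refine ⟨CA * (C * CK ^ J), by positivity, fun q hq => ?_⟩
  have h2 := hK 1 q hq
  simp only [Function.iterate_one, one_pow, mul_one] at h2
  have h3 : ‖g (K q)‖ ≤ C * CK ^ J * ‖q‖ ^ J := by
    refine (h1 _ (h.maps hq)).trans ?_
    rw [mul_assoc, ← mul_pow]
    exact mul_le_mul_of_nonneg_left (pow_le_pow_left₀ (norm_nonneg _) h2 J) hC
  calc _ ≤ ‖A q‖ * ‖g (K q)‖ := ContinuousLinearMap.le_opNorm _ _
    _ ≤ CA * (C * CK ^ J * ‖q‖ ^ J) := mul_le_mul (hA.norm_le hq) h3 (norm_nonneg _) hCA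
    _ = _ := by ring

omit [CompleteSpace F] in
theorem Ctr.Sm_T (hU : IsOpen U) (h : Ctr U K A σ) {g : E → F}
    (hg : Sm U g) : Sm U (fun q => A q (g (K q))) :=
  Sm.bilin hU (ContinuousLinearMap.id ℝ (F →L[ℝ] F)) h.A_sm (Sm.comp hU h.maps hg h.K_sm)

omit [NormedAddCommGroup E] [NormedSpace ℝ E] [CompleteSpace F] in
theorem deg_shift_sub (P : Polynomial ℝ) (hP : 0 < P.natDegree) :
    (P.comp (Polynomial.X + 1) - P).natDegree < P.natDegree := by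
  have hne : P ≠ 0 := by rintro rfl; simp at hP
  have h1 : (Polynomial.X + 1 : Polynomial ℝ).natDegree = 1 := by
    simpa using Polynomial.natDegree_X_add_C (1 : ℝ)
  have h2 : (P.comp (Polynomial.X + 1)).natDegree = P.natDegree := by
    rw [Polynomial.natDegree_comp, h1, mul_one]
  have h3 : (P.comp (Polynomial.X + 1)).leadingCoeff = P.leadingCoeff := by
    rw [Polynomial.leadingCoeff_comp (by rw [h1]; exact one_ne_zero)]
    have : (Polynomial.X + 1 : Polynomial ℝ).leadingCoeff = 1 := by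
      simpa using Polynomial.leadingCoeff_X_add_C (1 : ℝ)
    rw [this, one_pow, mul_one]
  have hne' : P.comp (Polynomial.X + 1) ≠ 0 := by
    intro h
    rw [h, Polynomial.natDegree_zero] at h2
    omega
  have h4 : (P.comp (Polynomial.X + 1) - P).degree < (P.comp (Polynomial.X + 1)).degree := by
    refine Polynomial.degree_sub_lt_left ?_ hne' h3
    rw [Polynomial.degree_eq_natDegree hne', Polynomial.degree_eq_natDegree hne, h2]
  by_cases h0 : P.comp (Polynomial.X + 1) - P = 0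
  · rw [h0, Polynomial.natDegree_zero]; exact hP
  · rw [← h2]
    exact Polynomial.natDegree_lt_natDegree h0 h4

/-- The cohomological equation for a single term. -/
theorem Ctr.solveTrm {R : ℝ} [CompleteSpace E] (hd : Dom U R) (h : Ctr U K A σ) {J : ℕ} {l : ℝ}
    (hl : σ ^ J < |l|) {c : Y → ℝ} (hc : c ∈ I l) (d : ℕ) :
    ∀ (P : Polynomial ℝ) (θ : E → F), P.natDegree ≤ d → Sm U θ → Fl U J θ →
    ∃ t ∈ StrT U I, (∀ y n, Sm U (t y n)) ∧ (∀ y n, Fl U J (t y n)) ∧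
      ∀ y n, ∀ q ∈ U, t y (n + 1) q - A q (t y n (K q)) = trm c l P θ y n q := by
  have base : ∀ (P : Polynomial ℝ) (θ : E → F), Sm U θ → Fl U J θ →
      ∃ ψ : E → F, Sm U ψ ∧ Fl U J ψ ∧ ∀ y n, ∀ q ∈ U,
        trm c l P ψ y (n + 1) q - A q (trm c l P ψ y n (K q))
          = trm c l P θ y n q + trm c l (P.comp (Polynomial.X + 1) - P) (fun q => l • ψ q) y n q := by
    intro P θ hθ hθf
    obtain ⟨Cθ, hCθ, hf⟩ := hθf
    obtain ⟨ψ, h1, h2, h3⟩ := h.solve hd hl hθ hCθ hf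
    refine ⟨ψ, h1, h2, fun y n q hq => ?_⟩
    simp only [trm, map_smul, Polynomial.eval_sub, Polynomial.eval_comp, Polynomial.eval_add,
      Polynomial.eval_X, Polynomial.eval_one, Nat.cast_add, Nat.cast_one]
    have h4 : A q (ψ (K q)) = l • ψ q - θ q := by rw [← h3 q hq]; abel
    rw [h4, pow_succ]
    module
  have hsm : ∀ (P : Polynomial ℝ) (ψ : E → F), Sm U ψ → ∀ y n, Sm U (trm c l P ψ y n) :=
    fun P ψ hψ y n => hψ.const_smul hd.op _
  have hfl : ∀ (P : Polynomial ℝ) (ψ : E → F), Fl U J ψ → ∀ y n, Fl U J (trm c l P ψ y n) :=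
    fun P ψ hψ y n => hψ.smul _
  induction d with
  | zero =>
    intro P θ hP hθ hθf
    obtain ⟨ψ, h1, h2, h3⟩ := base P θ hθ hθf
    refine ⟨trm c l P ψ, trm_mem hc h1, hsm P ψ h1, hfl P ψ h2, fun y n q hq => ?_⟩
    rw [h3 y n q hq]
    obtain ⟨a, ha⟩ := Polynomial.natDegree_eq_zero.1 (Nat.le_zero.1 hP)
    have : P.comp (Polynomial.X + 1) - P = 0 := by rw [← ha]; simp
    rw [this]
    simp [trm]
  | succ d ih =>
    intro P θ hP hθ hθf
    obtain ⟨ψ, h1, h2, h3⟩ := base P θ hθ hθf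
    have hdeg : (P.comp (Polynomial.X + 1) - P).natDegree ≤ d := by
      rcases Nat.eq_zero_or_pos P.natDegree with h0 | h0
      · obtain ⟨a, ha⟩ := Polynomial.natDegree_eq_zero.1 h0
        have : P.comp (Polynomial.X + 1) - P = 0 := by rw [← ha]; simp
        rw [this, Polynomial.natDegree_zero]
        exact Nat.zero_le d
      · have := deg_shift_sub P h0
        omega
    obtain ⟨t, ht, ht1, ht2, ht3⟩ := ih (P.comp (Polynomial.X + 1) - P) (fun q => l • ψ q) hdeg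
      (h1.const_smul hd.op l) (h2.smul l)
    refine ⟨trm c l P ψ - t, sub_mem (trm_mem hc h1) ht,
      fun y n => (hsm P ψ h1 y n).sub hd.op (ht1 y n), fun y n => (hfl P ψ h2 y n).sub (ht2 y n),
      fun y n q hq => ?_⟩
    have e1 := h3 y n q hq
    have e2 := ht3 y n q hq
    simp only [Pi.sub_apply, map_sub]
    calc trm c l P ψ y (n + 1) q - t y (n + 1) q
          - (A q (trm c l P ψ y n (K q)) - A q (t y n (K q)))
        = (trm c l P ψ y (n + 1) q - A q (trm c l P ψ y n (K q)))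
          - (t y (n + 1) q - A q (t y n (K q))) := by abel
      _ = _ := by rw [e1, e2]; abel

theorem oR.rem' {R : ℝ} (hd : Dom U R) (J : ℕ) (hρ : 0 ≤ ρ) {e : Y → ℕ → E → F}
    (he : oR U ρ e) : oR U ρ (fun y n => rem J (e y n)) := by
  intro y ρ' hρ' k
  obtain ⟨C, hC, h1⟩ := he y ρ' hρ' (k + J)
  have h2 : Bd U k (fun x : E => x) (max R 1) := Bd.id hd.bd k
  have h0 : 0 ≤ max R 1 := zero_le_one.trans (le_max_right _ _)
  have hcc : 0 ≤ cc k (max R 1) := by linarith [one_le_cc k h0]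
  have hρ0 : 0 ≤ ρ' := hρ.trans hρ'.le
  refine ⟨cc k (max R 1) * (2 ^ k) ^ J * C * (max R 1) ^ J, by positivity, fun n => ?_⟩
  have h3 := rem_comp_bd hd.op hd.st hd.op hd.ne (mapsTo_id U) h0 le_rfl h2 J
    (mul_nonneg hC (pow_nonneg hρ0 n)) (h1 n)
  refine h3.mono (le_of_eq ?_)
  ring

omit [CompleteSpace F] in
theorem StrT.sm (hU : IsOpen U) {s : Y → ℕ → E → F} (hs : s ∈ StrT U I) (y : Y) (n : ℕ) :
    Sm U (s y n) := by
  induction hs using Submodule.span_induction with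
  | mem s hs =>
    obtain ⟨c, l, P, ψ, hc, hψ, rfl⟩ := hs
    exact hψ.const_smul hU _
  | zero => exact Sm.zero
  | add s t _ _ hs ht => exact hs.add hU ht
  | smul a s _ hs => exact hs.const_smul hU a

/-- The cohomological equation for structured right hand sides. -/
theorem Ctr.solveStr {R : ℝ} [CompleteSpace E] (hd : Dom U R) (h : Ctr U K A σ) {J : ℕ}
    (hρ : 0 < ρ) (hJ : σ ^ J < ρ) {s : Y → ℕ → E → F} (hs : s ∈ StrT U I) :
    ∃ t ∈ StrT U I, (∀ y n, Sm U (t y n)) ∧ (∀ y n, Fl U J (t y n)) ∧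
      oR U ρ (fun y n q => rem J (s y n) q - (t y (n + 1) q - A q (t y n (K q)))) := by
  induction hs using Submodule.span_induction with
  | mem s hs =>
    obtain ⟨c, l, P, ψ, hc, hψ, rfl⟩ := hs
    have hrψ : Sm U (rem J ψ) := Sm.rem hd.op hd.st hd.bd J hψ
    have hrf : Fl U J (rem J ψ) := by
      obtain ⟨C, hC, h1⟩ := hψ J
      exact ⟨C, hC, rem_norm hd.op hd.st J hC h1⟩
    have hrt : ∀ y n, EqOn (rem J (trm c l P ψ y n)) (trm c l P (rem J ψ) y n) U := fun y n =>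
      rem_smul hd.op hd.st J _ hψ
    by_cases hl : ρ < |l|
    · obtain ⟨t, ht, h1, h2, h3⟩ := h.solveTrm hd (hJ.trans hl) hc P.natDegree P (rem J ψ) le_rfl
        hrψ hrf
      refine ⟨t, ht, h1, h2, (oR.zero hρ.le).congr hd.op fun y n q hq => ?_⟩
      show (0 : F) = rem J (trm c l P ψ y n) q - (t y (n + 1) q - A q (t y n (K q)))
      rw [h3 y n q hq, hrt y n hq, sub_self]
    · refine ⟨0, (StrT U I).zero_mem, fun y n => Sm.zero, fun y n => ⟨0, le_rfl, by simp⟩, ?_⟩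
      refine ((trm_oR hd.op hrψ (c := c) (l := l) (P := P)).mono (not_lt.1 hl)).congr hd.op
        fun y n q hq => ?_
      show trm c l P (rem J ψ) y n q = rem J (trm c l P ψ y n) q - (0 - A q 0)
      rw [hrt y n hq]
      simp
  | zero =>
    refine ⟨0, (StrT U I).zero_mem, fun y n => Sm.zero, fun y n => ⟨0, le_rfl, by simp⟩, ?_⟩
    refine ((oR.zero hρ.le).rem' hd J hρ.le).congr hd.op fun y n q hq => ?_
    show rem J (fun _ => (0 : F)) q = rem J (0 : E → F) q - (0 - A q 0)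
    simp
    rfl
  | add s s' hs hs' h1 h2 =>
    obtain ⟨t, ht, ht1, ht2, ht3⟩ := h1
    obtain ⟨t', ht', ht1', ht2', ht3'⟩ := h2
    refine ⟨t + t', (StrT U I).add_mem ht ht', fun y n => (ht1 y n).add hd.op (ht1' y n),
      fun y n => (ht2 y n).add (ht2' y n), (ht3.add hd.op ht3').congr hd.op fun y n q hq => ?_⟩
    have h4 : rem J (fun x => s y n x + s' y n x) q = rem J (s y n) q + rem J (s' y n) q :=
      rem_add hd.op hd.st J (StrT.sm hd.op hs y n) (StrT.sm hd.op hs' y n) hq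
    have h5 : rem J ((s + s') y n) q = rem J (fun x => s y n x + s' y n x) q := rfl
    simp only [Pi.add_apply, map_add] at h5 ⊢
    rw [h5, h4]
    abel
  | smul a s hs h1 =>
    obtain ⟨t, ht, ht1, ht2, ht3⟩ := h1
    refine ⟨a • t, (StrT U I).smul_mem a ht, fun y n => (ht1 y n).const_smul hd.op a,
      fun y n => (ht2 y n).smul a, (ht3.const_smul hd.op a).congr hd.op fun y n q hq => ?_⟩
    have h4 : rem J (fun x => a • s y n x) q = a • rem J (s y n) q :=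
      rem_smul hd.op hd.st J a (StrT.sm hd.op hs y n) hq
    have h5 : rem J ((a • s) y n) q = rem J (fun x => a • s y n x) q := rfl
    simp only [Pi.smul_apply, map_smul] at h5 ⊢
    rw [h5, h4]
    simp only [smul_sub]

end P207N3H639
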