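import Vale.Agent.P207.N3.H629.Tri

/-!
# P207, line N3, P17 (ii): a `Half` with a triangular normal form near the origin

helper629's `Tri` with the normal form of `N` only in a neighbourhood of the origin.
-/

set_option maxSynthPendingDepth 3

open Set Filter Topology Metric InnerProductSpace MeasureTheory
open scoped ContDiff RealInnerProductSpace Gradient
open Vale.Agent.P207.N3 Vale.Agent.P207.N3.H790 Vale.Agent.P207.N3.H547 Vale.Agent.P207.N3.H629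

noncomputable section

namespace P207N3H639

variable {H : Half}

/-- The normal form of a `Half` near the origin: `N = tri μ₁ μ₂ a k`, not a Jordan block. -/
structure TriE (H : Half) (μ₁ μ₂ a : ℝ) (k : ℕ) : Prop where
  ok : (NF.tri μ₁ μ₂ a k).OK
  two : a ≠ 0 → 2 ≤ k
  eq : ∀ᶠ q in 𝓝 (0 : E2), H.N q = (NF.tri μ₁ μ₂ a k).fn q

namespace TriE

variable {μ₁ μ₂ a : ℝ} {k : ℕ}

theorem ne1 (T : TriE H μ₁ μ₂ a k) : μ₁ ≠ 0 := (NF.ne_of_OK T.ok).1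

theorem ne2 (T : TriE H μ₁ μ₂ a k) : μ₂ ≠ 0 := (NF.ne_of_OK T.ok).2

/-- the derivative of `N` at the origin is diagonal -/
theorem La_apply' (T : TriE H μ₁ μ₂ a k) (v : E2) : La H v = !₂[μ₁ * v 0, μ₂ * v 1] := by
  have hev : H.N =ᶠ[𝓝 0] (NF.tri μ₁ μ₂ a k).fn := by
    exact T.eq
  rw [La_eq, hev.fderiv_eq]
  have hd : DifferentiableAt ℝ (NF.tri μ₁ μ₂ a k).fn 0 := by
    rw [differentiableAt_euclidean]
    intro i
    fin_cases i
    · exact (((hasFDerivAt_coord 0 0).const_mul μ₁).add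
        (((hasFDerivAt_coord 1 0).pow k).const_mul a)).differentiableAt
    · exact ((hasFDerivAt_coord 1 0).const_mul μ₂).differentiableAt
  have key : ∀ i : Fin 2, (fderiv ℝ (NF.tri μ₁ μ₂ a k).fn 0 v) i =
      fderiv ℝ (fun q => (NF.tri μ₁ μ₂ a k).fn q i) 0 v := by
    intro i
    have h2 := ((EuclideanSpace.proj i : E2 →L[ℝ] ℝ).hasFDerivAt.comp (0 : E2)
      hd.hasFDerivAt).fderiv
    have h3 : fderiv ℝ (fun q => (NF.tri μ₁ μ₂ a k).fn q i) 0 =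
      (EuclideanSpace.proj i : E2 →L[ℝ] ℝ) ∘L fderiv ℝ (NF.tri μ₁ μ₂ a k).fn 0 := h2
    rw [h3]
    rfl
  have hpow : a * ((k : ℝ) * (0 : E2) 1 ^ (k - 1)) = 0 := by
    rcases eq_or_ne a 0 with h | h
    · rw [h, zero_mul]
    · have h2 := T.two h
      have : (0 : E2) 1 ^ (k - 1) = 0 := by
        show (0 : ℝ) ^ (k - 1) = 0
        exact zero_pow (by omega)
      rw [this, mul_zero, mul_zero]
  apply NF.ext2
  · rw [key 0]
    have h := ((hasFDerivAt_coord 0 (0 : E2)).const_mul μ₁).add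
      (((hasFDerivAt_coord 1 (0 : E2)).pow k).const_mul a)
    have e : fderiv ℝ (fun q => (NF.tri μ₁ μ₂ a k).fn q 0) 0 = _ := h.fderiv
    rw [e]
    have e2 : ∀ c : ℝ, a * (((k : ℝ) * (0 : E2) 1 ^ (k - 1)) * c) = 0 := by
      intro c; rw [← mul_assoc, hpow, zero_mul]
    simp only [_root_.add_apply, _root_.smul_apply, smul_eq_mul, prj_apply,
      nsmul_eq_mul]
    simp only [e2, add_zero]
    rfl
  · rw [key 1]
    have h := (hasFDerivAt_coord 1 (0 : E2)).const_mul μ₂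
    have e : fderiv ℝ (fun q => (NF.tri μ₁ μ₂ a k).fn q 1) 0 = _ := h.fderiv
    rw [e]
    simp only [_root_.smul_apply, smul_eq_mul, prj_apply]
    rfl

/-- `DM(0) v = (v₀ / μ₁, v₁ / μ₂)` -/
theorem DM_apply (T : TriE H μ₁ μ₂ a k) (v : E2) :
    fderiv ℝ H.M 0 v = !₂[μ₁⁻¹ * v 0, μ₂⁻¹ * v 1] := by
  have h0 := dual H (EuclideanSpace.single 0 1) v
  have h1 := dual H (EuclideanSpace.single 1 1) v
  rw [T.La_apply'] at h0 h1
  simp only [PiLp.inner_apply, Fin.sum_univ_two, RCLike.inner_apply, conj_trivial] at h0 h1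
  simp at h0 h1
  apply NF.ext2
  · show fderiv ℝ H.M 0 v 0 = μ₁⁻¹ * v 0
    have := T.ne1
    field_simp
    linarith
  · show fderiv ℝ H.M 0 v 1 = μ₂⁻¹ * v 1
    have := T.ne2
    field_simp
    linarith

theorem norm_DM_le (T : TriE H μ₁ μ₂ a k) : ‖fderiv ℝ H.M 0‖ ≤ |μ₂|⁻¹ := by
  obtain ⟨h1, h2, -⟩ := T.ok
  have hp : 0 < |μ₂| := by linarith
  refine ContinuousLinearMap.opNorm_le_bound _ (by positivity) fun v => ?_
  rw [T.DM_apply]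
  have h3 : |μ₁|⁻¹ ≤ |μ₂|⁻¹ := by gcongr
  rw [EuclideanSpace.norm_eq, EuclideanSpace.norm_eq, ← Real.sqrt_sq (by positivity : 0 ≤ |μ₂|⁻¹),
    ← Real.sqrt_mul (by positivity)]
  refine Real.sqrt_le_sqrt ?_
  simp only [Fin.sum_univ_two]
  have e0 : ‖(!₂[μ₁⁻¹ * v 0, μ₂⁻¹ * v 1] : E2) 0‖ = |μ₁|⁻¹ * ‖v 0‖ := by
    show ‖μ₁⁻¹ * v 0‖ = _
    rw [norm_mul, norm_inv, Real.norm_eq_abs μ₁]
  have e1 : ‖(!₂[μ₁⁻¹ * v 0, μ₂⁻¹ * v 1] : E2) 1‖ = |μ₂|⁻¹ * ‖v 1‖ := by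
    show ‖μ₂⁻¹ * v 1‖ = _
    rw [norm_mul, norm_inv, Real.norm_eq_abs μ₂]
  rw [e0, e1]
  have h4 : |μ₁|⁻¹ * ‖v 0‖ ≤ |μ₂|⁻¹ * ‖v 0‖ := by gcongr
  have h5 : (|μ₁|⁻¹ * ‖v 0‖) ^ 2 ≤ (|μ₂|⁻¹ * ‖v 0‖) ^ 2 :=
    pow_le_pow_left₀ (by positivity) h4 2
  calc _ ≤ (|μ₂|⁻¹ * ‖v 0‖) ^ 2 + (|μ₂|⁻¹ * ‖v 1‖) ^ 2 := by linarith
    _ = _ := by ring

theorem norm_DM_lt (T : TriE H μ₁ μ₂ a k) : ‖fderiv ℝ H.M 0‖ < 1 :=
  T.norm_DM_le.trans_lt (inv_lt_one_of_one_lt₀ T.ok.1)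

/-- the radius on which the normal form holds -/
def rE (T : TriE H μ₁ μ₂ a k) (I : LInv H) : ℝ :=
  min (Metric.eventually_nhds_iff_ball.1 T.eq).choose I.ε

theorem rE_pos (T : TriE H μ₁ μ₂ a k) (I : LInv H) : 0 < T.rE I :=
  lt_min (Metric.eventually_nhds_iff_ball.1 T.eq).choose_spec.1 I.ε_pos

theorem rE_le (T : TriE H μ₁ μ₂ a k) (I : LInv H) : T.rE I ≤ I.ε := min_le_right _ _

theorem eq_rE (T : TriE H μ₁ μ₂ a k) (I : LInv H) {q : E2} (hq : q ∈ ball (0 : E2) (T.rE I)) :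
    H.N q = (NF.tri μ₁ μ₂ a k).fn q :=
  (Metric.eventually_nhds_iff_ball.1 T.eq).choose_spec.2 q (ball_subset_ball (min_le_left _ _) hq)

/-- `K` explicitly -/
theorem K_eq (T : TriE H μ₁ μ₂ a k) (I : LInv H) {q : E2} (hq : q ∈ ball (0 : E2) (T.rE I)) :
    I.K q = (NF.tri μ₁ μ₂ a k).inv q := by
  have h2 : I.K q ∈ ball (0 : E2) (T.rE I) := K_maps I (T.rE_le I) hq
  have h1 := I.N_K (ball_subset_ball (T.rE_le I) hq)
  rw [T.eq_rE I h2] at h1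
  rw [← h1, NF.inv_fn T.ok, h1]

/-- the linear part of the leaf recursion, explicitly -/
theorem linA_apply (T : TriE H μ₁ μ₂ a k) (I : LInv H) {q : E2} (hq : q ∈ ball (0 : E2) (T.rE I))
    (w : E2) : linA H.b I.K q w =
      !₂[μ₁⁻¹ * w 0, μ₂⁻¹ * w 1 - μ₁⁻¹ * a * k * (μ₂⁻¹ * q 1) ^ (k - 1) * μ₂⁻¹ * w 0] := by
  rw [linA_adjoint I (ball_subset_ball (T.rE_le I) hq)]
  have hev : I.K =ᶠ[𝓝 q] (NF.tri μ₁ μ₂ a k).inv := by
    filter_upwards [isOpen_ball.mem_nhds hq] with x hx using T.K_eq I hx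
  rw [hev.fderiv_eq]
  refine ext_inner_right ℝ fun v => ?_
  rw [ContinuousLinearMap.adjoint_inner_left, (TriN.hasFDerivAt_inv μ₁ μ₂ a k q).2 v]
  simp only [PiLp.inner_apply, Fin.sum_univ_two, RCLike.inner_apply, conj_trivial]
  simp
  ring

end TriE

/-- **(T2)** the images of the gradients of monomials under the linear part are polynomials. -/
theorem TriE.rayPoly_linA {μ₁ μ₂ c : ℝ} {k : ℕ} (T : TriE H μ₁ μ₂ c k) (I : LInv H) {δ : ℝ}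
    (hδ : δ ≤ T.rE I) {J : ℕ} {a : ℕ × ℕ} (ha0 : a ≠ (0, 0))
    (ha : a.1 + a.2 ≤ J) (hak : c ≠ 0 → k * a.1 + a.2 ≤ J) :
    RayPoly (ball (0 : E2) δ) J (fun q => linA H.b I.K q (gm a (I.K q))) := by
  have hne : a.1 + a.2 ≠ 0 := by
    intro h
    exact ha0 (Prod.ext (by simp; omega) (by simp; omega))
  -- the degree
  obtain ⟨κ, hκ1, hκJ, hκc⟩ : ∃ κ : ℕ, 1 ≤ κ ∧ κ * a.1 + a.2 ≤ J ∧ (c ≠ 0 → κ = k) := by
    rcases eq_or_ne c 0 with h | h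
    · exact ⟨1, le_rfl, by omega, fun h' => absurd h h'⟩
    · exact ⟨k, by have := T.two h; omega, hak h, fun _ => rfl⟩
  have hd : κ * a.1 + a.2 - 1 < J := by
    have h1 : a.1 ≤ κ * a.1 := Nat.le_mul_of_pos_left _ (by omega)
    omega
  refine rayPoly_of hd fun q hq => ?_
  have h0 : PolyD 1 (fun s => s * q 0) := by simpa using PolyD.id.mul (PolyD.const (q 0))
  have h1 : PolyD 1 (fun s => s * q 1) := by simpa using PolyD.id.mul (PolyD.const (q 1))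
  -- the coordinates of `K (s q)`
  have hk : PolyD κ (fun s => c * (μ₂⁻¹ * (s * q 1)) ^ k) := by
    rcases eq_or_ne c 0 with h | h
    · have : (fun s : ℝ => c * (μ₂⁻¹ * (s * q 1)) ^ k) = fun _ => (0 : ℝ) := by
        funext s; rw [h, zero_mul]
      rw [this]; exact (PolyD.const 0).mono (Nat.zero_le _)
    · rw [hκc h]
      simpa using ((h1.cmul μ₂⁻¹).pow k).cmul c
  have hK0 : PolyD κ (fun s => μ₁⁻¹ * (s * q 0 - c * (μ₂⁻¹ * (s * q 1)) ^ k)) :=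
    ((h0.mono hκ1).sub hk).cmul _
  have hK1 : PolyD 1 (fun s => μ₂⁻¹ * (s * q 1)) := h1.cmul _
  set x0 : ℝ → ℝ := fun s => μ₁⁻¹ * (s * q 0 - c * (μ₂⁻¹ * (s * q 1)) ^ k) with hx0
  set x1 : ℝ → ℝ := fun s => μ₂⁻¹ * (s * q 1) with hx1
  -- `w0 = dv' a₀ (x0) dv a₁ (x1)`, `w1 = dv a₀ (x0) dv' a₁ (x1)`
  have hw0 : PolyD (κ * a.1 + a.2 - κ) (fun s => H547.dv' a.1 (x0 s) * H547.dv a.2 (x1 s)) := by
    rcases Nat.eq_zero_or_pos a.1 with h | h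
    · have : (fun s => H547.dv' a.1 (x0 s) * H547.dv a.2 (x1 s)) = fun _ => (0 : ℝ) := by
        funext s; rw [h]; simp [H547.dv']
      rw [this]; exact (PolyD.const 0).mono (Nat.zero_le _)
    · obtain ⟨n, hn⟩ := Nat.exists_eq_add_of_le' h
      refine ((hK0.dv' a.1).mul (hK1.dv a.2)).mono ?_
      rw [hn]
      simp only [Nat.add_sub_cancel, mul_one]
      have : κ * (n + 1) + a.2 - κ = κ * n + a.2 := by
        rw [Nat.mul_add, mul_one]; omega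
      rw [this, mul_comm n κ]
  have hw1 : PolyD (κ * a.1 + a.2 - 1) (fun s => H547.dv a.1 (x0 s) * H547.dv' a.2 (x1 s)) := by
    rcases Nat.eq_zero_or_pos a.2 with h | h
    · have : (fun s => H547.dv a.1 (x0 s) * H547.dv' a.2 (x1 s)) = fun _ => (0 : ℝ) := by
        funext s; rw [h]; simp [H547.dv']
      rw [this]; exact (PolyD.const 0).mono (Nat.zero_le _)
    · refine ((hK0.dv a.1).mul (hK1.dv' a.2)).mono ?_
      rw [mul_one, mul_comm a.1 κ]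
      omega
  have hκa : κ * a.1 + a.2 - κ ≤ κ * a.1 + a.2 - 1 := by omega
  have hx1p : PolyD (κ - 1) (fun s => c * (k : ℝ) * x1 s ^ (k - 1)) := by
    rcases eq_or_ne c 0 with h | h
    · have : (fun s : ℝ => c * (k : ℝ) * x1 s ^ (k - 1)) = fun _ => (0 : ℝ) := by
        funext s; rw [h, zero_mul, zero_mul]
      rw [this]; exact (PolyD.const 0).mono (Nat.zero_le _)
    · rw [hκc h]
      simpa using (hK1.pow (k - 1)).cmul (c * k)
  refine ⟨fun s => μ₁⁻¹ * (H547.dv' a.1 (x0 s) * H547.dv a.2 (x1 s)),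
    fun s => μ₂⁻¹ * (H547.dv a.1 (x0 s) * H547.dv' a.2 (x1 s)) -
      (μ₁⁻¹ * μ₂⁻¹) * ((c * (k : ℝ) * x1 s ^ (k - 1)) *
        (H547.dv' a.1 (x0 s) * H547.dv a.2 (x1 s))), (hw0.mono hκa).cmul _, ?_, fun s hs => ?_⟩
  · refine (hw1.cmul _).sub (PolyD.cmul ?_ _)
    rcases Nat.eq_zero_or_pos a.1 with h | h
    · have : (fun s => (c * (k : ℝ) * x1 s ^ (k - 1)) *
          (H547.dv' a.1 (x0 s) * H547.dv a.2 (x1 s))) = fun _ => (0 : ℝ) := by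
        funext s; rw [h]; simp [H547.dv']
      rw [this]; exact (PolyD.const 0).mono (Nat.zero_le _)
    · refine (hx1p.mul hw0).mono ?_
      have h2 : κ ≤ κ * a.1 := Nat.le_mul_of_pos_right _ h
      omega
  · have hsq : s • q ∈ ball (0 : E2) (T.rE I) := by
      have hq' := mem_ball_zero_iff.1 hq
      rw [mem_ball_zero_iff, norm_smul, Real.norm_eq_abs, abs_of_pos hs.1]
      exact (mul_le_of_le_one_left (norm_nonneg _) hs.2).trans_lt (hq'.trans_le hδ)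
    show linA H.b I.K (s • q) (gm a (I.K (s • q))) = _
    rw [T.K_eq I hsq, T.linA_apply I hsq]
    have e0 : (NF.tri μ₁ μ₂ c k).inv (s • q) 0 = x0 s := rfl
    have e1 : (NF.tri μ₁ μ₂ c k).inv (s • q) 1 = x1 s := rfl
    apply NF.ext2
    · show μ₁⁻¹ * gm a ((NF.tri μ₁ μ₂ c k).inv (s • q)) 0 = _
      rw [gm_zero, e0, e1]
      rfl
    · show μ₂⁻¹ * gm a ((NF.tri μ₁ μ₂ c k).inv (s • q)) 1 -
        μ₁⁻¹ * c * k * (μ₂⁻¹ * (s • q) 1) ^ (k - 1) * μ₂⁻¹ *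
          gm a ((NF.tri μ₁ μ₂ c k).inv (s • q)) 0 = _
      rw [gm_zero, gm_one, e0, e1]
      have e2 : μ₂⁻¹ * (s • q) 1 = x1 s := rfl
      rw [e2]
      show _ = μ₂⁻¹ * (H547.dv a.1 (x0 s) * H547.dv' a.2 (x1 s)) -
        (μ₁⁻¹ * μ₂⁻¹) * ((c * (k : ℝ) * x1 s ^ (k - 1)) *
          (H547.dv' a.1 (x0 s) * H547.dv a.2 (x1 s)))
      ring

/-- **(T2)** in the form consumed: no remainder of order `J`. -/
theorem TriE.rem_linA {μ₁ μ₂ c : ℝ} {k : ℕ} (T : TriE H μ₁ μ₂ c k) (I : LInv H) {δ : ℝ}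
    (hδ0 : 0 < δ) (hδ : δ ≤ T.rE I) (hδr : δ < H.r) {J : ℕ} {a : ℕ × ℕ} (ha0 : a ≠ (0, 0))
    (ha : a.1 + a.2 ≤ J) (hak : c ≠ 0 → k * a.1 + a.2 ≤ J) :
    EqOn (P207N3H639.rem J (fun q => linA H.b I.K q (gm a (I.K q)))) (fun _ => 0)
      (ball (0 : E2) δ) := by
  refine rem_of_ray (Dom.ball hδ0) J ?_ (T.rayPoly_linA I hδ ha0 ha hak)
  have h1 : Sm (ball (0 : E2) δ) (fun q => gm a (I.K q)) :=
    Sm.comp isOpen_ball (K_maps I (hδ.trans (T.rE_le I))) (sm_gm a δ) (I.K_sm.mono (ball_subset_ball (hδ.trans (T.rE_le I))))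
  exact Sm.bilin isOpen_ball (ContinuousLinearMap.id ℝ (E2 →L[ℝ] E2)) (linA_sm I (hδ.trans (T.rE_le I)) hδr) h1

end P207N3H639
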