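import Vale.Agent.P207.N3.H639.HStr
import Vale.Agent.P207.N3.H639.TriE
import Vale.Agent.P207.N3.H629.FlS

/-!
# P207, line N3, P17 (ii): the hypothesis `hStr` of helper547's `light_hat` for a feed
-/

open Set Topology MeasureTheory MvPolynomial Metric Filter
open Vale.Agent.P207.N3 Vale.Agent.P207.N3.H70 Vale.Agent.P207.N3.H547 Vale.Agent.P207.N3.H578
open Vale.Agent.P207.N3.H254 Vale.Agent.P207.N3.H629 Vale.Agent.P207.N3.H790
open scoped Gradient ContDiff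

noncomputable section

namespace P207N3H639

/-- **The expansion of the leaves of a half in corrected jets**: helper547's `hStr`. -/
theorem hStr_of_feed {H : Half} {μ₁ μ₂ a : ℝ} {k : ℕ} (T : TriE H μ₁ μ₂ a k) {κ ℓ : ℝ}
    (hμ1 : |μ₁| = Real.exp κ) (hμ2 : |μ₂| = Real.exp ℓ) {K : ℕ} (hK : 1 ≤ K)
    (hKℓ : 2 * κ < (K + 1) * ℓ) (F : Feed H κ ℓ K) :
    ∃ ε > 0, ε ≤ F.rad ∧ ε < H.r ∧ ∃ δ > 0, δ < H.ρ ∧ ∃ (b : ℝ) (hb : 0 < b) (hb1 : b < 1),
      Str (ball (0 : E2) δ) (grH (GT.th F) (fun y : ball (0 : E2) ε => tv F y) b hb hb1).D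
        (Real.exp (-κ) ^ 2)
        (fun (y : ball (0 : E2) ε) n q => ∇ (H.S (H.M^[n] (y : E2))) q
          - ∑ g : GT F, tv F (H.M^[n] (y : E2)) g • gm g.ix q) := by
  have hok := T.ok
  obtain ⟨o1, o2, o3⟩ := hok
  have hℓ : 0 < ℓ := by
    rw [hμ2] at o1
    exact (Real.one_lt_exp_iff).1 o1
  have hℓκ : ℓ ≤ κ := by
    rw [hμ1, hμ2] at o2
    exact Real.exp_le_exp.1 o2
  have hn : ‖fderiv ℝ H.M 0‖ ≤ Real.exp (-ℓ) := by
    have := T.norm_DM_le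
    rwa [hμ2, ← Real.exp_neg] at this
  have hℓ1 : Real.exp (-ℓ) < 1 := Real.exp_lt_one_iff.2 (by linarith)
  obtain ⟨b, hb', hb1⟩ := exists_between hℓ1
  have hb0 : 0 < b := (Real.exp_pos _).trans hb'
  obtain ⟨I⟩ := exists_linv H T.norm_DM_lt
  obtain ⟨δ₀, hδ₀, hδI, hδρ, hall⟩ := leafRec_of I T.norm_DM_lt (hn.trans_lt hb') hb1
  obtain ⟨δ, hδ⟩ : ∃ δ, δ = min δ₀ (T.rE I) := ⟨_, rfl⟩
  have hδ0 : 0 < δ := by rw [hδ]; exact lt_min hδ₀ (T.rE_pos I)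
  have hδ1 : δ ≤ δ₀ := by rw [hδ]; exact min_le_left _ _
  have hδ2 : δ ≤ T.rE I := by rw [hδ]; exact min_le_right _ _
  have hδρ' : δ < H.ρ := hδ1.trans_lt hδρ
  have hδr : δ < H.r := hδρ'.trans_le H.ρ_le
  obtain ⟨hctr, ε₁, hε₁, β, hβ, β', hβ', hε₁I, hε₁ρ, -, -, hrec⟩ := hall δ hδ0 hδ1
  obtain ⟨ε, hε⟩ : ∃ ε, ε = min ε₁ F.rad := ⟨_, rfl⟩
  have hε0 : 0 < ε := by rw [hε]; exact lt_min hε₁ F.rad_pos
  have hε1 : ε ≤ ε₁ := by rw [hε]; exact min_le_left _ _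
  have hε2 : ε ≤ F.rad := by rw [hε]; exact min_le_right _ _
  have hεr : ε < H.r := (hε1.trans_lt hε₁ρ).trans_le H.ρ_le
  refine ⟨ε, hε0, hε2, hεr, δ, hδ0, hδρ', b, hb0, hb1, ?_⟩
  have hlab : ∀ g : GT F, 1 ≤ len g.ix ∧ len g.ix ≤ K + 1 := fun g =>
    (F.lab_inl g.ix).1 ⟨g.ι, g.lab⟩
  have hne : ∀ g : GT F, g.ix ≠ (0, 0) := by
    intro g h
    have := (hlab g).1
    rw [h] at this
    simp [len] at this
  have hρb : Real.exp (-κ) ^ 2 ≤ b := by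
    have h1 : Real.exp (-κ) ≤ Real.exp (-ℓ) := Real.exp_le_exp.2 (by linarith)
    have h2 : Real.exp (-κ) ≤ 1 := h1.trans hℓ1.le
    have h3 := (Real.exp_pos (-κ)).le
    nlinarith
  have hJ : ‖fderiv ℝ H.M 0‖ ^ (K + 1) < Real.exp (-κ) ^ 2 := by
    refine (pow_le_pow_left₀ (norm_nonneg _) hn _).trans_lt ?_
    rw [← Real.exp_nat_mul, ← Real.exp_nat_mul]
    refine Real.exp_lt_exp.2 ?_
    push_cast
    linarith
  refine hStr_core (ab := I.A) (Kf := I.K) (B := ball (0 : E2) β) (B' := ball (0 : E2) β')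
    (R := δ) (R' := β) (R'' := β') F hK hℓ.le hℓκ hb0 hb1 hb'.le hε2 hεr ?_ hctr (by positivity)
    hρb hJ (fun a => sm_gm a δ) (fun g => rem_gm hδ0 (hne g) (hlab g).2) ?_ ?_
  · exact hrec (ball (0 : E2) ε) (fun y => (y : E2)) (fun y => ball_subset_ball hε1 y.2) _ le_rfl
  · intro g
    by_cases hg : |GT.th F g| ≤ Real.exp (-κ) ^ 2
    · exact Or.inr hg
    · left
      refine T.rem_linA I hδ0 hδ2 hδr (hne g) (hlab g).2 fun ha => ?_
      rw [not_le, GT.abs_th, ← Real.exp_nat_mul, ← Real.exp_nat_mul, ← Real.exp_nat_mul,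
        ← Real.exp_add, Real.exp_lt_exp] at hg
      have hk : κ = k * ℓ := by
        have h1 := (o3 ha).2
        have h2 : Real.exp κ = Real.exp (k * ℓ) := by
          rw [← hμ1, h1, abs_pow, hμ2, ← Real.exp_nat_mul]
        exact Real.exp_injective h2
      have h3 : ((k * g.ix.1 + g.ix.2 : ℕ) : ℝ) < ((K + 1 : ℕ) : ℝ) := by
        push_cast
        push_cast at hg
        have h4 : (k * g.ix.1 + g.ix.2 : ℝ) * ℓ < (K + 1) * ℓ := by
          have h5 : κ * (g.ix.1 : ℝ) = k * ℓ * (g.ix.1 : ℝ) :=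
            congrArg (fun x : ℝ => x * (g.ix.1 : ℝ)) hk
          linarith
        exact lt_of_mul_lt_mul_right h4 hℓ.le
      exact (Nat.cast_lt.1 h3).le
  · intro y hy
    have h1 := fl_leaf H hδr (ball_subset_ball H.ρ_le hy) (J := K + 1) (ix := GT.ix (F := F))
      GT.ix_inj (fun a => by
        rw [show (1 ≤ a.1 + a.2 ∧ a.1 + a.2 ≤ K + 1) ↔ (1 ≤ len a ∧ len a ≤ K + 1) from Iff.rfl,
          ← F.lab_inl a]
        constructor
        · rintro ⟨g, rfl⟩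
          exact ⟨g.ι, g.lab⟩
        · rintro ⟨j, hj⟩
          obtain ⟨g, rfl⟩ := GT.mem_range hj
          refine ⟨g, ?_⟩
          have := g.lab
          rw [hj] at this
          exact (Sum.inl_injective this).symm)
    refine cast ?_ h1
    congr 1
    funext q
    congr 1
    refine Finset.sum_congr rfl fun g _ => ?_
    unfold Feed.raw
    rw [g.lab]
    rfl

end P207N3H639
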