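import Mathlib
import Vale.Agent.P207.N3.H639.Sub

/-!
# P207, line N3, row EL': composition of structured sequences
-/

open Set Filter Topology MeasureTheory

namespace P207N3H639

variable {Y : Type*}
variable {E : Type} [NormedAddCommGroup E] [NormedSpace ℝ E]
variable {F : Type} [NormedAddCommGroup F] [NormedSpace ℝ F]
variable {G : Type} [NormedAddCommGroup G] [NormedSpace ℝ G]
variable {U : Set E} {V B : Set G} {ρ : ℝ}

theorem oR.had2 [CompleteSpace F] {W : Set (E × G)} (hW : IsOpen W)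
    (hst : ∀ z ∈ W, ∀ s ∈ Icc (0 : ℝ) 1, (z.1, s • z.2) ∈ W) (hρ : 0 ≤ ρ)
    {h : Y → ℕ → E × G → F} (hh : oR W ρ h) :
    oR W ρ (fun y n => P207N3H639.had2 (h y n)) := fun y ρ' hρ' k =>
  let ⟨C, hC, h1⟩ := hh y ρ' hρ' (k + 1)
  ⟨2 ^ k * C, by positivity, fun n =>
    (had2_bd hW hst (mul_nonneg hC (pow_nonneg (hρ.trans hρ'.le) n)) (h1 n)).mono
      (by rw [mul_assoc])⟩

/-- The map `(q, p) ↦ κ q + p`. -/
theorem Sm.shear (hU : IsOpen U) (hB : IsOpen B) {R R' : ℝ} (hR : ∀ x ∈ U, ‖x‖ ≤ R)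
    (hR' : ∀ p ∈ B, ‖p‖ ≤ R') {κ : E → G} (hκ : Sm U κ) :
    Sm (U ×ˢ B) (fun z : E × G => κ z.1 + z.2) := by
  have hW : IsOpen (U ×ˢ B) := hU.prod hB
  have hid : Sm (U ×ˢ B) (fun z : E × G => z) := by
    refine Sm.id (R := max R R') fun z hz => ?_
    rw [Prod.norm_def]
    exact max_le_max (hR _ hz.1) (hR' _ hz.2)
  have h1 : Sm (U ×ˢ B) (fun z : E × G => z.1) := hid.clm hW (ContinuousLinearMap.fst ℝ E G)
  have h2 : Sm (U ×ˢ B) (fun z : E × G => z.2) := hid.clm hW (ContinuousLinearMap.snd ℝ E G)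
  exact (Sm.comp hW (fun z hz => hz.1) hκ h1).add hW h2

/-- **Composition, difference form**: `f_n(κ + g_n) - f_n(κ)` is decomposable with gain `b`. -/
theorem Str.comp_sub (𝒢 : Gr Y) [CompleteSpace F] (hU : IsOpen U) (hB : IsOpen B)
    (hst : ∀ p ∈ B, ∀ s ∈ Icc (0 : ℝ) 1, s • p ∈ B) {R R' : ℝ}
    (hR : ∀ x ∈ U, ‖x‖ ≤ R) (hR' : ∀ p ∈ B, ‖p‖ ≤ R') {κ : E → G} (hκ : Sm U κ)
    (hκB : ∀ q ∈ U, ∀ p ∈ B, κ q + p ∈ V) (hρ : 0 < ρ) (hρ1 : ρ ≤ 1)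
    {f : Y → ℕ → G → F} (hf : Str V 𝒢.P ρ f) {g : Y → ℕ → E → G} (hg : Str U 𝒢.P ρ g)
    (hgo : oR U 𝒢.b g) (hmem : ∀ y n, ∀ q ∈ U, g y n q ∈ B) :
    Str U 𝒢.D (𝒢.b * ρ) (fun y n q => f y n (κ q + g y n q) - f y n (κ q)) := by
  have hb0 := 𝒢.b_pos
  have hb1 := 𝒢.b_lt
  rcases isEmpty_or_nonempty Y with hY | hY
  · refine ⟨0, (StrT U 𝒢.D).zero_mem, fun y => (hY.false y).elim⟩
  have hW : IsOpen (U ×ˢ B) := hU.prod hB
  have hstW : ∀ z ∈ U ×ˢ B, ∀ s ∈ Icc (0 : ℝ) 1, (z.1, s • z.2) ∈ U ×ˢ B :=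
    fun z hz s hs => ⟨hz.1, hst _ hz.2 s hs⟩
  have hmemW : ∀ y n, ∀ q ∈ U, (q, g y n q) ∈ U ×ˢ B := fun y n q hq => ⟨hq, hmem y n q hq⟩
  have hbS : bS U (fun y n q => (q, g y n q)) := bS.prodMk hU (Sm.id hR).toBS (hgo.toBS hb1)
  have hsh := Sm.shear hU hB hR hR' hκ
  have hmV : MapsTo (fun z : E × G => κ z.1 + z.2) (U ×ˢ B) V := fun z hz => hκB _ hz.1 _ hz.2
  obtain ⟨s, hs, he⟩ := hf
  -- the structured part
  have h1 : Str U 𝒢.D (𝒢.b * ρ) (fun y n q => s y n (κ q + g y n q) - s y n (κ q)) := by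
    clear he
    induction hs using Submodule.span_induction with
    | mem s hs =>
      obtain ⟨c, l, P, ψ, hc, hψ, rfl⟩ := hs
      have h2 : Sm (U ×ˢ B) (fun z : E × G => ψ (κ z.1 + z.2)) := Sm.comp hW hmV hψ hsh
      obtain ⟨h3, h4⟩ := Str.subst_sub 𝒢 hU hR hW hstW hρ hρ1 hg hgo hmemW h2 hY
      have h5 : (trm c l P (fun _ => (1 : ℝ)) : Y → ℕ → E → ℝ) ∈ StrT U 𝒢.P :=
        trm_mem hc (Sm.const 1)
      have h6 : oR U 𝒢.b (trm c l P (fun _ => (1 : ℝ)) : Y → ℕ → E → ℝ) :=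
        (trm_oR hU (Sm.const 1)).mono (𝒢.P_b l c hc)
      have h7 := Str.bilin hU 𝒢.PP (ContinuousLinearMap.lsmul ℝ ℝ : ℝ →L[ℝ] F →L[ℝ] F)
        (ρf := min ρ 𝒢.b) (ρg := ρ) (a := 𝒢.b) (a' := 𝒢.b)
        (le_min hρ.le hb0.le) hρ.le (min_le_right _ _) hb0.le
        (Str.of_mem (le_min hρ.le hb0.le) h5) h6 h3 h4
      refine (h7.mono_rate ?_).congr hU fun y n q _ => ?_
      · refine max_le le_rfl ?_
        rw [mul_comm]
        exact mul_le_mul_of_nonneg_left (min_le_left _ _) hb0.le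
      · simp [trm, smul_sub]
    | zero => exact (Str.of_oR (oR.zero (by positivity))).congr hU fun y n q _ => by simp
    | add s s' _ _ h2 h3 =>
      exact (h2.add hU h3).congr hU fun y n q _ => by simp only [Pi.add_apply]; abel
    | smul a s _ h2 =>
      exact (h2.const_smul hU a).congr hU fun y n q _ => by
        simp only [Pi.smul_apply, smul_sub]
  -- the error
  have h2 : oR (U ×ˢ B) ρ (fun y n (z : E × G) => f y n (κ z.1 + z.2) - s y n (κ z.1 + z.2)) :=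
    oR.comp hW (f := fun y n x => f y n x - s y n x) (g := fun _ _ z => κ z.1 + z.2)
      (fun _ _ => hmV) he hsh.toBS
  have h3 := oR.comp hU (g := fun y n q => (q, g y n q)) hmemW (h2.had2 hW hstW hρ.le) hbS
  have h4 := oR.bilin hU hρ.le hb0.le (ContinuousLinearMap.id ℝ (G →L[ℝ] F)) h3 hgo
  have h5 := Str.of_oR (I := 𝒢.D) (h4.mono (mul_comm ρ 𝒢.b).le)
  refine (h1.add hU h5).congr hU fun y n q hq => ?_
  obtain ⟨C, hC, h7⟩ := h2 y (ρ + 1) (by linarith) 1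
  have h8 := had2_eq (k := 0) hstW (h7 n) (hmemW y n q hq)
  show s y n (κ q + g y n q) - s y n (κ q) + _ = f y n (κ q + g y n q) - f y n (κ q)
  rw [ContinuousLinearMap.id_apply, ← h8]
  simp only [add_zero]
  abel

end P207N3H639
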