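import Mathlib
import Vale.Agent.P207.N3.H639.Lin

/-!
# P207, line N3, row EL': the linear lemma, conclusion
-/

open Set Filter Topology MeasureTheory Finset

namespace P207N3H639

variable {Y : Type*}
variable {E : Type} [NormedAddCommGroup E] [NormedSpace ℝ E]
variable {F : Type} [NormedAddCommGroup F] [NormedSpace ℝ F]
variable {U : Set E} {K : E → E} {A : E → F →L[ℝ] F} {σ : ℝ}
variable {I : ℝ → Set (Y → ℝ)} {ρ : ℝ}

theorem Bd.finsum (hU : IsOpen U) {k : ℕ} {f : ℕ → E → F} {u : ℕ → ℝ}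
    (h : ∀ m, Bd U k (f m) (u m)) (n : ℕ) :
    Bd U k (fun x => ∑ m ∈ range n, f m x) (∑ m ∈ range n, u m) := by
  induction n with
  | zero => simpa using Bd.zero (U := U) (F := F) (k := k) le_rfl
  | succ n ih =>
    simp only [sum_range_succ]
    exact ih.add hU (h n)

variable [CompleteSpace F] [CompleteSpace E]

omit [CompleteSpace F] [CompleteSpace E] in
/-- Duhamel. -/
theorem duhamel (h : Ctr U K A σ) {D e : ℕ → E → F}
    (hD : ∀ n, ∀ q ∈ U, D (n + 1) q - A q (D n (K q)) = e n q) (n : ℕ) :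
    ∀ q ∈ U, D n q = Tit K A n (D 0) q + ∑ m ∈ range n, Tit K A (n - 1 - m) (e m) q := by
  induction n with
  | zero => intro q _; simp [Tit_zero]
  | succ n ih =>
    intro q hq
    have h1 : D (n + 1) q = A q (D n (K q)) + e n q := by rw [← hD n q hq]; abel
    rw [h1, ih _ (h.maps hq), map_add, map_sum, Tit_succ, sum_range_succ]
    have h2 : ∀ m ∈ range n, A q (Tit K A (n - 1 - m) (e m) (K q))
        = Tit K A (n + 1 - 1 - m) (e m) q := by
      intro m hm
      rw [Tit_succ]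
      have : n - 1 - m + 1 = n + 1 - 1 - m := by
        have := mem_range.1 hm
        omega
      rw [this]
    rw [sum_congr rfl h2]
    have h3 : n + 1 - 1 - n = 0 := by omega
    rw [h3, Tit_zero]
    abel

/-- Flat solutions with small right hand side are small. -/
theorem Ctr.small {R : ℝ} (hd : Dom U R) (h : Ctr U K A σ) {J : ℕ}
    (hJ : σ ^ J < ρ) {D : Y → ℕ → E → F} (hDs : ∀ y, Sm U (D y 0))
    (hDf : ∀ y n, Fl U J (D y n))
    (he : oR U ρ (fun y n q => D y (n + 1) q - A q (D y n (K q)))) : oR U ρ D := by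
  intro y ρ' hρ' k
  obtain ⟨τ, hτ1, hτ2⟩ := exists_between hJ
  have hτ0 : 0 ≤ τ := (pow_nonneg h.σ_nonneg J).trans hτ1.le
  have hρ0 : 0 < ρ' := hτ0.trans_lt (hτ2.trans hρ')
  obtain ⟨C, hC, hT⟩ := h.Tit_bd hd J hτ1 k
  obtain ⟨C0, hC0, h0⟩ := hDs y (k + J)
  obtain ⟨C1, hC1, h1⟩ := he y ρ' hρ' (k + J)
  set e : ℕ → E → F := fun n q => D y (n + 1) q - A q (D y n (K q)) with hedef
  have hes : ∀ n, Sm U (e n) := by
    intro n k'
    obtain ⟨C2, hC2, h2⟩ := he y ρ' hρ' k'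
    exact ⟨_, by positivity, h2 n⟩
  have hef : ∀ n, Fl U J (e n) := fun n => (hDf y (n + 1)).sub (h.Fl_T hd (hDf y n))
  have hrem : ∀ {g : E → F}, Sm U g → Fl U J g → ∀ l, EqOn (Tit K A l (rem J g)) (Tit K A l g) U := by
    intro g hg hgf l q hq
    obtain ⟨Cg, _, hCg⟩ := hgf
    simp only [Tit]
    rw [rem_eq_of_flat hd.op hd.st hd.bd hg hCg (h.maps.iterate l hq)]
  have hden : 0 < ρ' - τ := by linarith
  refine ⟨C * C0 + C * C1 * (ρ' - τ)⁻¹, by positivity, fun n => ?_⟩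
  have b1 : Bd U k (Tit K A n (D y 0)) (C * C0 * τ ^ n) :=
    (hT n (D y 0) C0 hC0 h0).congr hd.op (hrem (hDs y) (hDf y 0) n)
  have b2 : ∀ m, Bd U k (Tit K A (n - 1 - m) (e m)) (C * (C1 * ρ' ^ m) * τ ^ (n - 1 - m)) :=
    fun m => (hT (n - 1 - m) (e m) (C1 * ρ' ^ m) (by positivity) (h1 m)).congr hd.op
      (hrem (hes m) (hef m) _)
  have b3 := b1.add hd.op (Bd.finsum hd.op b2 n)
  refine (b3.congr hd.op fun q hq => ?_).mono ?_
  · exact (duhamel h (fun n q _ => rfl) n q hq).symm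
  · have hsum : (∑ m ∈ range n, ρ' ^ m * τ ^ (n - 1 - m)) * (ρ' - τ) = ρ' ^ n - τ ^ n :=
      (Commute.all ρ' τ).geom_sum₂_mul n
    have e1 : ∑ m ∈ range n, C * (C1 * ρ' ^ m) * τ ^ (n - 1 - m)
        = C * C1 * ∑ m ∈ range n, ρ' ^ m * τ ^ (n - 1 - m) := by
      rw [mul_sum]
      exact sum_congr rfl fun m _ => by ring
    have e2 : ∑ m ∈ range n, ρ' ^ m * τ ^ (n - 1 - m) ≤ (ρ' - τ)⁻¹ * ρ' ^ n := by
      rw [inv_mul_eq_div, le_div_iff₀ hden, hsum]
      have := pow_nonneg hτ0 n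
      linarith
    have e3 : τ ^ n ≤ ρ' ^ n := pow_le_pow_left₀ hτ0 (hτ2.trans hρ').le n
    rw [e1]
    calc C * C0 * τ ^ n + C * C1 * ∑ m ∈ range n, ρ' ^ m * τ ^ (n - 1 - m)
        ≤ C * C0 * ρ' ^ n + C * C1 * ((ρ' - τ)⁻¹ * ρ' ^ n) :=
          add_le_add (mul_le_mul_of_nonneg_left e3 (by positivity))
            (mul_le_mul_of_nonneg_left e2 (by positivity))
      _ = _ := by ring

/-- **The linear lemma.** -/
theorem Ctr.lin {R : ℝ} (hd : Dom U R) (h : Ctr U K A σ) {J : ℕ} (hρ : 0 < ρ)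
    (hJ : σ ^ J < ρ) {D : Y → ℕ → E → F} (hDs : ∀ y n, Sm U (D y n))
    (hDf : ∀ y n, Fl U J (D y n))
    (hE : Str U I ρ (fun y n q => D y (n + 1) q - A q (D y n (K q)))) : Str U I ρ D := by
  obtain ⟨s, hs, he⟩ := hE
  obtain ⟨t, ht, ht1, ht2, ht3⟩ := h.solveStr hd hρ hJ hs
  have hEs : ∀ y n, Sm U (fun q => D y (n + 1) q - A q (D y n (K q))) := fun y n =>
    (hDs y (n + 1)).sub hd.op (h.Sm_T hd.op (hDs y n))
  have hEf : ∀ y n, Fl U J (fun q => D y (n + 1) q - A q (D y n (K q))) := fun y n =>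
    (hDf y (n + 1)).sub (h.Fl_T hd (hDf y n))
  have hes : ∀ y n, Sm U (fun q => D y (n + 1) q - A q (D y n (K q)) - s y n q) := fun y n =>
    (hEs y n).sub hd.op (StrT.sm hd.op hs y n)
  -- the remainder of the equation
  have key : ∀ y n, ∀ q ∈ U, D y (n + 1) q - A q (D y n (K q))
      = rem J (s y n) q + rem J (fun q => D y (n + 1) q - A q (D y n (K q)) - s y n q) q := by
    intro y n q hq
    obtain ⟨C, hC, hf⟩ := hEf y n
    have h1 := rem_eq_of_flat hd.op hd.st hd.bd (hEs y n) hf hq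
    have h2 := rem_add hd.op hd.st J (StrT.sm hd.op hs y n) (hes y n) hq
    have h3 : (fun x => s y n x + (D y (n + 1) x - A x (D y n (K x)) - s y n x))
        = fun x => D y (n + 1) x - A x (D y n (K x)) := by funext x; abel
    rw [h3] at h2
    exact h1.symm.trans h2
  have h4 := (he.rem' hd J hρ.le).add hd.op ht3
  have h5 : oR U ρ (fun y n q => D y n q - t y n q) := by
    refine h.small hd hJ (D := fun y n q => D y n q - t y n q)
      (fun y => (hDs y 0).sub hd.op (ht1 y 0)) (fun y n => (hDf y n).sub (ht2 y n)) ?_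
    refine h4.congr hd.op fun y n q hq => ?_
    have h6 := key y n q hq
    simp only [map_sub]
    have h7 : D y (n + 1) q = A q (D y n (K q)) + (rem J (s y n) q +
        rem J (fun q => D y (n + 1) q - A q (D y n (K q)) - s y n q) q) := by
      rw [← h6]; abel
    calc _ = (A q (D y n (K q)) + (rem J (s y n) q +
        rem J (fun q => D y (n + 1) q - A q (D y n (K q)) - s y n q) q)) - t y (n + 1) q
          - (A q (D y n (K q)) - A q (t y n (K q))) := by abel
      _ = _ := by rw [← h7]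
  exact ⟨t, ht, h5⟩

end P207N3H639
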