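import Mathlib
import Vale.Agent.P207.N3.H639.LinB
import Vale.Agent.P207.N3.H639.Cmp

/-!
# P207, line N3, row EL': expansion of `σ_n = ∇ S_{φ^n y}` in `C^k(q)`

`σ_{n+1}(q) = bb (ab (q, σ_{n+1}(q)), σ_n (ab (q, σ_{n+1}(q))))`, `ab (q, 0) = K q`,
`bb (q, 0) = 0`.  If `P_n` is structured with positive weights, `σ_n - P_n = O(|q|^J)` and
`P_{n+1} - A · (P_n ∘ K)` is decomposable, then `σ - P` is decomposable.
-/

open Set Filter Topology MeasureTheory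

namespace P207N3H639

variable {Y : Type*}
variable {E : Type} [NormedAddCommGroup E] [NormedSpace ℝ E]
variable {F : Type} [NormedAddCommGroup F] [NormedSpace ℝ F]
variable {G : Type} [NormedAddCommGroup G] [NormedSpace ℝ G]
variable {U : Set E} {ρ : ℝ}

theorem Str.prodMk (hU : IsOpen U) {I : ℝ → Set (Y → ℝ)} {f : Y → ℕ → E → F} {g : Y → ℕ → E → G}
    (hf : Str U I ρ f) (hg : Str U I ρ g) : Str U I ρ (fun y n x => (f y n x, g y n x)) :=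
  ((hf.clm hU (ContinuousLinearMap.inl ℝ F G)).add hU
    (hg.clm hU (ContinuousLinearMap.inr ℝ F G))).congr hU fun y n x _ => by simp

theorem oR.prodMk (hU : IsOpen U) {f : Y → ℕ → E → F} {g : Y → ℕ → E → G}
    (hf : oR U ρ f) (hg : oR U ρ g) : oR U ρ (fun y n x => (f y n x, g y n x)) :=
  ((hf.clm hU (ContinuousLinearMap.inl ℝ F G)).add hU
    (hg.clm hU (ContinuousLinearMap.inr ℝ F G))).congr hU fun y n x _ => by simp

/-- The data of the recursion of the leaves `p = σ_n(q)`. -/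
structure LeafRec (𝒢 : Gr Y) (U : Set E) (R : ℝ) (B : Set F) (R' : ℝ) (B' : Set E) (R'' : ℝ)
    (ab : E × F → E) (bb : E × F → F) (K : E → E) (g : Y → ℕ → E → F) : Prop where
  dom : Dom U R
  domB : Dom B R'
  domB' : Dom B' R''
  ab_sm : Sm (U ×ˢ B) ab
  bb_sm : Sm (U ×ˢ B) bb
  ab_maps : MapsTo ab (U ×ˢ B) U
  ab_zero : ∀ q ∈ U, ab (q, 0) = K q
  bb_zero : ∀ q ∈ U, bb (q, 0) = 0
  K_sm : Sm U K
  K_maps : MapsTo K U U
  margin : ∀ q ∈ U, ∀ p ∈ B', K q + p ∈ U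
  g_mem : ∀ y n, ∀ q ∈ U, g y n q ∈ B
  inc_mem : ∀ y n, ∀ q ∈ U, ab (q, g y (n + 1) q) - K q ∈ B'
  g_small : oR U 𝒢.b g
  step : ∀ y n, ∀ q ∈ U,
    g y (n + 1) q = bb (ab (q, g y (n + 1) q), g y n (ab (q, g y (n + 1) q)))

variable [CompleteSpace E] [CompleteSpace F]

/-- The linear part of the recursion: `(T g)(q) = A(q) g(K q)`. -/
noncomputable def linA (bb : E × F → F) (K : E → E) (q : E) : F →L[ℝ] F := had2 bb (K q, 0)

/-- One step: the nonlinear part of the recursion is decomposable, with gain `b`. -/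
theorem LeafRec.nonlin {𝒢 : Gr Y} {R : ℝ} {B : Set F} {R' : ℝ} {B' : Set E} {R'' : ℝ}
    {ab : E × F → E} {bb : E × F → F} {K : E → E} {g : Y → ℕ → E → F}
    (h : LeafRec 𝒢 U R B R' B' R'' ab bb K g) (hρ : 0 < ρ) (hρb : ρ ≤ 𝒢.b)
    (hg : Str U 𝒢.P ρ g) :
    Str U 𝒢.D (𝒢.b * ρ) (fun y n q => g y (n + 1) q - linA bb K q (g y n (K q))) := by
  have hb0 := 𝒢.b_pos
  have hb1 := 𝒢.b_lt
  have hρ1 : ρ ≤ 1 := hρb.trans hb1.le
  rcases isEmpty_or_nonempty Y with hY | hY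
  · exact ⟨0, (StrT U 𝒢.D).zero_mem, fun y => (hY.false y).elim⟩
  have hU := h.dom.op
  have hB := h.domB.op
  have hB' := h.domB'.op
  have hW : IsOpen (U ×ˢ B) := hU.prod hB
  have hstW : ∀ z ∈ U ×ˢ B, ∀ s ∈ Icc (0 : ℝ) 1, (z.1, s • z.2) ∈ U ×ˢ B :=
    fun z hz s hs => ⟨hz.1, h.domB.st _ hz.2 s hs⟩
  -- `s = g_{n+1}`
  have s1 : Str U 𝒢.P ρ (fun y n => g y (n + 1)) := hg.shift hU hρ.le
  have s2 : oR U 𝒢.b (fun y n => g y (n + 1)) := h.g_small.shift hb0.le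
  -- `γ = ab (q, s) - K q`
  obtain ⟨c1', c2'⟩ := Str.subst_sub 𝒢 hU h.dom.bd hW hstW hρ hρ1 s1 s2
    (fun y n q hq => ⟨hq, h.g_mem y (n + 1) q hq⟩) h.ab_sm hY
  have eγ : ∀ y n, EqOn (fun q => ab (q, g y (n + 1) q) - ab (q, 0))
      (fun q => ab (q, g y (n + 1) q) - K q) U := fun y n q hq => by
    simp only [h.ab_zero q hq]
  have c1 := c1'.congr hU eγ
  have c2 := c2'.congr hU eγ
  -- `p = g_n (K q + γ)`
  have d1 := Str.comp_sub 𝒢 hU hB' h.domB'.st h.dom.bd h.domB'.bd h.K_sm h.margin hρ hρ1 hg c1 c2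
    h.inc_mem
  have ep : ∀ (y : Y) (n : ℕ) (q : E), K q + (ab (q, g y (n + 1) q) - K q)
      = ab (q, g y (n + 1) q) := fun y n q => by abel
  simp only [ep] at d1
  have m1 : ∀ y n, MapsTo (fun q => ab (q, g y (n + 1) q)) U U := fun y n q hq =>
    h.ab_maps ⟨hq, h.g_mem y (n + 1) q hq⟩
  have k1 : Str U 𝒢.P ρ (fun y n q => g y n (K q)) := hg.compFix hU h.K_sm h.K_maps
  have k2 : oR U 𝒢.b (fun y n q => g y n (K q)) :=
    oR.comp hU (g := fun _ _ => K) (fun _ _ => h.K_maps) h.g_small h.K_sm.toBS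
  have d2 : oR U 𝒢.b (fun y n q => g y n (ab (q, g y (n + 1) q))) := by
    refine oR.comp hU (g := fun y n q => ab (q, g y (n + 1) q)) m1 h.g_small ?_
    have := bS.add hU (h.K_sm.toBS (Y := Y)) (c2.toBS hb1)
    simpa only [ep] using this
  have d3 : Str U 𝒢.P ρ (fun y n q => g y n (ab (q, g y (n + 1) q))) := by
    have h1 := ((d1.mono 𝒢.D_le).mono_rate (ρ₁ := ρ)
      (mul_le_of_le_one_left hρ.le hb1.le)).add hU k1
    exact h1.congr hU fun y n q _ => by simp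
  -- `H (q, (s, p)) = had2 bb (ab (q, s), p)`
  have hB2 : IsOpen (B ×ˢ B) := hB.prod hB
  have hW2 : IsOpen (U ×ˢ (B ×ˢ B)) := hU.prod hB2
  have hst2 : ∀ z ∈ U ×ˢ (B ×ˢ B), ∀ s ∈ Icc (0 : ℝ) 1, (z.1, s • z.2) ∈ U ×ˢ (B ×ˢ B) :=
    fun z hz s hs => ⟨hz.1, h.domB.st _ hz.2.1 s hs, h.domB.st _ hz.2.2 s hs⟩
  have hid2 : Sm (U ×ˢ (B ×ˢ B)) (fun z : E × (F × F) => z) := by
    refine Sm.id (R := max R (max R' R')) fun z hz => ?_
    rw [Prod.norm_def, Prod.norm_def]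
    exact max_le_max (h.dom.bd _ hz.1) (max_le_max (h.domB.bd _ hz.2.1) (h.domB.bd _ hz.2.2))
  have q1 : Sm (U ×ˢ (B ×ˢ B)) (fun z : E × (F × F) => z.1) :=
    hid2.clm hW2 (ContinuousLinearMap.fst ℝ E (F × F))
  have q2 : Sm (U ×ˢ (B ×ˢ B)) (fun z : E × (F × F) => z.2.1) :=
    hid2.clm hW2 ((ContinuousLinearMap.fst ℝ F F).comp (ContinuousLinearMap.snd ℝ E (F × F)))
  have q3 : Sm (U ×ˢ (B ×ˢ B)) (fun z : E × (F × F) => z.2.2) :=
    hid2.clm hW2 ((ContinuousLinearMap.snd ℝ F F).comp (ContinuousLinearMap.snd ℝ E (F × F)))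
  have q4 : Sm (U ×ˢ (B ×ˢ B)) (fun z : E × (F × F) => ab (z.1, z.2.1)) :=
    Sm.comp hW2 (V := U ×ˢ B) (fun z hz => ⟨hz.1, hz.2.1⟩) h.ab_sm (q1.prodMk hW2 q2)
  have hβ : Sm (U ×ˢ B) (P207N3H639.had2 bb) := h.bb_sm.had2 hW hstW
  have q5 : Sm (U ×ˢ (B ×ˢ B)) (fun z : E × (F × F) => P207N3H639.had2 bb (ab (z.1, z.2.1), z.2.2)) :=
    Sm.comp hW2 (V := U ×ˢ B) (fun z hz => ⟨h.ab_maps ⟨hz.1, hz.2.1⟩, hz.2.2⟩) hβ
      (q4.prodMk hW2 q3)
  have sp1 := s1.prodMk hU d3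
  have sp2 := s2.prodMk hU d2
  obtain ⟨n1, n2⟩ := Str.subst_sub 𝒢 hU h.dom.bd hW2 hst2 hρ hρ1 sp1 sp2
    (fun y n q hq => ⟨hq, h.g_mem y (n + 1) q hq, h.g_mem y n _ (m1 y n hq)⟩) q5 hY
  -- the two decomposable terms
  have t1 := Str.applyPP 𝒢 hU hρ.le hρ.le hρb hb0.le n1 n2 d3 d2
  have aSm : Sm U (linA bb K) := by
    refine Sm.comp hU (V := U ×ˢ B) (f := fun q => (K q, (0 : F))) ?_ hβ
      (h.K_sm.prodMk hU Sm.zero)
    exact fun q hq => ⟨h.K_maps hq, h.domB.zero⟩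
  have a1 := Sm.strA 𝒢 hρ.le aSm
  have a2 : oR U 1 (fun (_ : Y) (_ : ℕ) q => linA bb K q) := aSm.toBS.toOR
  have dd : oR U 𝒢.b (fun y n q => g y n (ab (q, g y (n + 1) q)) - g y n (K q)) := d2.sub hU k2
  have t2 := Str.applyAD 𝒢 hU hρ.le (mul_nonneg hb0.le hρ.le) hρ1 hb0.le a1 a2 d1 dd
  have t1' := t1.mono_rate (ρ₁ := 𝒢.b * ρ) (max_le le_rfl (mul_comm ρ 𝒢.b).le)
  have t2' := t2.mono_rate (ρ₁ := 𝒢.b * ρ) (by
    rw [one_mul]
    exact max_le le_rfl (mul_comm ρ 𝒢.b).le)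
  refine (t1'.add hU t2').congr hU fun y n q hq => ?_
  have hab : ab (q, g y (n + 1) q) ∈ U := m1 y n hq
  obtain ⟨C, _, hC⟩ := h.bb_sm 1
  have e1 := had2_eq (k := 0) hstW hC (z := (ab (q, g y (n + 1) q), g y n (ab (q, g y (n + 1) q))))
    ⟨hab, h.g_mem y n _ hab⟩
  simp only [h.bb_zero _ hab, sub_zero] at e1
  rw [← h.step y n q hq] at e1
  have e2 : P207N3H639.had2 bb (ab (q, (0 : F × F).1), (0 : F × F).2) = linA bb K q := by
    simp only [Prod.fst_zero, Prod.snd_zero, h.ab_zero q hq, linA]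
  simp only [e2, _root_.sub_apply, map_sub]
  rw [← e1]
  abel

/-- **EL'**. -/
theorem LeafRec.expansion {𝒢 : Gr Y} {R : ℝ} {B : Set F} {R' : ℝ} {B' : Set E} {R'' : ℝ}
    {ab : E × F → E} {bb : E × F → F} {K : E → E} {g : Y → ℕ → E → F}
    (h : LeafRec 𝒢 U R B R' B' R'' ab bb K g) {σ : ℝ} (hc : Ctr U K (linA bb K) σ)
    (hρ : 0 < ρ) (hρb : ρ ≤ 𝒢.b) {J : ℕ} (hJ : σ ^ J < ρ) {P : Y → ℕ → E → F}
    (hPs : ∀ y n, Sm U (P y n)) (hPf : ∀ y n, Fl U J (fun q => g y n q - P y n q))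
    (hP : Str U 𝒢.P ρ P)
    (hPd : Str U 𝒢.D ρ (fun y n q => P y (n + 1) q - linA bb K q (P y n (K q)))) :
    Str U 𝒢.D ρ (fun y n q => g y n q - P y n q) ∧ Str U 𝒢.P ρ g := by
  have hb0 := 𝒢.b_pos
  have hb1 := 𝒢.b_lt
  have hU := h.dom.op
  have hgs : ∀ y n, Sm U (g y n) := fun y n k => by
    obtain ⟨C, hC, h1⟩ := h.g_small y 1 hb1 k
    exact ⟨C, hC, by simpa using h1 n⟩
  have main : ∀ τ : ℝ, ρ ≤ τ → τ ≤ 𝒢.b → Str U 𝒢.P τ g →
      Str U 𝒢.D (max (𝒢.b * τ) ρ) (fun y n q => g y n q - P y n q) ∧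
        Str U 𝒢.P (max (𝒢.b * τ) ρ) g := by
    intro τ hτ1 hτ2 hg
    have h1 := h.nonlin (hρ.trans_le hτ1) hτ2 hg
    have h2 := (h1.mono_rate (le_max_left (𝒢.b * τ) ρ)).sub hU
      (hPd.mono_rate (le_max_right (𝒢.b * τ) ρ))
    have h3 : Str U 𝒢.D (max (𝒢.b * τ) ρ) (fun y n q => g y n q - P y n q) := by
      refine hc.lin h.dom (J := J) (hρ.trans_le (le_max_right _ _))
        (hJ.trans_le (le_max_right _ _)) (fun y n => (hgs y n).sub hU (hPs y n)) hPf ?_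
      refine h2.congr hU fun y n q _ => ?_
      simp only [map_sub]
      abel
    refine ⟨h3, ?_⟩
    have h4 := (h3.mono 𝒢.D_le).add hU (hP.mono_rate (le_max_right (𝒢.b * τ) ρ))
    exact h4.congr hU fun y n q _ => by simp
  have iter : ∀ m : ℕ, Str U 𝒢.P (max (𝒢.b ^ (m + 1)) ρ) g := by
    intro m
    induction m with
    | zero => exact Str.of_oR (h.g_small.mono (by simp))
    | succ m ih =>
      have hle : max (𝒢.b ^ (m + 1)) ρ ≤ 𝒢.b := by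
        refine max_le ?_ hρb
        calc 𝒢.b ^ (m + 1) ≤ 𝒢.b ^ 1 := pow_le_pow_of_le_one hb0.le hb1.le (by omega)
          _ = 𝒢.b := pow_one _
      refine ((main _ (le_max_right _ _) hle ih).2).mono_rate ?_
      rw [mul_max_of_nonneg _ _ hb0.le]
      refine max_le (max_le ?_ ?_) (le_max_right _ _)
      · rw [← pow_succ']; exact le_max_left _ _
      · exact (mul_le_of_le_one_left hρ.le hb1.le).trans (le_max_right _ _)
  obtain ⟨m, hm⟩ := exists_pow_lt_of_lt_one hρ hb1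
  have h1 : Str U 𝒢.P ρ g := by
    have := iter m
    have h2 : 𝒢.b ^ (m + 1) ≤ ρ := by
      rw [pow_succ]
      exact (mul_le_of_le_one_right (by positivity) hb1.le).trans hm.le
    rwa [max_eq_right h2] at this
  have h2 := main ρ le_rfl hρb h1
  rw [max_eq_right (mul_le_of_le_one_left hρ.le hb1.le)] at h2
  exact h2

end P207N3H639
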