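import Mathlib
import Vale.Agent.P207.N3.H639.EL

/-!
# P207, line N3, row EL': second order substitution, explicit finite sums, smooth maps on balls
-/

open Set Filter Topology MeasureTheory

namespace P207N3H639

variable {Y : Type*}
variable {E : Type} [NormedAddCommGroup E] [NormedSpace ℝ E]
variable {F : Type} [NormedAddCommGroup F] [NormedSpace ℝ F]
variable {G : Type} [NormedAddCommGroup G] [NormedSpace ℝ G]
variable {U : Set E} {B : Set G} {ρ : ℝ}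

/-- **Second order substitution**. -/
theorem Str.subst2 (𝒢 : Gr Y) (hU : IsOpen U) {R : ℝ} (hR : ∀ x ∈ U, ‖x‖ ≤ R) {W : Set (E × G)}
    (hW : IsOpen W) (hst : ∀ z ∈ W, ∀ s ∈ Icc (0 : ℝ) 1, (z.1, s • z.2) ∈ W)
    (hρ : 0 < ρ) (hρb : ρ ≤ 𝒢.b) {p : Y → ℕ → E → G}
    (hp : Str U 𝒢.P ρ p) (hpo : oR U 𝒢.b p) (hmem : ∀ y n, ∀ q ∈ U, (q, p y n q) ∈ W)
    {F : Type} [NormedAddCommGroup F] [NormedSpace ℝ F] [CompleteSpace F] {h : E × G → F}
    (hh : Sm W h) (hne : Nonempty Y) :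
    Str U 𝒢.D (𝒢.b * ρ) (fun y n q => h (q, p y n q) - h (q, 0) - had2 h (q, 0) (p y n q)) := by
  have hb0 := 𝒢.b_pos
  have hb1 := 𝒢.b_lt
  obtain ⟨h1, h2⟩ := Str.subst_sub 𝒢 hU hR hW hst hρ (hρb.trans hb1.le) hp hpo hmem
    (hh.had2 hW hst) hne
  have h3 := Str.applyPP 𝒢 hU hρ.le hρ.le hρb hb0.le h1 h2 hp hpo
  refine (h3.congr hU fun y n q hq => ?_).mono_rate (max_le le_rfl (mul_comm ρ 𝒢.b).le)
  obtain ⟨C, _, hC⟩ := hh 1
  have h4 := had2_eq (k := 0) hst hC (hmem y n q hq)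
  simp only [_root_.sub_apply]
  rw [← h4]

theorem had2_zero [CompleteSpace F] {h : E × G → F} {q : E} :
    had2 h (q, 0) = (fderiv ℝ h (q, 0)).comp (ContinuousLinearMap.inr ℝ E G) := by
  simp [had2, Iw]

/-- Functions of `p` alone, vanishing to second order at `0`. -/
theorem Str.flat2 (𝒢 : Gr Y) (hU : IsOpen U) {R : ℝ} (hR : ∀ x ∈ U, ‖x‖ ≤ R) (hB : IsOpen B)
    {R' : ℝ} (hR' : ∀ p ∈ B, ‖p‖ ≤ R') (hst : ∀ p ∈ B, ∀ s ∈ Icc (0 : ℝ) 1, s • p ∈ B)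
    (h0 : (0 : G) ∈ B) (hρ : 0 < ρ) (hρb : ρ ≤ 𝒢.b) {p : Y → ℕ → E → G}
    (hp : Str U 𝒢.P ρ p) (hpo : oR U 𝒢.b p) (hmem : ∀ y n, ∀ q ∈ U, p y n q ∈ B)
    {F : Type} [NormedAddCommGroup F] [NormedSpace ℝ F] [CompleteSpace F] {f : G → F}
    (hf : Sm B f) (hf0 : f 0 = 0) (hf1 : fderiv ℝ f 0 = 0) :
    Str U 𝒢.D (𝒢.b * ρ) (fun y n q => f (p y n q)) := by
  rcases isEmpty_or_nonempty Y with hY | hY
  · exact ⟨0, (StrT U 𝒢.D).zero_mem, fun y => (hY.false y).elim⟩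
  have hW : IsOpen (U ×ˢ B) := hU.prod hB
  have hstW : ∀ z ∈ U ×ˢ B, ∀ s ∈ Icc (0 : ℝ) 1, (z.1, s • z.2) ∈ U ×ˢ B :=
    fun z hz s hs => ⟨hz.1, hst _ hz.2 s hs⟩
  have hid : Sm (U ×ˢ B) (fun z : E × G => z) := by
    refine Sm.id (R := max R R') fun z hz => ?_
    rw [Prod.norm_def]
    exact max_le_max (hR _ hz.1) (hR' _ hz.2)
  have hsnd : Sm (U ×ˢ B) (fun z : E × G => z.2) := hid.clm hW (ContinuousLinearMap.snd ℝ E G)
  have hh : Sm (U ×ˢ B) (fun z : E × G => f z.2) := Sm.comp hW (fun z hz => hz.2) hf hsnd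
  have h1 := Str.subst2 𝒢 hU hR hW hstW hρ hρb hp hpo (fun y n q hq => ⟨hq, hmem y n q hq⟩) hh hY
  refine h1.congr hU fun y n q hq => ?_
  rw [had2_zero]
  have h2 : HasFDerivAt (fun z : E × G => f z.2)
      ((fderiv ℝ f 0).comp (ContinuousLinearMap.snd ℝ E G)) (q, 0) :=
    HasFDerivAt.comp (q, (0 : G)) (hf.diff h0).hasFDerivAt
      (ContinuousLinearMap.snd ℝ E G).hasFDerivAt
  rw [h2.fderiv, hf1]
  simp [hf0]

/-- Functions of `p` alone, vanishing at `0`. -/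
theorem Str.flat1 (𝒢 : Gr Y) (hU : IsOpen U) {R : ℝ} (hR : ∀ x ∈ U, ‖x‖ ≤ R) (hB : IsOpen B)
    {R' : ℝ} (hR' : ∀ p ∈ B, ‖p‖ ≤ R') (hst : ∀ p ∈ B, ∀ s ∈ Icc (0 : ℝ) 1, s • p ∈ B)
    (hρ : 0 < ρ) (hρ1 : ρ ≤ 1) {p : Y → ℕ → E → G}
    (hp : Str U 𝒢.P ρ p) (hpo : oR U 𝒢.b p) (hmem : ∀ y n, ∀ q ∈ U, p y n q ∈ B)
    {F : Type} [NormedAddCommGroup F] [NormedSpace ℝ F] [CompleteSpace F] {f : G → F}
    (hf : Sm B f) (hf0 : f 0 = 0) (hY : Nonempty Y) :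
    Str U 𝒢.P ρ (fun y n q => f (p y n q)) ∧ oR U 𝒢.b (fun y n q => f (p y n q)) := by
  have hW : IsOpen (U ×ˢ B) := hU.prod hB
  have hstW : ∀ z ∈ U ×ˢ B, ∀ s ∈ Icc (0 : ℝ) 1, (z.1, s • z.2) ∈ U ×ˢ B :=
    fun z hz s hs => ⟨hz.1, hst _ hz.2 s hs⟩
  have hid : Sm (U ×ˢ B) (fun z : E × G => z) := by
    refine Sm.id (R := max R R') fun z hz => ?_
    rw [Prod.norm_def]
    exact max_le_max (hR _ hz.1) (hR' _ hz.2)
  have hsnd : Sm (U ×ˢ B) (fun z : E × G => z.2) := hid.clm hW (ContinuousLinearMap.snd ℝ E G)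
  have hh : Sm (U ×ˢ B) (fun z : E × G => f z.2) := Sm.comp hW (fun z hz => hz.2) hf hsnd
  have h1 := Str.subst_sub 𝒢 hU hR hW hstW hρ hρ1 hp hpo (fun y n q hq => ⟨hq, hmem y n q hq⟩)
    hh hY
  simpa [hf0] using h1

/-- Structured sequences are explicit finite sums. -/
theorem StrT.exists_sum {I : ℝ → Set (Y → ℝ)} {s : Y → ℕ → E → F} (hs : s ∈ StrT U I) :
    ∃ (N : ℕ) (c : Fin N → Y → ℝ) (l : Fin N → ℝ) (P : Fin N → Polynomial ℝ)
      (ψ : Fin N → E → F), (∀ i, c i ∈ I (l i)) ∧ (∀ i, Sm U (ψ i)) ∧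
        ∀ y n q, s y n q = ∑ i, trm (c i) (l i) (P i) (ψ i) y n q := by
  induction hs using Submodule.span_induction with
  | mem s hs =>
    obtain ⟨c, l, P, ψ, hc, hψ, rfl⟩ := hs
    exact ⟨1, fun _ => c, fun _ => l, fun _ => P, fun _ => ψ, fun _ => hc, fun _ => hψ,
      fun y n q => by simp⟩
  | zero =>
    exact ⟨0, Fin.elim0, Fin.elim0, Fin.elim0, Fin.elim0, fun i => i.elim0, fun i => i.elim0,
      fun y n q => by simp⟩
  | add s t _ _ h1 h2 =>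
    obtain ⟨N, c, l, P, ψ, a1, a2, a3⟩ := h1
    obtain ⟨M, d, m, Q, χ, b1, b2, b3⟩ := h2
    refine ⟨N + M, Fin.append c d, Fin.append l m, Fin.append P Q, Fin.append ψ χ, ?_, ?_, ?_⟩
    · intro i
      refine Fin.addCases (fun i => ?_) (fun i => ?_) i
      · simpa using a1 i
      · simpa using b1 i
    · intro i
      refine Fin.addCases (fun i => ?_) (fun i => ?_) i
      · simpa using a2 i
      · simpa using b2 i
    · intro y n q
      rw [Fin.sum_univ_add]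
      simp [a3 y n q, b3 y n q]
  | smul a s _ h1 =>
    obtain ⟨N, c, l, P, ψ, a1, a2, a3⟩ := h1
    refine ⟨N, c, l, fun i => Polynomial.C a * P i, ψ, a1, a2, fun y n q => ?_⟩
    simp only [Pi.smul_apply, a3, Finset.smul_sum, trm, Polynomial.eval_mul, Polynomial.eval_C,
      smul_smul]
    refine Finset.sum_congr rfl fun i _ => ?_
    congr 1
    ring

/-- A function which is smooth near a compact set has bounded derivatives there. -/
theorem Sm.of_contDiffOn {V K : Set E} (hV : IsOpen V) (hK : IsCompact K) (hUK : U ⊆ K)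
    (hKV : K ⊆ V) {f : E → F} (hf : ContDiffOn ℝ (⊤ : ℕ∞) f V) : Sm U f := by
  intro k
  induction k generalizing F with
  | zero =>
    obtain ⟨C, hC⟩ := hK.exists_bound_of_continuousOn (hf.continuousOn.mono hKV)
    refine ⟨max C 0, le_max_right _ _, hf.continuousOn.mono (hUK.trans hKV), fun x hx =>
      (hC x (hUK hx)).trans (le_max_left _ _)⟩
  | succ k ih =>
    obtain ⟨C, hC⟩ := hK.exists_bound_of_continuousOn (hf.continuousOn.mono hKV)
    have h1 : ContDiffOn ℝ (⊤ : ℕ∞) (_root_.fderiv ℝ f) V := hf.fderiv_of_isOpen hV (by simp)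
    obtain ⟨D, hD, h2⟩ := ih h1
    refine ⟨max (max C 0) D, hD.trans (le_max_right _ _), fun x hx => ?_, fun x hx => ?_,
      h2.mono (le_max_right _ _)⟩
    · exact (hf.contDiffAt (hV.mem_nhds (hKV (hUK hx)))).differentiableAt (by simp)
    · exact (hC x (hUK hx)).trans ((le_max_left _ _).trans (le_max_left _ _))

theorem Sm.of_contDiff [FiniteDimensional ℝ E] {R : ℝ} {f : E → F}
    (hf : ContDiff ℝ (⊤ : ℕ∞) f) : Sm (Metric.ball (0 : E) R) f := by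
  have : ProperSpace E := FiniteDimensional.proper_real E
  exact Sm.of_contDiffOn isOpen_univ (isCompact_closedBall 0 R) Metric.ball_subset_closedBall
    (subset_univ _) hf.contDiffOn

end P207N3H639
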