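import Mathlib
import Vale.Agent.P207.N3.H639.Sub2
import Vale.Agent.P207.N3.H70.NF2

/-!
# P207, line N3, rows EL', (G5a): the graded data of the hatted jets
-/

open Set Topology MeasureTheory MvPolynomial Metric
open Vale.Agent.P207.N3.H70

noncomputable section

namespace P207N3H639

variable {Y : Type*}
variable {E : Type} [NormedAddCommGroup E] [NormedSpace ℝ E]
variable {F : Type} [NormedAddCommGroup F] [NormedSpace ℝ F]
variable {U : Set E} {ρ : ℝ}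
variable {J : Type}

/-- evaluation of a polynomial in the hatted jets -/
def ev (v0 : Y → J → ℝ) (f : MvPolynomial J ℝ) : Y → ℝ := fun y => eval (v0 y) f

theorem Hi_one_of_Wt {θ : J → ℝ} {l : ℝ} (hl : |l| < 1) {f : MvPolynomial J ℝ}
    (hf : f ∈ Wt θ l) : f ∈ Hi J 1 := by
  rw [mem_Hi]
  intro α hα
  have h1 := mem_Wt.1 hf α hα
  rcases Nat.eq_zero_or_pos α.degree with h | h
  · exfalso
    have h2 : α = 0 := by rwa [Finsupp.degree_eq_zero_iff] at h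
    rw [h2, mult_zero] at h1
    rw [← h1, abs_one] at hl
    exact lt_irrefl _ hl
  · exact h

/-- The graded data of the hatted jets. -/
def hGr (θ : J → ℝ) (v0 : Y → J → ℝ) (b : ℝ) (hb0 : 0 < b) (hb1 : b < 1) : Gr Y where
  b := b
  b_pos := hb0
  b_lt := hb1
  A l := {c | |l| ≤ 1 ∧ ∃ f ∈ Wt θ l, c = ev v0 f}
  P l := {c | |l| ≤ b ∧ ∃ f ∈ Wt θ l, c = ev v0 f}
  D l := {c | |l| ≤ b ∧ ∃ f ∈ Wt θ l, f ∈ Hi J 2 ∧ c = ev v0 f}
  one := by
    refine ⟨by simp, 1, ?_, ?_⟩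
    · classical
      rw [mem_Wt]
      intro α hα
      rw [← C_1, support_C, if_neg one_ne_zero, Finset.mem_singleton] at hα
      rw [hα, mult_zero]
    · funext y; simp [ev]
  P_le l c := fun ⟨h1, h2⟩ => ⟨h1.trans hb1.le, h2⟩
  D_le l c := fun ⟨h1, f, h2, _, h3⟩ => ⟨h1, f, h2, h3⟩
  A_one l c := fun h => h.1
  P_b l c := fun h => h.1
  AA := by
    rintro l m c d ⟨h1, f, hf, rfl⟩ ⟨h2, g, hg, rfl⟩
    refine ⟨?_, f * g, Wt.mul hf hg, ?_⟩
    · rw [abs_mul]; exact mul_le_one₀ h1 (abs_nonneg _) h2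
    · funext y; simp [ev]
  AP := by
    rintro l m c d ⟨h1, f, hf, rfl⟩ ⟨h2, g, hg, rfl⟩
    refine ⟨?_, f * g, Wt.mul hf hg, ?_⟩
    · rw [abs_mul]
      calc |l| * |m| ≤ 1 * b := mul_le_mul h1 h2 (abs_nonneg _) zero_le_one
        _ = b := one_mul b
    · funext y; simp [ev]
  PP := by
    rintro l m c d ⟨h1, f, hf, rfl⟩ ⟨h2, g, hg, rfl⟩
    refine ⟨?_, f * g, Wt.mul hf hg, ?_, ?_⟩
    · rw [abs_mul]
      calc |l| * |m| ≤ 1 * b := mul_le_mul (h1.trans hb1.le) h2 (abs_nonneg _) zero_le_one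
        _ = b := one_mul b
    · exact Hi.mul (Hi_one_of_Wt (h1.trans_lt hb1) hf) (Hi_one_of_Wt (h2.trans_lt hb1) hg)
    · funext y; simp [ev]
  AD := by
    rintro l m c d ⟨h1, f, hf, rfl⟩ ⟨h2, g, hg, hg2, rfl⟩
    refine ⟨?_, f * g, Wt.mul hf hg, ?_, ?_⟩
    · rw [abs_mul]
      calc |l| * |m| ≤ 1 * b := mul_le_mul h1 h2 (abs_nonneg _) zero_le_one
        _ = b := one_mul b
    · have h0 : f ∈ Hi J 0 := mem_Hi.2 fun α _ => Nat.zero_le _
      simpa using Hi.mul h0 hg2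
    · funext y; simp [ev]

/-- The polynomial `n ↦ l^{-i} binom(n, i)`. -/
def Qp (l : ℝ) (i : ℕ) : Polynomial ℝ :=
  Polynomial.C ((l ^ i)⁻¹ * (i.factorial : ℝ)⁻¹) * descPochhammer ℝ i

theorem Qp_eval (l : ℝ) (i n : ℕ) :
    (Qp l i).eval (n : ℝ) = (l ^ i)⁻¹ * (n.choose i : ℝ) := by
  rw [Qp, Polynomial.eval_mul, Polynomial.eval_C, descPochhammer_eval_eq_descFactorial,
    Nat.descFactorial_eq_factorial_mul_choose, Nat.cast_mul]
  have : (i.factorial : ℝ) ≠ 0 := by positivity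
  field_simp

theorem Qp_zero (l : ℝ) : Qp l 0 = 1 := by simp [Qp]

theorem Qp_eval_zero (l : ℝ) {i : ℕ} (hi : i ≠ 0) : (Qp l i).eval 0 = 0 := by
  have := Qp_eval l i 0
  rw [Nat.cast_zero, Nat.choose_eq_zero_of_lt (Nat.pos_of_ne_zero hi)] at this
  simpa using this

/-- Iterates of a polynomial of exact multiplier. -/
theorem iter_poly {θ : J → ℝ} {Ψ : J → MvPolynomial J ℝ} (hwt : ∀ j, Ψ j ∈ Wt θ (θ j))
    (hhi : ∀ j, Ψ j ∈ Hi J 1) (hge : ∀ j, X j ∈ GE (CC Ψ) (θ j)) {l : ℝ} (hl : l ≠ 0)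
    {f : MvPolynomial J ℝ} (hf : f ∈ Wt θ l) :
    ∃ (N : ℕ) (g : ℕ → MvPolynomial J ℝ), 0 < N ∧ g 0 = f ∧ (∀ i, g i ∈ Wt θ l) ∧
      (∀ o, f ∈ Hi J o → ∀ i, g i ∈ Hi J o) ∧
      ∀ (v : J → ℝ) (n : ℕ), eval ((pmap Ψ)^[n] v) f
        = ∑ i ∈ Finset.range N, (l ^ n * (Qp l i).eval (n : ℝ)) * eval v (g i) := by
  have h1 : f ∈ GE (CC Ψ) l := by
    refine mem_of_monomials fun α hα => ?_
    have := monomial_ge Ψ (θ := θ) (α := α) (fun j _ => hge j) (f.coeff α)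
    rwa [mem_Wt.1 hf α hα] at this
  obtain ⟨N, hN⟩ := (mem_GE (CC Ψ)).1 h1
  have hN' : (dl (CC Ψ) l ^ (N + 1)) f = 0 := by
    rw [add_comm, pow_add, Module.End.mul_apply, hN, map_zero]
  refine ⟨N + 1, fun i => (dl (CC Ψ) l ^ i) f, Nat.succ_pos N, rfl, ?_, ?_, ?_⟩
  · intro i
    induction i with
    | zero => exact hf
    | succ i ih =>
      show (dl (CC Ψ) l ^ (i + 1)) f ∈ Wt θ l
      rw [pow_succ', Module.End.mul_apply, dl_apply]
      exact Submodule.sub_mem _ (CC_Wt Ψ hwt ih) (Submodule.smul_mem _ l ih)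
  · intro o ho i
    induction i with
    | zero => exact ho
    | succ i ih =>
      show (dl (CC Ψ) l ^ (i + 1)) f ∈ Hi J o
      rw [pow_succ', Module.End.mul_apply, dl_apply]
      exact Submodule.sub_mem _ (CC_Hi Ψ hhi ih) (Submodule.smul_mem _ l ih)
  · intro v n
    rw [← eval_iter Ψ v n f, iter_eq (CC Ψ) hN' n, map_sum]
    refine Finset.sum_congr rfl fun i _ => ?_
    rw [smul_eval, Qp_eval]
    congr 1
    rcases le_or_gt i n with h | h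
    · have : l ^ n = l ^ (n - i) * l ^ i := by rw [← pow_add, Nat.sub_add_cancel h]
      rw [this]
      have h3 : l ^ i ≠ 0 := pow_ne_zero _ hl
      field_simp
    · rw [Nat.choose_eq_zero_of_lt h]
      simp

/-- The dynamics of the hatted jets. -/
structure HatDyn (θ : J → ℝ) (Ψ : J → MvPolynomial J ℝ) : Prop where
  ne : ∀ j, θ j ≠ 0
  wt : ∀ j, Ψ j ∈ Wt θ (θ j)
  hi : ∀ j, Ψ j ∈ Hi J 1
  ge : ∀ j, X j ∈ GE (CC Ψ) (θ j)

theorem HatDyn.of_nform [Fintype J] [DecidableEq J] {S : TriSys J} (N : NForm S) :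
    HatDyn S.θ (S.Psi N.res) := by
  have h : S.ResOK N.res := fun i => ⟨N.res_supp i, fun α hα => ⟨N.res_mult i α hα,
    N.res_ord i α hα⟩⟩
  exact ⟨S.θ_ne, fun j => h.wt j, fun j => h.hi j, fun j => h.ge j⟩

variable {θ : J → ℝ} {Ψ : J → MvPolynomial J ℝ} {v0 : Y → J → ℝ} {b : ℝ} {hb0 : 0 < b}
  {hb1 : b < 1}

/-- Exactly structured: polynomials of exact multiplier along the orbit. -/
theorem HatDyn.mem (h : HatDyn θ Ψ) {l : ℝ} (hl : l ≠ 0) (hlb : |l| ≤ b)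
    {f : MvPolynomial J ℝ} (hf : f ∈ Wt θ l) {ψ : E → F} (hψ : Sm U ψ) :
    (fun (y : Y) n q => (eval ((pmap Ψ)^[n] (v0 y)) f) • ψ q)
      ∈ StrT U (hGr θ v0 b hb0 hb1).P := by
  obtain ⟨N, g, _, _, h1, _, h3⟩ := iter_poly h.wt h.hi h.ge hl hf
  have e : (fun (y : Y) n q => (eval ((pmap Ψ)^[n] (v0 y)) f) • ψ q)
      = ∑ i ∈ Finset.range N, trm (ev v0 (g i)) l (Qp l i) ψ := by
    funext y n q
    rw [h3, Finset.sum_smul]
    simp only [Finset.sum_apply, trm, ev]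
    exact Finset.sum_congr rfl fun i _ => by ring_nf
  rw [e]
  exact Submodule.sum_mem _ fun i _ => trm_mem ⟨hlb, g i, h1 i, rfl⟩ hψ

theorem HatDyn.mem2 (h : HatDyn θ Ψ) {l : ℝ} (hl : l ≠ 0) (hlb : |l| ≤ b)
    {f : MvPolynomial J ℝ} (hf : f ∈ Wt θ l) (hf2 : f ∈ Hi J 2) {ψ : E → F} (hψ : Sm U ψ) :
    (fun (y : Y) n q => (eval ((pmap Ψ)^[n] (v0 y)) f) • ψ q)
      ∈ StrT U (hGr θ v0 b hb0 hb1).D := by
  obtain ⟨N, g, _, _, h1, h2, h3⟩ := iter_poly h.wt h.hi h.ge hl hf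
  have e : (fun (y : Y) n q => (eval ((pmap Ψ)^[n] (v0 y)) f) • ψ q)
      = ∑ i ∈ Finset.range N, trm (ev v0 (g i)) l (Qp l i) ψ := by
    funext y n q
    rw [h3, Finset.sum_smul]
    simp only [Finset.sum_apply, trm, ev]
    exact Finset.sum_congr rfl fun i _ => by ring_nf
  rw [e]
  exact Submodule.sum_mem _ fun i _ => trm_mem ⟨hlb, g i, h1 i, h2 2 hf2 i, rfl⟩ hψ

variable [Fintype J] [DecidableEq J]

/-- The vector of the hatted jets along the orbit. -/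
theorem HatDyn.vec (h : HatDyn θ Ψ) (hθb : ∀ j, |θ j| ≤ b) :
    (fun (y : Y) n (_ : E) => (pmap Ψ)^[n] (v0 y)) ∈ StrT U (hGr θ v0 b hb0 hb1).P := by
  have e : (fun (y : Y) n (_ : E) => (pmap Ψ)^[n] (v0 y))
      = ∑ j : J, (fun (y : Y) n (_ : E) =>
        (eval ((pmap Ψ)^[n] (v0 y)) (X j)) • (Pi.single j (1 : ℝ) : J → ℝ)) := by
    funext y n q
    simp only [Finset.sum_apply, eval_X]
    funext i
    simp [Finset.sum_apply, Pi.single_apply]
  rw [e]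
  refine Submodule.sum_mem _ fun j _ => ?_
  refine h.mem (h.ne j) (hθb j) ?_ (Sm.const _)
  rw [mem_Wt]
  intro α hα
  rw [support_X, Finset.mem_singleton] at hα
  rw [hα, mult_single, pow_one]

omit [DecidableEq J] in
/-- Uniform bound of the orbits of a bounded set. -/
theorem HatDyn.bounded (h : HatDyn θ Ψ) (hθ : ∀ j, |θ j| < 1) (R₀ : ℝ) :
    ∃ R : ℝ, 0 < R ∧ ∀ (v : J → ℝ), ‖v‖ ≤ R₀ → ∀ n : ℕ, ‖(pmap Ψ)^[n] v‖ < R := by
  have key : ∀ j, ∃ C : ℝ, 0 ≤ C ∧ ∀ (v : J → ℝ), ‖v‖ ≤ R₀ → ∀ n : ℕ,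
      |(pmap Ψ)^[n] v j| ≤ C := by
    intro j
    have hX : (X j : MvPolynomial J ℝ) ∈ Wt θ (θ j) := by
      rw [mem_Wt]
      intro α hα
      rw [support_X, Finset.mem_singleton] at hα
      rw [hα, mult_single, pow_one]
    obtain ⟨N, g, _, _, _, _, h3⟩ := iter_poly h.wt h.hi h.ge (h.ne j) hX
    have h4 : ∀ i, ∃ C : ℝ, 0 ≤ C ∧ ∀ (v : J → ℝ), ‖v‖ ≤ R₀ → ∀ n : ℕ,
        |(θ j ^ n * (Qp (θ j) i).eval (n : ℝ)) * eval v (g i)| ≤ C := by
      intro i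
      obtain ⟨C1, hC1, h5⟩ := poly_exp_bound (Qp (θ j) i) (hθ j)
      have hc : Continuous fun v : J → ℝ => eval v (g i) := MvPolynomial.continuous_eval (g i)
      obtain ⟨C2, hC2⟩ := (isCompact_closedBall (0 : J → ℝ) R₀).exists_bound_of_continuousOn
        hc.continuousOn
      refine ⟨C1 * |C2|, by positivity, fun v hv n => ?_⟩
      rw [abs_mul]
      have h6 := h5 n
      rw [one_pow, mul_one] at h6
      have h7 : |eval v (g i)| ≤ |C2| :=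
        (hC2 v (by rwa [mem_closedBall_zero_iff])).trans (le_abs_self C2)
      exact mul_le_mul h6 h7 (abs_nonneg _) hC1
    choose C hC hC' using h4
    refine ⟨∑ i ∈ Finset.range N, C i, Finset.sum_nonneg fun i _ => hC i, fun v hv n => ?_⟩
    have h5 := h3 v n
    rw [eval_X] at h5
    rw [h5]
    exact (Finset.abs_sum_le_sum_abs _ _).trans (Finset.sum_le_sum fun i _ => hC' i v hv n)
  choose C hC hC' using key
  refine ⟨(∑ j, C j) + 1, by positivity [Finset.sum_nonneg fun j (_ : j ∈ Finset.univ) => hC j],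
    fun v hv n => ?_⟩
  have hS : 0 ≤ ∑ j, C j := Finset.sum_nonneg fun j _ => hC j
  refine lt_of_le_of_lt ((pi_norm_le_iff_of_nonneg hS).2 fun j => ?_) (lt_add_one _)
  exact (hC' j v hv n).trans (Finset.single_le_sum (fun j _ => hC j) (Finset.mem_univ j))

end P207N3H639
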