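import Mathlib
import Vale.Agent.P207.N3.H639.Hat

/-!
# P207, line N3, rows EL', (G5): the expansion of the leaves in hatted jets
-/

open Set Topology MeasureTheory MvPolynomial Metric
open Vale.Agent.P207.N3.H70

noncomputable section

namespace P207N3H639

variable {Y : Type*}
variable {E : Type} [NormedAddCommGroup E] [NormedSpace ℝ E]
variable {F : Type} [NormedAddCommGroup F] [NormedSpace ℝ F]
variable {U : Set E} {ρ : ℝ}

section rem

variable [CompleteSpace F] {I : ℝ → Set (Y → ℝ)}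

theorem StrT.rem {R : ℝ} (hd : Dom U R) (J : ℕ) {s : Y → ℕ → E → F} (hs : s ∈ StrT U I) :
    ∃ t ∈ StrT U I, ∀ y n, EqOn (rem J (s y n)) (t y n) U := by
  induction hs using Submodule.span_induction with
  | mem s hs =>
    obtain ⟨c, l, P, ψ, hc, hψ, rfl⟩ := hs
    exact ⟨trm c l P (P207N3H639.rem J ψ), trm_mem hc (Sm.rem hd.op hd.st hd.bd J hψ),
      fun y n => rem_smul hd.op hd.st J _ hψ⟩
  | zero =>
    refine ⟨0, (StrT U I).zero_mem, fun y n q hq => ?_⟩
    have h1 := rem_smul hd.op hd.st J 0 (Sm.zero (U := U) (F := F)) hq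
    have h2 : (fun x : E => (0 : ℝ) • (fun _ : E => (0 : F)) x) = (0 : E → F) := by
      funext x; simp
    rw [h2] at h1
    simpa using h1
  | add s s' hs hs' h1 h2 =>
    obtain ⟨t, ht, h3⟩ := h1
    obtain ⟨t', ht', h3'⟩ := h2
    refine ⟨t + t', (StrT U I).add_mem ht ht', fun y n q hq => ?_⟩
    have h4 : P207N3H639.rem J (fun x => s y n x + s' y n x) q
        = P207N3H639.rem J (s y n) q + P207N3H639.rem J (s' y n) q :=
      rem_add hd.op hd.st J (StrT.sm hd.op hs y n) (StrT.sm hd.op hs' y n) hq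
    show P207N3H639.rem J (fun x => s y n x + s' y n x) q = t y n q + t' y n q
    rw [h4, h3 y n hq, h3' y n hq]
  | smul a s hs h1 =>
    obtain ⟨t, ht, h3⟩ := h1
    refine ⟨a • t, (StrT U I).smul_mem a ht, fun y n q hq => ?_⟩
    have h4 : P207N3H639.rem J (fun x => a • s y n x) q = a • P207N3H639.rem J (s y n) q :=
      rem_smul hd.op hd.st J a (StrT.sm hd.op hs y n) hq
    show P207N3H639.rem J (fun x => a • s y n x) q = a • t y n q
    rw [h4, h3 y n hq]

theorem Str.rem {R : ℝ} (hd : Dom U R) (J : ℕ) (hρ : 0 ≤ ρ) {f : Y → ℕ → E → F}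
    (hf : Str U I ρ f) (hfs : ∀ y n, Sm U (f y n)) : Str U I ρ (fun y n => rem J (f y n)) := by
  obtain ⟨s, hs, he⟩ := hf
  obtain ⟨t, ht, h1⟩ := StrT.rem hd J hs
  refine ⟨t, ht, (he.rem' hd J hρ).congr hd.op fun y n q hq => ?_⟩
  have hss := StrT.sm hd.op hs y n
  have h2 : P207N3H639.rem J (fun x => s y n x + (f y n x - s y n x)) q
      = P207N3H639.rem J (s y n) q + P207N3H639.rem J (fun x => f y n x - s y n x) q :=
    rem_add hd.op hd.st J hss ((hfs y n).sub hd.op hss) hq
  have h3 : (fun x => s y n x + (f y n x - s y n x)) = f y n := by funext x; abel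
  rw [h3] at h2
  show P207N3H639.rem J (fun x => f y n x - s y n x) q = P207N3H639.rem J (f y n) q - t y n q
  rw [h2, h1 y n hq]
  abel

omit [CompleteSpace F] in
theorem poly_zero (J : ℕ) : ∀ (c : ℕ → F) (C : ℝ),
    (∀ s ∈ Ioc (0 : ℝ) 1, ‖∑ i ∈ Finset.range J, s ^ i • c i‖ ≤ C * s ^ J) →
      ∀ i < J, c i = 0 := by
  induction J with
  | zero => intro c C _ i hi; omega
  | succ J ih =>
    intro c C h
    have hdec : ∀ s : ℝ, ∑ i ∈ Finset.range (J + 1), s ^ i • c i
        = c 0 + s • ∑ i ∈ Finset.range J, s ^ i • c (i + 1) := by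
      intro s
      rw [Finset.sum_range_succ', pow_zero, one_smul, Finset.smul_sum, add_comm]
      congr 1
      exact Finset.sum_congr rfl fun i _ => by rw [smul_smul, pow_succ']
    set M : ℝ := ∑ i ∈ Finset.range J, ‖c (i + 1)‖ with hM
    have hM0 : 0 ≤ M := Finset.sum_nonneg fun _ _ => norm_nonneg _
    have hbd : ∀ s ∈ Ioc (0 : ℝ) 1, ‖∑ i ∈ Finset.range J, s ^ i • c (i + 1)‖ ≤ M := by
      intro s hs
      refine (norm_sum_le _ _).trans (Finset.sum_le_sum fun i _ => ?_)
      rw [norm_smul, Real.norm_eq_abs, abs_of_nonneg (pow_nonneg hs.1.le i)]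
      exact mul_le_of_le_one_left (norm_nonneg _) (pow_le_one₀ hs.1.le hs.2)
    have h0 : c 0 = 0 := by
      have h1 : ∀ s ∈ Ioc (0 : ℝ) 1, ‖c 0‖ ≤ (|C| + M) * s := by
        intro s hs
        have e : c 0 = (∑ i ∈ Finset.range (J + 1), s ^ i • c i)
            - s • ∑ i ∈ Finset.range J, s ^ i • c (i + 1) := by rw [hdec]; abel
        rw [e]
        refine (norm_sub_le _ _).trans ?_
        rw [norm_smul, Real.norm_eq_abs, abs_of_pos hs.1]
        have h2 := h s hs
        have h4 : s ^ (J + 1) ≤ s := by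
          have := pow_le_pow_of_le_one hs.1.le hs.2 (Nat.succ_le_succ (Nat.zero_le J))
          simpa using this
        have h5 : C * s ^ (J + 1) ≤ |C| * s :=
          (mul_le_mul_of_nonneg_right (le_abs_self C) (pow_pos hs.1 _).le).trans
            (mul_le_mul_of_nonneg_left h4 (abs_nonneg C))
        have h6 := mul_le_mul_of_nonneg_left (hbd s hs) hs.1.le
        calc _ ≤ |C| * s + s * M := add_le_add (h2.trans h5) h6
          _ = _ := by ring
      have h2 : ‖c 0‖ ≤ 0 := by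
        refine le_of_tendsto_of_tendsto (f := fun _ : ℝ => ‖c 0‖) tendsto_const_nhds
          (g := fun s : ℝ => (|C| + M) * s) (b := 𝓝[>] (0 : ℝ)) ?_ ?_
        · have : Filter.Tendsto (fun s : ℝ => (|C| + M) * s) (𝓝 0) (𝓝 ((|C| + M) * 0)) :=
            (continuous_const.mul continuous_id).tendsto 0
          rw [mul_zero] at this
          exact this.mono_left nhdsWithin_le_nhds
        · filter_upwards [Ioc_mem_nhdsGT (zero_lt_one' ℝ)] with s hs
          exact h1 s hs
      exact norm_le_zero_iff.1 h2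
    have h1 : ∀ s ∈ Ioc (0 : ℝ) 1, ‖∑ i ∈ Finset.range J, s ^ i • c (i + 1)‖ ≤ C * s ^ J := by
      intro s hs
      have h2 := h s hs
      rw [hdec, h0, zero_add, norm_smul, Real.norm_eq_abs, abs_of_pos hs.1, pow_succ] at h2
      have h3 : s * ‖∑ i ∈ Finset.range J, s ^ i • c (i + 1)‖ ≤ s * (C * s ^ J) :=
        h2.trans (le_of_eq (by ring))
      exact le_of_mul_le_mul_left h3 hs.1
    intro i hi
    rcases Nat.eq_zero_or_pos i with rfl | h3
    · exact h0
    · obtain ⟨j, rfl⟩ := Nat.exists_eq_add_of_le' h3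
      exact ih (fun i => c (i + 1)) C h1 j (by omega)

/-- `p` is polynomial of degree `< J` along rays. -/
def RayPoly (U : Set E) (J : ℕ) (p : E → F) : Prop :=
  ∀ q ∈ U, ∃ a : ℕ → F, ∀ s ∈ Ioc (0 : ℝ) 1, p (s • q) = ∑ i ∈ Finset.range J, s ^ i • a i

theorem tay_ray (J : ℕ) : ∀ {F : Type} [NormedAddCommGroup F] [NormedSpace ℝ F] (g : E → F)
    (q : E), ∃ a : ℕ → F, ∀ s : ℝ, tay J g (s • q) = ∑ i ∈ Finset.range J, s ^ i • a i := by
  induction J with
  | zero => intro F _ _ g q; exact ⟨fun _ => 0, fun s => by simp [tay]⟩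
  | succ J ih =>
    intro F _ _ g q
    obtain ⟨a, ha⟩ := ih (had1 g) q
    refine ⟨fun i => Nat.casesOn i (g 0) fun i => a i q, fun s => ?_⟩
    rw [Finset.sum_range_succ']
    simp only [tay, ha s, pow_zero, one_smul, map_smul, _root_.sum_apply, _root_.smul_apply]
    rw [Finset.smul_sum, add_comm]
    congr 1
    exact Finset.sum_congr rfl fun i _ => by rw [smul_smul, pow_succ']

/-- polynomials of degree `< J` have no remainder of order `J` -/
theorem rem_of_ray {R : ℝ} (hd : Dom U R) (J : ℕ) {p : E → F} (hp : Sm U p)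
    (hr : RayPoly U J p) : EqOn (rem J p) (fun _ => 0) U := by
  intro q hq
  obtain ⟨a, ha⟩ := hr q hq
  obtain ⟨b, hb⟩ := tay_ray J p q
  obtain ⟨C, hC, h1⟩ := hp J
  have hsq : ∀ s ∈ Ioc (0 : ℝ) 1, s • q ∈ U := fun s hs => hd.st q hq s ⟨hs.1.le, hs.2⟩
  have e : ∀ s ∈ Ioc (0 : ℝ) 1, P207N3H639.rem J p (s • q)
      = ∑ i ∈ Finset.range J, s ^ i • (a i - b i) := by
    intro s hs
    have h2 := tay_add_rem hd.op hd.st J hp _ (hsq s hs)
    have h3 : P207N3H639.rem J p (s • q) = p (s • q) - tay J p (s • q) := by rw [← h2]; abel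
    rw [h3, ha s hs, hb s, ← Finset.sum_sub_distrib]
    exact Finset.sum_congr rfl fun i _ => (smul_sub _ _ _).symm
  have h4 := poly_zero J (fun i => a i - b i) (C * ‖q‖ ^ J) (fun s hs => by
    rw [← e s hs]
    have h5 := rem_norm hd.op hd.st J hC h1 _ (hsq s hs)
    rw [norm_smul, Real.norm_eq_abs, abs_of_pos hs.1, mul_pow] at h5
    calc _ ≤ C * (s ^ J * ‖q‖ ^ J) := h5
      _ = _ := by ring)
  have h6 := e 1 ⟨zero_lt_one, le_rfl⟩
  rw [one_smul] at h6
  rw [h6]
  exact Finset.sum_eq_zero fun i hi => by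
    rw [show a i - b i = 0 from h4 i (Finset.mem_range.1 hi), smul_zero]

end rem

section expansion

variable [CompleteSpace E] [CompleteSpace F]

/-- **EL'**, second form: `P_n` has no remainder of order `J` and `A · (P_n ∘ K)` has a
decomposable remainder. -/
theorem LeafRec.expansion2 {𝒢 : Gr Y} {R : ℝ} {B : Set F} {R' : ℝ} {B' : Set E} {R'' : ℝ}
    {ab : E × F → E} {bb : E × F → F} {K : E → E} {g : Y → ℕ → E → F}
    (h : LeafRec 𝒢 U R B R' B' R'' ab bb K g) {σ : ℝ} (hc : Ctr U K (linA bb K) σ)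
    (hρ : 0 < ρ) (hρb : ρ ≤ 𝒢.b) {J : ℕ} (hJ : σ ^ J < ρ) {P : Y → ℕ → E → F}
    (hPs : ∀ y n, Sm U (P y n)) (hPf : ∀ y n, Fl U J (fun q => g y n q - P y n q))
    (hP : Str U 𝒢.P ρ P) (hPr : ∀ y n, EqOn (rem J (P y n)) (fun _ => 0) U)
    (hPd : Str U 𝒢.D ρ (fun y n => rem J (fun q => linA bb K q (P y n (K q))))) :
    Str U 𝒢.D ρ (fun y n q => g y n q - P y n q) ∧ Str U 𝒢.P ρ g := by
  have hb0 := 𝒢.b_pos
  have hb1 := 𝒢.b_lt
  have hU := h.dom.op
  have hgs : ∀ y n, Sm U (g y n) := fun y n k => by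
    obtain ⟨C, hC, h1⟩ := h.g_small y 1 hb1 k
    exact ⟨C, hC, by simpa using h1 n⟩
  have main : ∀ τ : ℝ, ρ ≤ τ → τ ≤ 𝒢.b → Str U 𝒢.P τ g →
      Str U 𝒢.D (max (𝒢.b * τ) ρ) (fun y n q => g y n q - P y n q) ∧
        Str U 𝒢.P (max (𝒢.b * τ) ρ) g := by
    intro τ hτ1 hτ2 hg
    have hτ0 : 0 < τ := hρ.trans_le hτ1
    have h1 := h.nonlin hτ0 hτ2 hg
    have hNs : ∀ y n, Sm U (fun q => g y (n + 1) q - linA bb K q (g y n (K q))) := fun y n =>
      (hgs y (n + 1)).sub hU (hc.Sm_T hU (hgs y n))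
    have h1' := Str.rem h.dom J (by positivity) h1 hNs
    have h2 := (h1'.mono_rate (le_max_left (𝒢.b * τ) ρ)).add hU
      (hPd.mono_rate (le_max_right (𝒢.b * τ) ρ))
    have h3 : Str U 𝒢.D (max (𝒢.b * τ) ρ) (fun y n q => g y n q - P y n q) := by
      refine hc.lin h.dom (J := J) (hρ.trans_le (le_max_right _ _))
        (hJ.trans_le (le_max_right _ _)) (fun y n => (hgs y n).sub hU (hPs y n)) hPf ?_
      refine h2.congr hU fun y n q hq => ?_
      -- the flat part `E_n`
      have hDs : ∀ m, Sm U (fun q => g y m q - P y m q) := fun m => (hgs y m).sub hU (hPs y m)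
      set D : ℕ → E → F := fun m q => g y m q - P y m q with hD
      have hEs : Sm U (fun q => D (n + 1) q - linA bb K q (D n (K q))) :=
        (hDs (n + 1)).sub hU (hc.Sm_T hU (hDs n))
      have hEf : Fl U J (fun q => D (n + 1) q - linA bb K q (D n (K q))) :=
        (hPf y (n + 1)).sub (hc.Fl_T h.dom (hPf y n))
      obtain ⟨C, _, hC⟩ := hEf
      have e1 := rem_eq_of_flat h.dom.op h.dom.st h.dom.bd hEs hC hq
      have hTP : Sm U (fun q => linA bb K q (P y n (K q))) := hc.Sm_T hU (hPs y n)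
      have hPT : Sm U (fun q => P y (n + 1) q + (-1 : ℝ) • linA bb K q (P y n (K q))) :=
        (hPs y (n + 1)).add hU (hTP.const_smul hU (-1))
      have e2 := rem_add h.dom.op h.dom.st J hEs hPT hq
      have e3 := rem_add h.dom.op h.dom.st J (hPs y (n + 1)) (hTP.const_smul hU (-1)) hq
      have e4 := rem_smul h.dom.op h.dom.st J (-1) hTP hq
      have e5 : (fun x => (D (n + 1) x - linA bb K x (D n (K x)))
          + (P y (n + 1) x + (-1 : ℝ) • linA bb K x (P y n (K x))))
          = fun q => g y (n + 1) q - linA bb K q (g y n (K q)) := by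
        funext x
        simp only [hD, map_sub, neg_smul, one_smul]
        abel
      rw [e5] at e2
      simp only at e2 e3 e4
      rw [e1, e3, e4, hPr y (n + 1) hq] at e2
      show P207N3H639.rem J (fun q => g y (n + 1) q - linA bb K q (g y n (K q))) q
        + P207N3H639.rem J (fun q => linA bb K q (P y n (K q))) q
        = D (n + 1) q - linA bb K q (D n (K q))
      rw [e2]
      simp
    refine ⟨h3, ?_⟩
    have h4 := (h3.mono 𝒢.D_le).add hU (hP.mono_rate (le_max_right (𝒢.b * τ) ρ))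
    exact h4.congr hU fun y n q _ => by simp
  have iter : ∀ m : ℕ, Str U 𝒢.P (max (𝒢.b ^ (m + 1)) ρ) g := by
    intro m
    induction m with
    | zero => exact Str.of_oR (h.g_small.mono (by simp))
    | succ m ih =>
      have hle : max (𝒢.b ^ (m + 1)) ρ ≤ 𝒢.b := by
        refine max_le ?_ hρb
        calc 𝒢.b ^ (m + 1) ≤ 𝒢.b ^ 1 := pow_le_pow_of_le_one hb0.le hb1.le (by omega)
          _ = 𝒢.b := pow_one _
      refine ((main _ (le_max_right _ _) hle ih).2).mono_rate ?_
      rw [mul_max_of_nonneg _ _ hb0.le]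
      refine max_le (max_le ?_ ?_) (le_max_right _ _)
      · rw [← pow_succ']; exact le_max_left _ _
      · exact (mul_le_of_le_one_left hρ.le hb1.le).trans (le_max_right _ _)
  obtain ⟨m, hm⟩ := exists_pow_lt_of_lt_one hρ hb1
  have h1 : Str U 𝒢.P ρ g := by
    have := iter m
    have h2 : 𝒢.b ^ (m + 1) ≤ ρ := by
      rw [pow_succ]
      exact (mul_le_of_le_one_right (by positivity) hb1.le).trans hm.le
    rwa [max_eq_right h2] at this
  have h2 := main ρ le_rfl hρb h1
  rw [max_eq_right (mul_le_of_le_one_left hρ.le hb1.le)] at h2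
  exact h2

end expansion

end P207N3H639
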