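import Mathlib
import Vale.Agent.P207.N3.H639.Exp
import Vale.Agent.P207.N3.H547.Rep

/-!
# P207, line N3, (G5): the expansion of the leaves in hatted jets, in the graded data `grH`
-/

open Set Topology MeasureTheory MvPolynomial Metric
open Vale.Agent.P207.N3.H70 Vale.Agent.P207.N3.H547

noncomputable section

namespace P207N3H639

variable {Y : Type*}
variable {E : Type} [NormedAddCommGroup E] [NormedSpace ℝ E]
variable {F : Type} [NormedAddCommGroup F] [NormedSpace ℝ F]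
variable {U : Set E} {ρ : ℝ}
variable {J : Type} {θ : J → ℝ} {Ψ : J → MvPolynomial J ℝ} {v0 : Y → J → ℝ} {b : ℝ} {hb0 : 0 < b}
  {hb1 : b < 1}

/-- Exactly structured: general coefficient family. -/
theorem HatDyn.memI (h : HatDyn θ Ψ) {I : ℝ → Set (Y → ℝ)} {o : ℕ} {l : ℝ} (hl : l ≠ 0)
    (hI : ∀ f ∈ Wt θ l, f ∈ Hi J o → ev v0 f ∈ I l) {f : MvPolynomial J ℝ} (hf : f ∈ Wt θ l)
    (hfo : f ∈ Hi J o) {ψ : E → F} (hψ : Sm U ψ) :
    (fun (y : Y) n q => (eval ((pmap Ψ)^[n] (v0 y)) f) • ψ q) ∈ StrT U I := by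
  obtain ⟨N, g, _, _, h1, h2, h3⟩ := P207N3H639.iter_poly h.wt h.hi h.ge hl hf
  have e : (fun (y : Y) n q => (eval ((pmap Ψ)^[n] (v0 y)) f) • ψ q)
      = ∑ i ∈ Finset.range N, trm (ev v0 (g i)) l (Qp l i) ψ := by
    funext y n q
    rw [h3, Finset.sum_smul]
    simp only [Finset.sum_apply, trm, ev]
    exact Finset.sum_congr rfl fun i _ => by ring_nf
  rw [e]
  exact Submodule.sum_mem _ fun i _ => trm_mem (hI _ (h1 i) (h2 o hfo i)) hψ

theorem X_wt (θ : J → ℝ) (j : J) : (X j : MvPolynomial J ℝ) ∈ Wt θ (θ j) := by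
  rw [mem_Wt]
  intro α hα
  rw [support_X, Finset.mem_singleton] at hα
  rw [hα, mult_single, pow_one]

theorem X_hi (j : J) : (X j : MvPolynomial J ℝ) ∈ Hi J 1 := by
  rw [mem_Hi]
  intro α hα
  rw [support_X, Finset.mem_singleton] at hα
  rw [hα, Finsupp.degree_single]

/-- a single hatted jet times a fixed function -/
theorem HatDyn.var_P (h : HatDyn θ Ψ) (hθb : ∀ j, |θ j| ≤ b) (j : J) {ψ : E → F} (hψ : Sm U ψ) :
    (fun (y : Y) n q => ((pmap Ψ)^[n] (v0 y) j) • ψ q) ∈ StrT U (grH θ v0 b hb0 hb1).P := by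
  have := h.memI (v0 := v0) (I := (grH θ v0 b hb0 hb1).P) (o := 1) (h.ne j)
    (fun f hf hf1 => ⟨hθb j, f, fun α hα => ⟨mem_Wt.1 hf α hα, mem_Hi.1 hf1 α hα⟩,
      fun y => rfl⟩) (X_wt θ j) (X_hi j) hψ
  simpa only [eval_X] using this

theorem HatDyn.var_oR (hU : IsOpen U) (h : HatDyn θ Ψ) (hρ : 0 ≤ ρ) {j : J} (hj : |θ j| ≤ ρ)
    {ψ : E → F} (hψ : Sm U ψ) :
    oR U ρ (fun (y : Y) n q => ((pmap Ψ)^[n] (v0 y) j) • ψ q) := by
  have := h.memI (v0 := v0) (I := fun l => {c | |l| ≤ ρ}) (o := 1) (h.ne j)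
    (fun f hf hf1 => hj) (X_wt θ j) (X_hi j) hψ
  simp only [eval_X] at this
  exact StrT.oR hU hρ (fun l c hc => hc) this

section fin

variable [Fintype J] [DecidableEq J]

theorem HatDyn.vecH (h : HatDyn θ Ψ) (hθb : ∀ j, |θ j| ≤ b) :
    (fun (y : Y) n (_ : E) => (pmap Ψ)^[n] (v0 y)) ∈ StrT U (grH θ v0 b hb0 hb1).P := by
  have e : (fun (y : Y) n (_ : E) => (pmap Ψ)^[n] (v0 y))
      = ∑ j : J, (fun (y : Y) n (_ : E) =>
        ((pmap Ψ)^[n] (v0 y) j) • (Pi.single j (1 : ℝ) : J → ℝ)) := by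
    funext y n q
    simp only [Finset.sum_apply]
    funext i
    simp [Finset.sum_apply, Pi.single_apply]
  rw [e]
  exact Submodule.sum_mem _ fun j _ => h.var_P hθb j (Sm.const _)

theorem Str.sum (hU : IsOpen U) {I : ℝ → Set (Y → ℝ)} (hρ : 0 ≤ ρ) {ι : Type*} (s : Finset ι)
    {f : ι → Y → ℕ → E → F} (hf : ∀ i ∈ s, Str U I ρ (f i)) :
    Str U I ρ (fun y n q => ∑ i ∈ s, f i y n q) := by
  classical
  induction s using Finset.induction_on with
  | empty =>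
    refine (Str.of_oR (oR.zero (F := F) hρ)).congr hU fun y n q _ => ?_
    simp
  | insert a s ha ih =>
    have h1 := (hf a (Finset.mem_insert_self a s)).add hU
      (ih fun i hi => hf i (Finset.mem_insert_of_mem hi))
    exact h1.congr hU fun y n q _ => by simp only [Finset.sum_insert ha]

variable [CompleteSpace F]

theorem rem_sum {R : ℝ} (hd : Dom U R) (n : ℕ) {ι : Type*} (s : Finset ι) {c : ι → ℝ}
    {f : ι → E → F} (hf : ∀ i ∈ s, Sm U (f i)) :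
    EqOn (rem n (fun q => ∑ i ∈ s, c i • f i q)) (fun q => ∑ i ∈ s, c i • rem n (f i) q) U ∧
      Sm U (fun q => ∑ i ∈ s, c i • f i q) := by
  classical
  induction s using Finset.induction_on with
  | empty =>
    refine ⟨fun q hq => ?_, by simpa using Sm.zero⟩
    have h1 := rem_smul hd.op hd.st n 0 (Sm.zero (U := U) (F := F)) hq
    simp only [zero_smul] at h1
    simpa using h1
  | insert a s ha ih =>
    obtain ⟨h1, h2⟩ := ih fun i hi => hf i (Finset.mem_insert_of_mem hi)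
    have ha' := hf a (Finset.mem_insert_self a s)
    simp only [Finset.sum_insert ha]
    refine ⟨fun q hq => ?_, (ha'.const_smul hd.op _).add hd.op h2⟩
    have h3 := rem_add hd.op hd.st n (ha'.const_smul hd.op (c a)) h2 hq
    have h4 := rem_smul hd.op hd.st n (c a) ha' hq
    simp only at h3 h4
    rw [h3, h4, h1 hq]

variable [CompleteSpace E]

/-- **The expansion in hatted jets.** -/
theorem hat_expansion (hdyn : HatDyn θ Ψ) (hθb : ∀ j, |θ j| ≤ b)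
    {R : ℝ} {B : Set F} {R' : ℝ} {B' : Set E} {R'' : ℝ}
    {ab : E × F → E} {bb : E × F → F} {K : E → E} {g : Y → ℕ → E → F}
    (h : LeafRec (grH θ v0 b hb0 hb1) U R B R' B' R'' ab bb K g) {σ : ℝ}
    (hc : Ctr U K (linA bb K) σ)
    (hρ : 0 < ρ) (hρb : ρ ≤ b) {n₀ : ℕ} (hJ : σ ^ n₀ < ρ)
    (gmf : J → E → F) (hgs : ∀ i, Sm U (gmf i)) (hgr : ∀ i, EqOn (rem n₀ (gmf i)) (fun _ => 0) U)
    (r : J → (J → ℝ) → ℝ) (hr : ∀ i, ContDiff ℝ (⊤ : ℕ∞) (r i)) (hr0 : ∀ i, r i 0 = 0)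
    (hr1 : ∀ i, fderiv ℝ (r i) 0 = 0) (hbd : ∃ R₀ : ℝ, ∀ y, ‖v0 y‖ ≤ R₀)
    (hFl : ∀ y n, Fl U n₀ (fun q => g y n q
      - ∑ i, ((pmap Ψ)^[n] (v0 y) i - r i ((pmap Ψ)^[n] (v0 y))) • gmf i q))
    (hlin : ∀ i, EqOn (rem n₀ (fun q => linA bb K q (gmf i (K q)))) (fun _ => 0) U ∨ |θ i| ≤ ρ) :
    Str U (grH θ v0 b hb0 hb1).D ρ
      (fun y n q => g y n q - ∑ i, ((pmap Ψ)^[n] (v0 y) i) • gmf i q) := by
  rcases isEmpty_or_nonempty Y with hY | hY
  · exact ⟨0, (StrT U _).zero_mem, fun y => (hY.false y).elim⟩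
  have hU := h.dom.op
  obtain ⟨R₀, hR₀⟩ := hbd
  obtain ⟨Rb, hRb, hRb'⟩ := hdyn.bounded (fun j => (hθb j).trans_lt hb1) R₀
  have hBd : Dom (ball (0 : J → ℝ) Rb) Rb := Dom.ball hRb
  -- the vector of the hatted jets
  have w1 : (fun (y : Y) n (_ : E) => (pmap Ψ)^[n] (v0 y)) ∈ StrT U (grH θ v0 b hb0 hb1).P :=
    hdyn.vecH hθb
  have w2 : Str U (grH θ v0 b hb0 hb1).P ρ (fun (y : Y) n (_ : E) => (pmap Ψ)^[n] (v0 y)) :=
    Str.of_mem hρ.le w1
  have w3 : oR U b (fun (y : Y) n (_ : E) => (pmap Ψ)^[n] (v0 y)) :=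
    StrT.oR hU hb0.le (fun l c hc => hc.1) w1
  have w4 : ∀ (y : Y) (n : ℕ), ∀ q ∈ U, (pmap Ψ)^[n] (v0 y) ∈ ball (0 : J → ℝ) Rb :=
    fun y n q _ => by rw [mem_ball_zero_iff]; exact hRb' _ (hR₀ y) n
  -- `r_i (w_n)`
  have hrs : ∀ i, Sm (ball (0 : J → ℝ) Rb) (r i) := fun i => Sm.of_contDiff (hr i)
  have r1 : ∀ i, Str U (grH θ v0 b hb0 hb1).D ρ
      (fun (y : Y) n (_ : E) => r i ((pmap Ψ)^[n] (v0 y))) := fun i =>
    (Str.flat2 (grH θ v0 b hb0 hb1) hU h.dom.bd hBd.op hBd.bd hBd.st hBd.zero hρ hρb w2 w3 w4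
      (hrs i) (hr0 i) (hr1 i)).mono_rate (mul_le_of_le_one_left hρ.le hb1.le)
  have r2 : ∀ i, oR U b (fun (y : Y) n (_ : E) => r i ((pmap Ψ)^[n] (v0 y))) := fun i =>
    (Str.flat1 (grH θ v0 b hb0 hb1) hU h.dom.bd hBd.op hBd.bd hBd.st hρ (hρb.trans hb1.le) w2 w3
      w4 (hrs i) (hr0 i) hY).2
  -- times a fixed function
  have r3 : ∀ i, ∀ {ψ : E → F}, Sm U ψ → Str U (grH θ v0 b hb0 hb1).D ρ
      (fun (y : Y) n q => r i ((pmap Ψ)^[n] (v0 y)) • ψ q) := by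
    intro i ψ hψ
    have h1 := Str.bilin hU (grH θ v0 b hb0 hb1).AD
      ((ContinuousLinearMap.lsmul ℝ ℝ : ℝ →L[ℝ] F →L[ℝ] F).flip) hρ.le hρ.le
      (hρb.trans hb1.le) hb0.le (Sm.strA (grH θ v0 b hb0 hb1) hρ.le hψ) (hψ.toBS.toOR)
      (r1 i) (r2 i)
    refine (h1.mono_rate ?_).congr hU fun y n q _ => by simp
    rw [one_mul]
    exact max_le le_rfl (mul_le_of_le_one_right hρ.le hb1.le)
  -- `P`
  set P : Y → ℕ → E → F := fun y n q =>
    ∑ i, ((pmap Ψ)^[n] (v0 y) i - r i ((pmap Ψ)^[n] (v0 y))) • gmf i q with hPdef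
  have p1 : ∀ y n, Sm U (P y n) := fun y n => (rem_sum h.dom n₀ Finset.univ fun i _ => hgs i).2
  have p2 : Str U (grH θ v0 b hb0 hb1).P ρ P := by
    refine Str.sum hU hρ.le Finset.univ fun i _ => ?_
    have h1 : Str U (grH θ v0 b hb0 hb1).P ρ
        (fun (y : Y) n q => ((pmap Ψ)^[n] (v0 y) i) • gmf i q) :=
      Str.of_mem hρ.le (hdyn.var_P hθb i (hgs i))
    have h2 := (r3 i (hgs i)).mono (grH θ v0 b hb0 hb1).D_le
    exact (h1.sub hU h2).congr hU fun y n q _ => by simp only [sub_smul]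
  have p3 : ∀ y n, EqOn (rem n₀ (P y n)) (fun _ => 0) U := by
    intro y n q hq
    rw [(rem_sum h.dom n₀ Finset.univ fun i _ => hgs i).1 hq]
    exact Finset.sum_eq_zero fun i _ => by rw [hgr i hq, smul_zero]
  have hAs : ∀ i, Sm U (fun q => linA bb K q (gmf i (K q))) := fun i => hc.Sm_T hU (hgs i)
  have p4 : Str U (grH θ v0 b hb0 hb1).D ρ
      (fun y n => rem n₀ (fun q => linA bb K q (P y n (K q)))) := by
    have h1 : Str U (grH θ v0 b hb0 hb1).D ρ (fun y n q =>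
        ∑ i, ((pmap Ψ)^[n] (v0 y) i - r i ((pmap Ψ)^[n] (v0 y)))
          • rem n₀ (fun q => linA bb K q (gmf i (K q))) q) := by
      refine Str.sum hU hρ.le Finset.univ fun i _ => ?_
      rcases hlin i with h2 | h2
      · refine (Str.of_oR (oR.zero (F := F) hρ.le)).congr hU fun y n q hq => ?_
        show (0 : F) = (_ : ℝ) • rem n₀ (fun q => linA bb K q (gmf i (K q))) q
        rw [h2 hq, smul_zero]
      · have hχ : Sm U (rem n₀ (fun q => linA bb K q (gmf i (K q)))) :=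
          Sm.rem h.dom.op h.dom.st h.dom.bd n₀ (hAs i)
        have h3 := Str.of_oR (I := (grH θ v0 b hb0 hb1).D)
          (hdyn.var_oR (Y := Y) (v0 := v0) hU hρ.le h2 hχ)
        exact (h3.sub hU (r3 i hχ)).congr hU fun y n q _ => by simp only [sub_smul]
    refine h1.congr hU fun y n q hq => ?_
    have h2 := (rem_sum h.dom n₀ Finset.univ (c := fun i =>
      (pmap Ψ)^[n] (v0 y) i - r i ((pmap Ψ)^[n] (v0 y))) fun i _ => hAs i).1 hq
    have h3 : (fun q => linA bb K q (P y n (K q))) = fun q => ∑ i,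
        ((pmap Ψ)^[n] (v0 y) i - r i ((pmap Ψ)^[n] (v0 y))) • linA bb K q (gmf i (K q)) := by
      funext q
      simp only [hPdef, map_sum, map_smul]
    rw [h3, h2]
  have key := (h.expansion2 hc hρ hρb hJ p1 hFl p2 p3 p4).1
  have key2 : Str U (grH θ v0 b hb0 hb1).D ρ
      (fun y n q => ∑ i, r i ((pmap Ψ)^[n] (v0 y)) • gmf i q) :=
    Str.sum hU hρ.le Finset.univ fun i _ => r3 i (hgs i)
  refine (key.sub hU key2).congr hU fun y n q _ => ?_
  simp only [hPdef, sub_smul, Finset.sum_sub_distrib]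
  abel

end fin

end P207N3H639
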