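import Mathlib
import Vale.Agent.P207.N3.H639.HatExp

/-!
# P207, line N3, (G5): restriction of the dynamics of the hatted jets to a closed set of variables
-/

open Set Topology MeasureTheory MvPolynomial Metric
open Vale.Agent.P207.N3.H70 Vale.Agent.P207.N3.H547

noncomputable section

namespace P207N3H639

variable {J G : Type} {θ : J → ℝ} {Ψ : J → MvPolynomial J ℝ} {ι : G → J}

theorem mult_mapDomain (hι : Function.Injective ι) (α : G →₀ ℕ) :
    mult θ (Finsupp.mapDomain ι α) = mult (fun g => θ (ι g)) α := by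
  rw [mult, mult, Finsupp.prod_mapDomain_index_inj hι]

theorem degree_mapDomain' (hι : Function.Injective ι) (α : G →₀ ℕ) :
    (Finsupp.mapDomain ι α).degree = α.degree := by
  have := Finsupp.sum_mapDomain_index_inj (f := ι) (s := α) (h := fun _ k => k) hι
  simpa only [Finsupp.sum, Finsupp.degree_apply] using this

/-- the restricted polynomial map -/
theorem exists_restr (hι : Function.Injective ι)
    (hcl : ∀ g, Ψ (ι g) ∈ supported ℝ (range ι)) :
    ∃ Ψ' : G → MvPolynomial G ℝ, ∀ g, rename ι (Ψ' g) = Ψ (ι g) := by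
  have : ∀ g, ∃ p : MvPolynomial G ℝ, rename ι p = Ψ (ι g) := fun g =>
    exists_rename_eq_of_vars_subset_range _ ι hι (mem_supported.1 (hcl g))
  choose Ψ' h using this
  exact ⟨Ψ', h⟩

theorem CC_rename {Ψ' : G → MvPolynomial G ℝ} (h : ∀ g, rename ι (Ψ' g) = Ψ (ι g))
    (p : MvPolynomial G ℝ) : CC Ψ (rename ι p) = rename ι (CC Ψ' p) := by
  induction p using MvPolynomial.induction_on with
  | C a => simp [CC]
  | add p q hp hq => rw [map_add, map_add, map_add, map_add, hp, hq]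
  | mul_X p g hp =>
    rw [map_mul, map_mul, map_mul, map_mul, hp, rename_X, CC, CC, aeval_X, aeval_X, h]

/-- **Restriction of the dynamics.** -/
theorem HatDyn.restrict (h : HatDyn θ Ψ) (hι : Function.Injective ι)
    {Ψ' : G → MvPolynomial G ℝ} (h' : ∀ g, rename ι (Ψ' g) = Ψ (ι g)) :
    HatDyn (fun g => θ (ι g)) Ψ' := by
  classical
  refine ⟨fun g => h.ne _, fun g => ?_, fun g => ?_, fun g => ?_⟩
  · rw [mem_Wt]
    intro α hα
    have h1 : Finsupp.mapDomain ι α ∈ (Ψ (ι g)).support := by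
      rw [← h' g, support_rename_of_injective hι]
      exact Finset.mem_image_of_mem _ hα
    rw [← mult_mapDomain hι]
    exact mem_Wt.1 (h.wt (ι g)) _ h1
  · rw [mem_Hi]
    intro α hα
    have h1 : Finsupp.mapDomain ι α ∈ (Ψ (ι g)).support := by
      rw [← h' g, support_rename_of_injective hι]
      exact Finset.mem_image_of_mem _ hα
    rw [← degree_mapDomain' hι]
    exact mem_Hi.1 (h.hi (ι g)) _ h1
  · obtain ⟨N, hN⟩ := (mem_GE (CC Ψ)).1 (h.ge (ι g))
    refine (mem_GE (CC Ψ')).2 ⟨N, ?_⟩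
    have key : ∀ (n : ℕ) (p : MvPolynomial G ℝ),
        (dl (CC Ψ) (θ (ι g)) ^ n) (rename ι p) = rename ι ((dl (CC Ψ') (θ (ι g)) ^ n) p) := by
      intro n
      induction n with
      | zero => intro p; rfl
      | succ n ih =>
        intro p
        rw [dl_pow_succ, dl_pow_succ, ← ih]
        congr 1
        rw [dl_apply, dl_apply, map_sub, map_smul, CC_rename h']
    have h1 := key N (X g)
    rw [rename_X, hN] at h1
    exact rename_injective ι hι (by rw [← h1, map_zero])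

theorem pmap_restrict {Ψ' : G → MvPolynomial G ℝ} (h' : ∀ g, rename ι (Ψ' g) = Ψ (ι g))
    (n : ℕ) (v : J → ℝ) : (fun g => (pmap Ψ)^[n] v (ι g)) = (pmap Ψ')^[n] (fun g => v (ι g)) := by
  induction n generalizing v with
  | zero => rfl
  | succ n ih =>
    rw [Function.iterate_succ_apply, Function.iterate_succ_apply, ih (pmap Ψ v)]
    congr 1
    funext g
    show eval v (Ψ (ι g)) = eval (fun g => v (ι g)) (Ψ' g)
    rw [← h' g, eval_rename]
    rfl

/-- extension by zero -/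
def extL [Fintype G] [Fintype J] [DecidableEq J] (ι : G → J) : (G → ℝ) →L[ℝ] (J → ℝ) :=
  ∑ g, (ContinuousLinearMap.proj g : (G → ℝ) →L[ℝ] ℝ).smulRight (Pi.single (ι g) (1 : ℝ))

theorem extL_apply [Fintype G] [Fintype J] [DecidableEq J] (hι : Function.Injective ι)
    (w : G → ℝ) (g : G) : extL ι w (ι g) = w g := by
  classical
  simp only [extL, _root_.sum_apply, ContinuousLinearMap.smulRight_apply,
    ContinuousLinearMap.proj_apply, Finset.sum_apply, Pi.smul_apply, smul_eq_mul]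
  rw [Finset.sum_eq_single g]
  · simp
  · intro g' _ hg'
    rw [Pi.single_apply, if_neg (fun h => hg' (hι h).symm), mul_zero]
  · intro h
    exact absurd (Finset.mem_univ g) h

theorem isFlat_two_zero [Fintype J] {K : ℕ} (hK : 1 ≤ K) {f : (J → ℝ) → ℝ} (hf : IsFlat K f) :
    f 0 = 0 := by
  obtain ⟨_, g, _, h⟩ := hf
  have := h 0 0
  rw [smul_zero, zero_pow (by omega), zero_mul] at this
  exact this

theorem isFlat_two_fderiv [Fintype J] {K : ℕ} (hK : 2 ≤ K) {f : (J → ℝ) → ℝ} (hf : IsFlat K f) :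
    fderiv ℝ f 0 = 0 := by
  obtain ⟨hs, g, hg, h⟩ := hf
  have hd : DifferentiableAt ℝ f 0 := (hs.differentiable (by simp)) 0
  ext v
  have h1 : HasDerivAt (fun s : ℝ => f (s • v)) (fderiv ℝ f 0 v) 0 := by
    have h2 : HasDerivAt (fun s : ℝ => s • v) v 0 := by
      simpa using (hasDerivAt_id (0 : ℝ)).smul_const v
    have h3 : HasFDerivAt f (fderiv ℝ f 0) ((0 : ℝ) • v) := by
      rw [zero_smul]; exact hd.hasFDerivAt
    exact h3.comp_hasDerivAt 0 h2
  have h4 : HasDerivAt (fun s : ℝ => s ^ K * g (s, v)) 0 0 := by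
    have h5 : DifferentiableAt ℝ (fun s : ℝ => g (s, v)) 0 := by
      have h6 : DifferentiableAt ℝ g ((0 : ℝ), v) := (hg.differentiable (by simp)) _
      exact h6.comp (0 : ℝ) (by fun_prop)
    have h7 := (hasDerivAt_pow K (0 : ℝ)).mul h5.hasDerivAt
    refine h7.congr_deriv ?_
    rw [zero_pow (by omega : K - 1 ≠ 0), zero_pow (by omega : K ≠ 0)]
    simp
  have h8 : (fun s : ℝ => f (s • v)) = fun s : ℝ => s ^ K * g (s, v) := funext fun s => h s v
  rw [h8] at h1
  rw [h1.unique h4]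
  rfl

variable [Fintype J] [DecidableEq J] [Fintype G]

/-- the restricted correction -/
def rG (R : J → (J → ℝ) → ℝ) (ι : G → J) (g : G) (w : G → ℝ) : ℝ := R (ι g) (extL ι w)

theorem rG_eq (hι : Function.Injective ι) {R : J → (J → ℝ) → ℝ} {D : J → Set J}
    (hR : ∀ i, DependsOn (R i) (D i)) (hD : ∀ g, D (ι g) ⊆ range ι) (v : J → ℝ) (g : G) :
    rG R ι g (fun g => v (ι g)) = R (ι g) v := by
  refine hR (ι g) fun j hj => ?_
  obtain ⟨g', rfl⟩ := hD g hj
  exact extL_apply hι _ g'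

theorem rG_smooth {R : J → (J → ℝ) → ℝ} {g : G} (hR : ContDiff ℝ (⊤ : ℕ∞) (R (ι g))) :
    ContDiff ℝ (⊤ : ℕ∞) (rG R ι g) := hR.comp (extL ι).contDiff

theorem rG_zero {R : J → (J → ℝ) → ℝ} {g : G} (hR : R (ι g) 0 = 0) : rG R ι g 0 = 0 := by
  simp [rG, hR]

theorem rG_fderiv {R : J → (J → ℝ) → ℝ} {g : G} (hR : ContDiff ℝ (⊤ : ℕ∞) (R (ι g)))
    (h0 : fderiv ℝ (R (ι g)) 0 = 0) : fderiv ℝ (rG R ι g) 0 = 0 := by
  have h1 : DifferentiableAt ℝ (R (ι g)) (extL ι 0) := (hR.differentiable (by simp)) _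
  have h2 := (h1.hasFDerivAt.comp (0 : G → ℝ) (extL ι).hasFDerivAt).fderiv
  rw [map_zero, h0, ContinuousLinearMap.zero_comp] at h2
  exact h2

/-- **The T-part of 70's normal form**: closed set of variables `ι : G → J`. -/
theorem nform_restrict {S : TriSys J} (N : NForm S) (hι : Function.Injective ι)
    (hℓ : ∀ g k, S.ℓ (ι g) k ≠ 0 → k ∈ range ι) (hD : ∀ g, S.D (ι g) ⊆ range ι)
    (hord : ∀ g, ι g ∈ S.base ∨ 2 ≤ S.ord (ι g)) :
    ∃ (Ψ' : G → MvPolynomial G ℝ) (r : G → (G → ℝ) → ℝ), HatDyn (fun g => S.θ (ι g)) Ψ' ∧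
      (∀ g, ContDiff ℝ (⊤ : ℕ∞) (r g)) ∧ (∀ g, r g 0 = 0) ∧ (∀ g, fderiv ℝ (r g) 0 = 0) ∧
      (∀ (n : ℕ) (v : J → ℝ), (fun g => (pmap (S.Psi N.res))^[n] v (ι g))
        = (pmap Ψ')^[n] (fun g => v (ι g))) ∧
      ∀ (v : J → ℝ) (g : G), r g (fun g => v (ι g)) = N.R (ι g) v := by
  have hcl : ∀ g, S.Psi N.res (ι g) ∈ supported ℝ (range ι) := by
    intro g
    rw [TriSys.Psi]
    refine Subalgebra.add_mem _ (Subalgebra.add_mem _ (Subalgebra.smul_mem _ ?_ _)
      (Subalgebra.sum_mem _ fun k _ => ?_)) (supported_mono (hD g) (N.res_supp (ι g)))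
    · exact Algebra.subset_adjoin ⟨ι g, ⟨g, rfl⟩, rfl⟩
    · by_cases h0 : S.ℓ (ι g) k = 0
      · rw [h0, zero_mul]
        exact Subalgebra.zero_mem _
      · exact Subalgebra.mul_mem _ (supported_mono (fun x hx => hD g hx.2) (S.ℓ_supp (ι g) k))
          (Algebra.subset_adjoin ⟨k, hℓ g k h0, rfl⟩)
  obtain ⟨Ψ', h'⟩ := exists_restr hι hcl
  have hR0 : ∀ g, N.R (ι g) 0 = 0 ∧ fderiv ℝ (N.R (ι g)) 0 = 0 := by
    intro g
    rcases hord g with h | h
    · rw [N.R_base _ h]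
      exact ⟨rfl, by
        have : (0 : (J → ℝ) → ℝ) = fun _ => 0 := rfl
        rw [this, fderiv_fun_const]
        rfl⟩
    · exact ⟨isFlat_two_zero (by omega) (N.R_flat (ι g)), isFlat_two_fderiv h (N.R_flat (ι g))⟩
  exact ⟨Ψ', rG N.R ι, (HatDyn.of_nform N).restrict hι h', fun g => rG_smooth (N.R_flat (ι g)).1,
    fun g => rG_zero (hR0 g).1, fun g => rG_fderiv (N.R_flat (ι g)).1 (hR0 g).2,
    fun n v => pmap_restrict h' n v, fun v g => rG_eq hι N.R_dep hD v g⟩

end P207N3H639
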