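import Vale.Agent.P207.N3.H639.HatExp
import Vale.Agent.P207.N3.H639.Restr
import Vale.Agent.P207.N3.H547.FeedT
import Vale.Agent.P207.N3.H629.Tri

/-!
# P207, line N3, P17 (ii): the expansion of the leaves of a half in corrected jets
-/

open Set Topology MeasureTheory MvPolynomial Metric Filter
open Vale.Agent.P207.N3 Vale.Agent.P207.N3.H70 Vale.Agent.P207.N3.H547 Vale.Agent.P207.N3.H578
open Vale.Agent.P207.N3.H254 Vale.Agent.P207.N3.H629 Vale.Agent.P207.N3.H790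
open scoped Gradient ContDiff

noncomputable section

namespace P207N3H639

variable {H : Half} {κ ℓ : ℝ} {K : ℕ}

/-- a label of length one -/
theorem eq_e_of_len {a : ℕ × ℕ} (h : len a = 1) : ∃ i, a = e i := by
  unfold len at h
  rcases Nat.lt_or_ge a.1 1 with h4 | h4
  · exact ⟨1, by rw [e_one]; exact Prod.ext (by simp; omega) (by simp; omega)⟩
  · exact ⟨0, by rw [e_zero]; exact Prod.ext (by simp; omega) (by simp; omega)⟩

/-- the normal form of the `T`-part of a feed -/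
theorem feed_restrict (F : Feed H κ ℓ K) (hK : 1 ≤ K) :
    ∃ (Ψ' : GT F → MvPolynomial (GT F) ℝ) (r : GT F → (GT F → ℝ) → ℝ),
      HatDyn (GT.th F) Ψ' ∧
      (∀ g, ContDiff ℝ (⊤ : ℕ∞) (r g)) ∧ (∀ g, r g 0 = 0) ∧ (∀ g, fderiv ℝ (r g) 0 = 0) ∧
      (∀ y ∈ ball (0 : E2) F.rad, ∀ n, (pmap Ψ')^[n] (tv F y) = tv F (H.M^[n] y)) ∧
      ∀ y g, F.raw y g.ι = tv F y g - r g (tv F y) := by
  obtain ⟨Ψ', r, h1, h2, h3, h4, h5, h6⟩ := nform_restrict F.nf (ι := GT.ι (F := F)) GT.ι_inj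
    (fun g k hk => by
      obtain ⟨b, hb⟩ := F.ℓ_inl g.ι g.ix g.lab k hk
      exact GT.mem_range hb)
    (fun g k hk => by
      have hg := (F.lab_inl g.ix).1 ⟨g.ι, g.lab⟩
      by_cases h2 : 2 ≤ len g.ix
      · obtain ⟨b, hb, -⟩ := F.D_inl g.ι g.ix g.lab h2 k hk
        exact GT.mem_range hb
      · obtain ⟨i, hi⟩ := eq_e_of_len (a := g.ix) (by omega)
        obtain ⟨b, hb⟩ := F.D_base i g.ι (by rw [g.lab, hi]) k hk
        exact GT.mem_range hb)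
    (fun g => by
      have hg := (F.lab_inl g.ix).1 ⟨g.ι, g.lab⟩
      by_cases h2 : 2 ≤ len g.ix
      · exact Or.inr (F.ord_inl g.ι g.ix g.lab h2)
      · obtain ⟨i, hi⟩ := eq_e_of_len (a := g.ix) (by omega)
        exact Or.inl (F.base i g.ι (by rw [g.lab, hi])))
  refine ⟨Ψ', r, h1, h2, h3, h4, fun y hy n => ?_, fun y g => ?_⟩
  · have e1 := h5 n (F.v0 y)
    have e2 := F.v0_orbit hK hy n
    rw [show F.psi = pmap (F.S.Psi F.nf.res) from rfl] at e2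
    rw [← e2] at e1
    exact e1.symm
  · rw [F.raw_eq, ← h6 (F.v0 y) g]
    rfl

/-- **hStr of a half, from its inputs.** -/
theorem hStr_core (F : Feed H κ ℓ K) (hK : 1 ≤ K) (hℓ : 0 ≤ ℓ) (hκ : ℓ ≤ κ) {b : ℝ} (hb0 : 0 < b)
    (hb1 : b < 1) (hθb : Real.exp (-ℓ) ≤ b) {ε : ℝ} (hε : ε ≤ F.rad) (hεr : ε < H.r)
    {U : Set E2} {R R' R'' : ℝ} {B B' : Set E2} {Kf : E2 → E2} {ab : E2 × E2 → E2}
    (hrec : LeafRec (grH (GT.th F) (fun y : ball (0 : E2) ε => tv F y) b hb0 hb1) U R B R' B' R''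
      ab H.b Kf (fun y n => ∇ (H.S (H.M^[n] (y : E2))))) {σ : ℝ} (hc : Ctr U Kf (linA H.b Kf) σ)
    {ρ : ℝ} (hρ : 0 < ρ) (hρb : ρ ≤ b) (hJ : σ ^ (K + 1) < ρ)
    (hgs : ∀ a : ℕ × ℕ, Sm U (gm a))
    (hgr : ∀ g : GT F, EqOn (rem (K + 1) (gm g.ix)) (fun _ => 0) U)
    (hlin : ∀ g : GT F, EqOn (rem (K + 1) (fun q => linA H.b Kf q (gm g.ix (Kf q))))
      (fun _ => 0) U ∨ |GT.th F g| ≤ ρ)
    (hFl : ∀ y ∈ ball (0 : E2) H.ρ, Fl U (K + 1)
      (fun q => ∇ (H.S y) q - ∑ g : GT F, F.raw y g.ι • gm g.ix q)) :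
    Str U (grH (GT.th F) (fun y : ball (0 : E2) ε => tv F y) b hb0 hb1).D ρ
      (fun (y : ball (0 : E2) ε) n q => ∇ (H.S (H.M^[n] (y : E2))) q
        - ∑ g : GT F, tv F (H.M^[n] (y : E2)) g • gm g.ix q) := by
  obtain ⟨Ψ', r, h1, h2, h3, h4, h5, h6⟩ := feed_restrict F hK
  have hy : ∀ (y : ball (0 : E2) ε), (y : E2) ∈ ball (0 : E2) F.rad :=
    fun y => ball_subset_ball hε y.2
  -- boundedness
  have hbd : ∃ R₀ : ℝ, ∀ y : ball (0 : E2) ε, ‖tv F (y : E2)‖ ≤ R₀ := by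
    have h7 : ContinuousOn (fun y : E2 => tv F y) (closedBall 0 ε) := by
      refine continuousOn_pi.2 fun g => ?_
      exact ((continuous_apply g.ι).comp_continuousOn F.v0_cont).mono
        (closedBall_subset_ball hεr)
    obtain ⟨C, hC⟩ := (isCompact_closedBall (0 : E2) ε).exists_bound_of_continuousOn h7
    exact ⟨C, fun y => hC _ (ball_subset_closedBall y.2)⟩
  have key := hat_expansion (b := b) (hb0 := hb0) (hb1 := hb1) (ρ := ρ) h1
    (fun g => (F.theta_le hℓ hκ g.ι).trans hθb) hrec hc hρ hρb (n₀ := K + 1) hJ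
    (fun g : GT F => gm g.ix) (fun g => hgs _) hgr r h2 h3 h4 hbd ?_ hlin
  · refine key.congr hrec.dom.op fun y n q _ => ?_
    simp only [h5 _ (hy y) n]
  · intro y n
    rw [h5 _ (hy y) n]
    have h8 := hFl (H.M^[n] (y : E2)) (F.rad_orbit hK (hy y) n).1
    simpa only [h6] using h8

end P207N3H639
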